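import Vale.Agent.P371G.ELLB

/-!
# P371G, module ASYM (helper17)
-/

namespace Vale.P371G

open Matrix Set Filter MeasureTheory
open scoped Topology ComplexOrder

namespace H17

variable {n : ℕ}

theorem log_cubic_aux {y e : ℝ} (hy : |y| ≤ e) (he : e ≤ 1 / 2) :
    y - 1 / 2 * (y * y) + 1 / 3 * (y * y * y) - 2 * e ^ 4 ≤ Real.log (1 + y) := by
  have h1 := Real.abs_log_sub_add_sum_range_le (x := -y) (by rw [abs_neg]; linarith) 3
  rw [abs_neg, sub_neg_eq_add] at h1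
  have h2 : |y| ^ (3 + 1) / (1 - |y|) ≤ 2 * e ^ 4 := by
    have h3 : (0 : ℝ) < 1 - |y| := by linarith
    rw [div_le_iff₀ h3]
    have h4 : |y| ^ (3 + 1) ≤ e ^ 4 := pow_le_pow_left₀ (abs_nonneg y) hy 4
    have h5 : (0 : ℝ) ≤ e ^ 4 := by positivity
    nlinarith
  have h3 := (abs_le.1 (h1.trans h2)).1
  norm_num [Finset.sum_range_succ] at h3
  nlinarith

theorem mlog_cubic {A : Mat n} (hA : A.IsHermitian) {q e : ℝ} (hq : 0 < q) (he : e ≤ 1 / 2)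
    (h1 : (A - (q * (1 - e)) • (1 : Mat n)).PosSemidef)
    (h2 : ((q * (1 + e)) • (1 : Mat n) - A).PosSemidef) :
    (mlog A - ((Real.log q) • (1 : Mat n) + (q⁻¹ • A - 1) -
      (1 / 2 : ℝ) • ((q⁻¹ • A - 1) * (q⁻¹ • A - 1)) +
      (1 / 3 : ℝ) • ((q⁻¹ • A - 1) * (q⁻¹ • A - 1) * (q⁻¹ • A - 1)) -
      (2 * e ^ 4) • (1 : Mat n))).PosSemidef := by
  have hy : q⁻¹ • A - 1 = cfc (fun x : ℝ => q⁻¹ * x - 1) A := by
    have e1 : q⁻¹ • A = cfc (fun x : ℝ => q⁻¹ * x) A := by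
      rw [← cfcm_smul, cfcm_id hA]
    have e2 : (1 : Mat n) = cfc (fun _ : ℝ => (1 : ℝ)) A := by
      rw [cfcm_const hA, one_smul]
    rw [e1]
    nth_rewrite 1 [e2]
    rw [cfcm_sub]
  rw [hy, cfcm_mul, cfcm_mul, cfcm_smul, cfcm_smul, ← cfcm_const hA, ← cfcm_const hA, cfcm_add,
    cfcm_sub, cfcm_add, cfcm_sub]
  refine cfc_sub_posSemidef hA fun x hx => ?_
  have h3 := spec_ge hA h1 x hx
  have h4 := spec_le hA h2 x hx
  have hx0 : 0 < x := lt_of_lt_of_le (by nlinarith) h3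
  have h5 : |q⁻¹ * x - 1| ≤ e := by
    rw [abs_le, inv_mul_eq_div]
    constructor
    · have : 1 - e ≤ x / q := by rw [le_div_iff₀ hq]; linarith
      linarith
    · have : x / q ≤ 1 + e := by rw [div_le_iff₀ hq]; linarith
      linarith
  have h6 := log_cubic_aux h5 he
  have h7 : Real.log x = Real.log q + Real.log (1 + (q⁻¹ * x - 1)) := by
    rw [← Real.log_mul hq.ne' (by
      have : 1 + (q⁻¹ * x - 1) = q⁻¹ * x := by ring
      rw [this]; positivity)]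
    congr 1
    field_simp
    ring
  rw [h7]
  linarith

theorem rt_add (A B : Mat n) : rt (A + B) = rt A + rt B := by simp [rt, Matrix.trace_add]
theorem rt_sub (A B : Mat n) : rt (A - B) = rt A - rt B := by simp [rt, Matrix.trace_sub]
theorem rt_smul (c : ℝ) (A : Mat n) : rt (c • A) = c * rt A := by simp [rt, Matrix.trace_smul]
theorem rt_one : rt (1 : Mat n) = n := by simp [rt]
theorem rt_nonneg {A : Mat n} (hA : A.PosSemidef) : 0 ≤ rt A :=
  (Complex.nonneg_iff.1 hA.trace_nonneg).1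
theorem rt_mul_comm (A B : Mat n) : rt (A * B) = rt (B * A) := by
  simp [rt, Matrix.trace_mul_comm A B]

theorem rt_mul_nonneg {A B : Mat n} (hA : A.PosSemidef) (hB : B.PosSemidef) : 0 ≤ rt (A * B) :=
  (Complex.nonneg_iff.1 (Vale.P371.trace_mul_nonneg hA hB)).1

theorem rt_cube (D f : Mat n) :
    rt ((D + f) * (D + f) * (D + f)) + rt ((D - f) * (D - f) * (D - f)) =
      2 * rt (D * D * D) + 6 * rt (D * (f * f)) := by
  have e : (D + f) * (D + f) * (D + f) + (D - f) * (D - f) * (D - f) =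
      (2 : ℝ) • (D * D * D) + (2 : ℝ) • (D * f * f) + (2 : ℝ) • (f * D * f) +
        (2 : ℝ) • (f * f * D) := by
    simp only [two_smul]
    noncomm_ring
  have h1 : rt (f * D * f) = rt (D * (f * f)) := by
    rw [Matrix.mul_assoc, rt_mul_comm f (D * f), Matrix.mul_assoc]
  have h2 : rt (f * f * D) = rt (D * (f * f)) := rt_mul_comm _ _
  have h3 : rt (D * f * f) = rt (D * (f * f)) := by rw [Matrix.mul_assoc]
  rw [← rt_add, e, rt_add, rt_add, rt_add, rt_smul, rt_smul, rt_smul, rt_smul, h1, h2, h3]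
  ring

theorem exists_bound {κ : Mat n} (hκ : κ.IsHermitian) :
    ∃ R : ℝ, 0 < R ∧ (R • (1 : Mat n) - κ).PosSemidef := by
  obtain ⟨R, hR⟩ := (Set.toFinite (spectrum ℝ κ)).bddAbove
  refine ⟨max R 1, by positivity, ?_⟩
  have e : κ = cfc (fun x : ℝ => x) κ := (cfcm_id hκ).symm
  rw [e]
  have := const_sub_cfc_posSemidef hκ (f := fun x => x) (c := max R 1)
    fun x hx => (hR hx).trans (le_max_left _ _)
  rwa [cfcm_id hκ] at this ⊢

theorem kt_up {κ : Mat n} {R : ℝ} (hκ : κ.PosDef) (hR : (R • (1 : Mat n) - κ).PosSemidef) {τ : ℝ}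
    (hτ : 0 < τ) : ((√τ + R ^ 2 / (2 * √τ)) • (1 : Mat n) - kt κ τ).PosSemidef := by
  unfold kt
  refine const_sub_cfc_posSemidef hκ.1 fun x hx => ?_
  have hx0 : 0 < x := spectrum_subset_Ioi hκ hx
  have hxR : x ≤ R := spec_le hκ.1 hR x hx
  have hq : 0 < √τ := Real.sqrt_pos.2 hτ
  have hqq : √τ * √τ = τ := Real.mul_self_sqrt hτ.le
  apply Real.sqrt_le_iff.2
  refine ⟨by positivity, ?_⟩
  have e : (√τ + R ^ 2 / (2 * √τ)) ^ 2 = √τ * √τ + R ^ 2 + (R ^ 2 / (2 * √τ)) ^ 2 := by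
    field_simp
    ring
  rw [e, hqq]
  nlinarith [sq_nonneg (R ^ 2 / (2 * √τ))]

theorem sqrt_lower {z : ℝ} (hz : 0 ≤ z) (hz1 : z ≤ 1) : 1 + z / 2 - z ^ 2 / 8 ≤ √(1 + z) := by
  apply Real.le_sqrt_of_sq_le
  nlinarith [mul_nonneg (mul_nonneg hz hz) (mul_nonneg hz (by linarith : 0 ≤ 8 - z)),
    mul_nonneg hz hz]

theorem smul_herm {F : Mat n} (hF : F.IsHermitian) (c : ℝ) : (c • F).IsHermitian := by
  unfold Matrix.IsHermitian
  rw [Matrix.conjTranspose_smul, hF.eq]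
  simp

theorem D_scalar {R τ x : ℝ} (hτ : 0 < τ) (hτR : 16 * R ^ 2 ≤ τ) (hx0 : 0 < x) (hxR : x ≤ R) :
    τ⁻¹ * (x * x) - R ^ 4 / (2 * τ ^ 2) ≤
      2 * ((√τ)⁻¹ * √(x ^ 2 + τ) - 1) -
        ((√τ)⁻¹ * √(x ^ 2 + τ) - 1) * ((√τ)⁻¹ * √(x ^ 2 + τ) - 1) := by
  have hq0 : 0 < √τ := Real.sqrt_pos.2 hτ
  set z : ℝ := x ^ 2 / τ with hz
  have hz0 : 0 ≤ z := by positivity
  have hxx : x ^ 2 ≤ R ^ 2 := by nlinarith
  have hz1 : z ≤ 1 := by
    rw [hz, div_le_one hτ]; nlinarith [sq_nonneg R]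
  have hs : (√τ)⁻¹ * √(x ^ 2 + τ) = √(1 + z) := by
    have : x ^ 2 + τ = (1 + z) * τ := by rw [hz]; field_simp; ring
    rw [this, Real.sqrt_mul (by positivity)]
    field_simp
  rw [hs]
  have h10 := sqrt_lower hz0 hz1
  have h11 : √(1 + z) ≤ 1 + z / 2 := by
    rw [Real.sqrt_le_left (by positivity)]
    nlinarith
  have h12 : 0 ≤ √(1 + z) - 1 := by
    rw [sub_nonneg, Real.one_le_sqrt]
    linarith
  have h13 : (√(1 + z) - 1) * (√(1 + z) - 1) ≤ z ^ 2 / 4 := by nlinarith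
  have h14 : τ⁻¹ * (x * x) = z := by rw [hz]; field_simp
  have h15 : z ^ 2 / 2 ≤ R ^ 4 / (2 * τ ^ 2) := by
    have : z ≤ R ^ 2 / τ := by rw [hz]; gcongr
    have h16 : z ^ 2 ≤ (R ^ 2 / τ) ^ 2 := pow_le_pow_left₀ hz0 this 2
    have h17 : (R ^ 2 / τ) ^ 2 / 2 = R ^ 4 / (2 * τ ^ 2) := by field_simp
    linarith
  rw [h14]
  nlinarith

theorem D_quad {κ : Mat n} {R τ : ℝ} (hκ : κ.PosDef) (hRκ : (R • (1 : Mat n) - κ).PosSemidef)
    (_hR : 0 < R) (hτ : 0 < τ) (hτR : 16 * R ^ 2 ≤ τ) :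
    ((2 : ℝ) • cfc (fun x : ℝ => (√τ)⁻¹ * √(x ^ 2 + τ) - 1) κ -
      cfc (fun x : ℝ => (√τ)⁻¹ * √(x ^ 2 + τ) - 1) κ *
        cfc (fun x : ℝ => (√τ)⁻¹ * √(x ^ 2 + τ) - 1) κ -
      (τ⁻¹ • (κ * κ) - (R ^ 4 / (2 * τ ^ 2)) • (1 : Mat n))).PosSemidef := by
  have ek : κ * κ = cfc (fun x : ℝ => x * x) κ := by
    have : κ * κ = cfc (fun x : ℝ => x) κ * cfc (fun x : ℝ => x) κ := by rw [cfcm_id hκ.1]
    rw [this, cfcm_mul]
  have e1 : τ⁻¹ • (κ * κ) - (R ^ 4 / (2 * τ ^ 2)) • (1 : Mat n) =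
      cfc (fun x : ℝ => τ⁻¹ * (x * x) - R ^ 4 / (2 * τ ^ 2)) κ := by
    rw [ek, cfcm_smul, ← cfcm_const hκ.1, cfcm_sub]
  rw [e1, cfcm_mul, cfcm_smul, cfcm_sub]
  refine cfc_sub_posSemidef hκ.1 fun x hx => ?_
  have hx0 : 0 < x := spectrum_subset_Ioi hκ hx
  have hxR : x ≤ R := spec_le hκ.1 hRκ x hx
  exact D_scalar hτ hτR hx0 hxR

end H17

open H17

theorem asym_module (pos : S_POS) : S_ASYM := by
  intro n κ Q h
  have hκ0 : κ.PosDef := half_two_posDef h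
  obtain ⟨R, hR, hRκ⟩ := exists_bound hκ0.1
  refine ⟨16 * R ^ 2 + 65 * n * R ^ 4 + 1, ?_⟩
  intro τ hτC
  have hnR : (0 : ℝ) ≤ 65 * n * R ^ 4 := by positivity
  have hτR : 16 * R ^ 2 ≤ τ := by linarith
  have hτ1 : 1 ≤ τ := by nlinarith [sq_nonneg R]
  have hτ : 0 < τ := by linarith
  obtain ⟨hκ, hkt, hZ, hPt, hQt, hsq, hcomm, hprod⟩ := pos n κ Q τ h hτ
  obtain ⟨hQ, hP⟩ := id h
  have hP' : (κ + κ - Q).PosSemidef := hP.posSemidef
  have hFh : (κ - Q).IsHermitian := hκ.1.sub hQ.1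
  set q : ℝ := √τ with hq
  have hq0 : 0 < q := Real.sqrt_pos.2 hτ
  have hqq : q * q = τ := Real.mul_self_sqrt hτ.le
  have hqR : 4 * R ≤ q := by
    apply Real.le_sqrt_of_sq_le
    nlinarith
  have hF1 : (R • (1 : Mat n) - (κ - Q)).PosSemidef := F_up hQ hRκ
  have hF2 : (R • (1 : Mat n) + (κ - Q)).PosSemidef := F_lo hP' hRκ
  set e : ℝ := 2 * R / q with he
  have he2 : e ≤ 1 / 2 := by
    rw [he, div_le_iff₀ hq0]; linarith
  have hqe : q * e = 2 * R := by rw [he]; field_simp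
  have hRq : R ^ 2 / (2 * q) ≤ R := by
    rw [div_le_iff₀ (by positivity)]
    nlinarith
  have hup := kt_up hκ hRκ hτ
  rw [← hq] at hup
  have hlo := kt_lo hκ.1 (τ := τ)
  rw [← hq] at hlo
  have hP1 : (Pt κ Q τ - (q * (1 - e)) • (1 : Mat n)).PosSemidef := by
    have h3 := (hlo.add hF2).add (smul_one_posSemidef (n := n) (c := q * e - R) (by linarith))
    refine posSemidef_cast h3 ?_
    unfold Pt
    module
  have hQ1 : (Qt κ Q τ - (q * (1 - e)) • (1 : Mat n)).PosSemidef := by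
    have h3 := (hlo.add hF1).add (smul_one_posSemidef (n := n) (c := q * e - R) (by linarith))
    refine posSemidef_cast h3 ?_
    unfold Qt
    module
  have hP2 : ((q * (1 + e)) • (1 : Mat n) - Pt κ Q τ).PosSemidef := by
    have h3 := (hup.add hF1).add
      (smul_one_posSemidef (n := n) (c := q * e - R - R ^ 2 / (2 * q)) (by linarith))
    refine posSemidef_cast h3 ?_
    unfold Pt
    module
  have hQ2 : ((q * (1 + e)) • (1 : Mat n) - Qt κ Q τ).PosSemidef := by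
    have h3 := (hup.add hF2).add
      (smul_one_posSemidef (n := n) (c := q * e - R - R ^ 2 / (2 * q)) (by linarith))
    refine posSemidef_cast h3 ?_
    unfold Qt
    module
  have h1 := rt_nonneg (mlog_cubic hPt.1 hq0 he2 hP1 hP2)
  have h2 := rt_nonneg (mlog_cubic hQt.1 hq0 he2 hQ1 hQ2)
  set D : Mat n := q⁻¹ • kt κ τ - 1 with hD
  set f : Mat n := q⁻¹ • (κ - Q) with hf
  have e1 : q⁻¹ • Pt κ Q τ - 1 = D + f := by
    rw [hD, hf]; unfold Pt; module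
  have e2 : q⁻¹ • Qt κ Q τ - 1 = D - f := by
    rw [hD, hf]; unfold Qt; module
  rw [e1] at h1
  rw [e2] at h2
  have hDc : D = cfc (fun x : ℝ => q⁻¹ * √(x ^ 2 + τ) - 1) κ := by
    rw [hD]
    unfold kt
    rw [cfcm_smul]
    have : (1 : Mat n) = cfc (fun _ : ℝ => (1 : ℝ)) κ := by
      rw [cfcm_const hκ.1, one_smul]
    nth_rewrite 1 [this]
    rw [cfcm_sub]
  have hdpos : ∀ x : ℝ, 0 ≤ q⁻¹ * √(x ^ 2 + τ) - 1 := by
    intro x
    have h4 : q ≤ √(x ^ 2 + τ) := Real.sqrt_le_sqrt (by nlinarith [sq_nonneg x])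
    rw [inv_mul_eq_div, sub_nonneg, le_div_iff₀ hq0]
    linarith
  have hDpsd : D.PosSemidef := by
    rw [hDc]; exact cfc_posSemidef hκ.1 fun x _ => hdpos x
  have hDDD : (D * D * D).PosSemidef := by
    rw [hDc, cfcm_mul, cfcm_mul]
    exact cfc_posSemidef hκ.1 fun x _ => mul_nonneg (mul_nonneg (hdpos x) (hdpos x)) (hdpos x)
  have hfh : f.IsHermitian := by
    rw [hf]
    exact smul_herm hFh _
  have hff : (f * f).PosSemidef := by
    have : f * f = f * fᴴ := by rw [hfh.eq]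
    rw [this]
    exact Matrix.posSemidef_self_mul_conjTranspose f
  have h5 := rt_nonneg hDDD
  have h6 := rt_mul_nonneg hDpsd hff
  have h7 := rt_cube D f
  have h8 := congrArg rt (sq_add_sq D f)
  have h9 := D_quad hκ hRκ hR hτ hτR
  rw [← hq, ← hDc] at h9
  have h10 := rt_nonneg h9
  -- rt f² = rt F² / τ
  have h11 : rt (f * f) = τ⁻¹ * rt ((κ - Q) * (κ - Q)) := by
    rw [hf, Matrix.smul_mul, Matrix.mul_smul, smul_smul, rt_smul]
    congr 1
    rw [← hqq]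
    field_simp
  have hlog : Real.log τ = 2 * Real.log q := by
    rw [← hqq, Real.log_mul hq0.ne' hq0.ne']; ring
  have hA : rt (Am κ Q) = rt (κ * κ) - rt ((κ - Q) * (κ - Q)) := by
    unfold Am; rw [rt_sub]
  have hell : rt (ell κ Q τ) = rt (mlog (Pt κ Q τ)) + rt (mlog (Qt κ Q τ)) -
      2 * Real.log q * n := by
    unfold ell
    rw [rt_sub, rt_add, rt_smul, rt_one, hlog]
  simp only [rt_add, rt_sub, rt_smul, rt_one] at h1 h2 h8 h10
  have he4 : e ^ 4 = 16 * R ^ 4 / τ ^ 2 := by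
    rw [he, ← hqq]
    field_simp
    ring
  rw [he4] at h1 h2
  have hfin : rt (Am κ Q) / τ - 65 * n * R ^ 4 / τ ^ 2 ≤ rt (ell κ Q τ) := by
    rw [hell, hA]
    have e3 : (rt (κ * κ) - rt ((κ - Q) * (κ - Q))) / τ = τ⁻¹ * rt (κ * κ) - rt (f * f) := by
      rw [h11]; field_simp
    rw [e3]
    have e4 : R ^ 4 / (2 * τ ^ 2) * n = (1 / 2) * (n * R ^ 4 / τ ^ 2) := by field_simp
    have e5 : 2 * (16 * R ^ 4 / τ ^ 2) * n = 32 * (n * R ^ 4 / τ ^ 2) := by ring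
    have e6 : 65 * n * R ^ 4 / τ ^ 2 = 65 * (n * R ^ 4 / τ ^ 2) := by ring
    have e7 : 0 ≤ n * R ^ 4 / τ ^ 2 := by positivity
    rw [e5] at h1 h2
    rw [e4] at h10
    rw [e6]
    linarith
  have h12 : 65 * n * R ^ 4 / τ ^ 2 ≤ (16 * R ^ 2 + 65 * n * R ^ 4 + 1) / τ ^ 2 := by
    gcongr
    nlinarith [sq_nonneg R]
  linarith

end Vale.P371G
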