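import Vale.Agent.P371G.H17Base

/-!
# P371G, module CONT (helper17)
-/

namespace Vale.P371G

open Matrix Set Filter MeasureTheory
open scoped Topology ComplexOrder

open H17

theorem cont_module (pos : S_POS) : S_CONT := by
  intro n
  have hmlog : ContinuousOn (fun A : Mat n => mlog A) {A | A.PosDef} :=
    continuousOn_mlog continuousOn_id fun A hA => hA
  have hfst : ContinuousOn (fun z : Mat n × Mat n => z.1) (Dm n) := continuous_fst.continuousOn
  have hsnd : ContinuousOn (fun z : Mat n × Mat n => z.2) (Dm n) := continuous_snd.continuousOn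
  refine ⟨fun τ hτ => ?_, fun τ hτ => ?_, fun z hz => ?_, fun z hz => ?_, hmlog⟩
  · have hp := fun z : Mat n × Mat n => fun hz : z ∈ Dm n => pos n z.1 z.2 τ hz hτ
    have hk : ContinuousOn (fun z : Mat n × Mat n => kt z.1 τ) (Dm n) :=
      continuousOn_kt hfst fun z hz => (hp z hz).1.1
    unfold ell
    refine ContinuousOn.sub (ContinuousOn.add ?_ ?_) continuousOn_const
    · exact continuousOn_mlog ((hk.add hfst).sub hsnd) fun z hz => (hp z hz).2.2.2.1
    · exact continuousOn_mlog ((hk.sub hfst).add hsnd) fun z hz => (hp z hz).2.2.2.2.1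
  · have hp := fun z : Mat n × Mat n => fun hz : z ∈ Dm n => pos n z.1 z.2 τ hz hτ
    have hk : ContinuousOn (fun z : Mat n × Mat n => kt z.1 τ) (Dm n) :=
      continuousOn_kt hfst fun z hz => (hp z hz).1.1
    unfold gam
    refine ContinuousOn.sub (ContinuousOn.sub (ContinuousOn.add (ContinuousOn.sub ?_ ?_) ?_) ?_) ?_
    · exact continuousOn_eta (hk.add hfst) fun z hz => (hp z hz).2.1.add (hp z hz).1
    · exact continuousOn_eta ((hk.add hfst).sub hsnd) fun z hz => (hp z hz).2.2.2.1
    · exact continuousOn_eta ((hk.sub hfst).add hsnd) fun z hz => (hp z hz).2.2.2.2.1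
    · exact continuousOn_eta (hk.sub hfst) fun z hz => (hp z hz).2.2.1
    · exact continuousOn_const.mul (continuous_rt.comp_continuousOn hsnd)
  · have hp := fun τ : ℝ => fun hτ : τ ∈ Ioi (0:ℝ) => pos n z.1 z.2 τ hz hτ
    have hz1 : z.1.IsHermitian := (pos n z.1 z.2 1 hz one_pos).1.1
    have hk : ContinuousOn (fun τ : ℝ => kt z.1 τ) (Ioi 0) := (continuous_kt_right hz1).continuousOn
    unfold ell
    refine ContinuousOn.sub (ContinuousOn.add ?_ ?_) ?_
    · exact continuousOn_mlog ((hk.add continuousOn_const).sub continuousOn_const)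
        fun τ hτ => (hp τ hτ).2.2.2.1
    · exact continuousOn_mlog ((hk.sub continuousOn_const).add continuousOn_const)
        fun τ hτ => (hp τ hτ).2.2.2.2.1
    · exact (Real.continuousOn_log.mono fun x hx => ne_of_gt hx).smul continuousOn_const
  · have hp := fun τ : ℝ => fun hτ : τ ∈ Ioi (0:ℝ) => pos n z.1 z.2 τ hz hτ
    have hz1 : z.1.IsHermitian := (pos n z.1 z.2 1 hz one_pos).1.1
    have hk : ContinuousOn (fun τ : ℝ => kt z.1 τ) (Ioi 0) := (continuous_kt_right hz1).continuousOn
    unfold gam
    refine ContinuousOn.sub (ContinuousOn.sub (ContinuousOn.add (ContinuousOn.sub ?_ ?_) ?_) ?_) ?_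
    · exact continuousOn_eta (hk.add continuousOn_const)
        fun τ hτ => (hp τ hτ).2.1.add (hp τ hτ).1
    · exact continuousOn_eta ((hk.add continuousOn_const).sub continuousOn_const)
        fun τ hτ => (hp τ hτ).2.2.2.1
    · exact continuousOn_eta ((hk.sub continuousOn_const).add continuousOn_const)
        fun τ hτ => (hp τ hτ).2.2.2.2.1
    · exact continuousOn_eta (hk.sub continuousOn_const) fun τ hτ => (hp τ hτ).2.2.1
    · exact (continuousOn_const.add (Real.continuousOn_log.mono fun x hx => ne_of_gt hx)).mul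
        continuousOn_const

end Vale.P371G
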