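import Vale.Agent.P371G.Defs

/-!
# P371G: module COMM
-/

namespace Vale.P371G

open MeasureTheory Filter Matrix
open scoped Topology ComplexOrder ComplexConjugate

namespace CommAux

variable {n : ℕ}

theorem cont_spec (Q : Mat n) (f : ℝ → ℝ) : ContinuousOn f (spectrum ℝ Q) :=
  (Matrix.finite_real_spectrum).continuousOn f

theorem cont_spec' (Q : Mat n) (g f : ℝ → ℝ) : ContinuousOn g (f '' spectrum ℝ Q) :=
  ((Matrix.finite_real_spectrum).image f).continuousOn g

theorem rt_cfc {Q : Mat n} (hQ : Q.IsHermitian) (f : ℝ → ℝ) :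
    rt (cfc f Q) = ∑ i, f (hQ.eigenvalues i) := by
  rw [rt, hQ.cfc_eq, Matrix.IsHermitian.cfc, Unitary.conjStarAlgAut_apply, Matrix.trace_mul_comm,
    ← Matrix.mul_assoc]
  have h1 : (star hQ.eigenvectorUnitary : Matrix (Fin n) (Fin n) ℂ) *
      (hQ.eigenvectorUnitary : Matrix (Fin n) (Fin n) ℂ) = 1 :=
    Unitary.coe_star_mul_self hQ.eigenvectorUnitary
  rw [h1, Matrix.one_mul, Matrix.trace_diagonal]
  simp

theorem cfc_cfc {Q : Mat n} (hQ : Q.IsHermitian) (g f : ℝ → ℝ) :
    cfc g (cfc f Q) = cfc (fun x => g (f x)) Q :=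
  (cfc_comp' g f Q (cont_spec' Q g f) (cont_spec Q f) hQ).symm

theorem add_cfc (Q : Mat n) (f g : ℝ → ℝ) :
    cfc f Q + cfc g Q = cfc (fun x => f x + g x) Q :=
  (cfc_add Q f g (cont_spec Q f) (cont_spec Q g)).symm

theorem sub_cfc (Q : Mat n) (f g : ℝ → ℝ) :
    cfc f Q - cfc g Q = cfc (fun x => f x - g x) Q :=
  (cfc_sub f g Q (cont_spec Q f) (cont_spec Q g)).symm

theorem mul_cfc (Q : Mat n) (f g : ℝ → ℝ) :
    cfc f Q * cfc g Q = cfc (fun x => f x * g x) Q :=
  (cfc_mul f g Q (cont_spec Q f) (cont_spec Q g)).symm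

theorem eta_cfc {Q : Mat n} (hQ : Q.IsHermitian) (f : ℝ → ℝ) :
    eta (cfc f Q) = ∑ i, f (hQ.eigenvalues i) * Real.log (f (hQ.eigenvalues i)) := by
  rw [eta, mlog, cfc_cfc hQ, mul_cfc, rt_cfc hQ]

theorem self_cfc {Q : Mat n} (hQ : Q.IsHermitian) : cfc (fun x : ℝ => x) Q = Q :=
  cfc_id' ℝ Q (ha := hQ)

theorem kap_cfc {Q : Mat n} (hQ : Q.IsHermitian) (e : ℝ) :
    (1 / 2 : ℝ) • (Q + e • (1 : Mat n)) = cfc (fun q : ℝ => (q + e) / 2) Q := by
  have h1 : cfc (fun q : ℝ => (1 / 2 : ℝ) * (q + e)) Q = (1 / 2 : ℝ) • cfc (fun q : ℝ => q + e) Q :=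
    cfc_const_mul (1 / 2 : ℝ) (fun q : ℝ => q + e) Q (cont_spec Q _)
  have h2 : cfc (fun q : ℝ => q + e) Q = cfc (fun q : ℝ => q) Q + algebraMap ℝ (Mat n) e :=
    cfc_add_const e (fun q : ℝ => q) Q (cont_spec Q _) (ha := hQ)
  rw [self_cfc hQ, Algebra.algebraMap_eq_smul_one] at h2
  rw [← h2, ← h1]
  congr 1
  funext q
  ring

/-- scalar layer function -/
noncomputable def sg (e q τ : ℝ) : ℝ :=
  (√(((q + e) / 2) ^ 2 + τ) + (q + e) / 2) * Real.log (√(((q + e) / 2) ^ 2 + τ) + (q + e) / 2)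
    - (√(((q + e) / 2) ^ 2 + τ) + (q + e) / 2 - q) *
        Real.log (√(((q + e) / 2) ^ 2 + τ) + (q + e) / 2 - q)
    + (√(((q + e) / 2) ^ 2 + τ) - (q + e) / 2 + q) *
        Real.log (√(((q + e) / 2) ^ 2 + τ) - (q + e) / 2 + q)
    - (√(((q + e) / 2) ^ 2 + τ) - (q + e) / 2) * Real.log (√(((q + e) / 2) ^ 2 + τ) - (q + e) / 2)
    - (2 + Real.log τ) * q

theorem gam_eq {Q : Mat n} (hQ : Q.IsHermitian) (e τ : ℝ) :
    gam ((1 / 2 : ℝ) • (Q + e • (1 : Mat n))) Q τ = ∑ i, sg e (hQ.eigenvalues i) τ := by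
  have hk : kt ((1 / 2 : ℝ) • (Q + e • (1 : Mat n))) τ
      = cfc (fun q : ℝ => √(((q + e) / 2) ^ 2 + τ)) Q := by
    rw [kt, kap_cfc hQ, cfc_cfc hQ]
  have hrt : rt Q = ∑ i, hQ.eigenvalues i := by
    have := rt_cfc hQ (fun x : ℝ => x)
    rwa [self_cfc hQ] at this
  have h1 : kt ((1 / 2 : ℝ) • (Q + e • (1 : Mat n))) τ + (1 / 2 : ℝ) • (Q + e • (1 : Mat n))
      = cfc (fun q : ℝ => √(((q + e) / 2) ^ 2 + τ) + (q + e) / 2) Q := by
    rw [hk, kap_cfc hQ, add_cfc]
  have h2 : kt ((1 / 2 : ℝ) • (Q + e • (1 : Mat n))) τ - (1 / 2 : ℝ) • (Q + e • (1 : Mat n))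
      = cfc (fun q : ℝ => √(((q + e) / 2) ^ 2 + τ) - (q + e) / 2) Q := by
    rw [hk, kap_cfc hQ, sub_cfc]
  have h3 : Pt ((1 / 2 : ℝ) • (Q + e • (1 : Mat n))) Q τ
      = cfc (fun q : ℝ => √(((q + e) / 2) ^ 2 + τ) + (q + e) / 2 - q) Q := by
    rw [Pt, h1]
    nth_rewrite 2 [← self_cfc hQ]
    rw [sub_cfc]
  have h4 : Qt ((1 / 2 : ℝ) • (Q + e • (1 : Mat n))) Q τ
      = cfc (fun q : ℝ => √(((q + e) / 2) ^ 2 + τ) - (q + e) / 2 + q) Q := by
    rw [Qt, h2]
    nth_rewrite 2 [← self_cfc hQ]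
    rw [add_cfc]
  rw [gam, h1, h2, h3, h4, eta_cfc hQ, eta_cfc hQ, eta_cfc hQ, eta_cfc hQ, hrt, Finset.mul_sum,
    ← Finset.sum_sub_distrib, ← Finset.sum_add_distrib, ← Finset.sum_sub_distrib,
    ← Finset.sum_sub_distrib]
  rfl

theorem mpow_eq {Q : Mat n} (hQ : Q.IsHermitian) (e p : ℝ) :
    rt (mpow p ((1 / 2 : ℝ) • (Q + e • (1 : Mat n))))
      = ∑ i, ((hQ.eigenvalues i + e) / 2) ^ p := by
  rw [mpow, kap_cfc hQ, cfc_cfc hQ, rt_cfc hQ]

/-- the scalar layer as an integral -/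
theorem sg_eq (e q τ : ℝ) (he : 0 < e) (hq : 0 ≤ q) (hτ : 0 < τ) :
    sg e q τ = ∫ x in (0 : ℝ)..q, Real.log (1 + x * (q + e - x) / τ) := by
  set k : ℝ := (q + e) / 2 with hk
  set r : ℝ := √(k ^ 2 + τ) with hr
  have hk0 : 0 < k := by rw [hk]; positivity
  have hr2 : r ^ 2 = k ^ 2 + τ := Real.sq_sqrt (by positivity)
  have hrk : k < r := by
    rw [hr]; exact Real.lt_sqrt_of_sq_lt (by linarith)
  have hderiv : ∀ x ∈ Set.uIcc 0 q, HasDerivAt (fun x : ℝ =>
      -((r + k - x) * Real.log (r + k - x)) + (r - k + x) * Real.log (r - k + x)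
        - (2 + Real.log τ) * x) (Real.log (1 + x * (q + e - x) / τ)) x := by
    intro x hx
    rw [Set.uIcc_of_le hq] at hx
    have h1 : 0 < r + k - x := by
      have : k ≥ q - k + 0 := by rw [hk]; linarith
      linarith [hx.2]
    have h2 : 0 < r - k + x := by linarith [hx.1]
    have d1 : HasDerivAt (fun x : ℝ => (r + k - x) * Real.log (r + k - x))
        ((Real.log (r + k - x) + 1) * (-1)) x := by
      have hin : HasDerivAt (fun x : ℝ => r + k - x) (-1) x := by
        simpa using (hasDerivAt_id x).const_sub (r + k)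
      exact (Real.hasDerivAt_mul_log h1.ne').comp x hin
    have d2 : HasDerivAt (fun x : ℝ => (r - k + x) * Real.log (r - k + x))
        ((Real.log (r - k + x) + 1) * 1) x := by
      have hin : HasDerivAt (fun x : ℝ => r - k + x) 1 x := by
        simpa using (hasDerivAt_id x).const_add (r - k)
      exact (Real.hasDerivAt_mul_log h2.ne').comp x hin
    have d3 : HasDerivAt (fun x : ℝ => (2 + Real.log τ) * x) ((2 + Real.log τ) * 1) x :=
      (hasDerivAt_id x).const_mul _
    have d := (d1.neg.add d2).sub d3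
    refine HasDerivAt.congr_deriv d ?_
    have h3 : 1 + x * (q + e - x) / τ = (r + k - x) * (r - k + x) / τ := by
      have h4 : (r + k - x) * (r - k + x) = τ + x * (q + e - x) := by
        have : q + e = 2 * k := by rw [hk]; ring
        rw [this]
        nlinarith
      rw [h4, add_div, div_self hτ.ne']
    rw [h3, Real.log_div (by positivity) hτ.ne', Real.log_mul h1.ne' h2.ne']
    ring
  have hcont : ContinuousOn (fun x : ℝ => Real.log (1 + x * (q + e - x) / τ)) (Set.uIcc 0 q) := by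
    apply ContinuousOn.log
    · fun_prop
    · intro x hx
      rw [Set.uIcc_of_le hq] at hx
      have : 0 ≤ x * (q + e - x) / τ := by
        have h1 := hx.1
        have h2 : 0 ≤ q + e - x := by linarith [hx.2]
        positivity
      positivity
  rw [intervalIntegral.integral_eq_sub_of_hasDerivAt hderiv hcont.intervalIntegrable]
  simp only [sg, ← hk, ← hr]
  ring_nf

/-- the scalar inequality -/
theorem scal_int (s e q : ℝ) (hs0 : 0 < s) (hs1 : s < 1) (he : 0 < e) (hq : 0 ≤ q) :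
    LTG.Bs s * ((q + e) / 2) ^ (2 * s + 1) - e * ((q + e) / 2) ^ (2 * s)
      ≤ ∫ x in (0 : ℝ)..q, (x * (q + e - x)) ^ s := by
  set k : ℝ := (q + e) / 2 with hk
  have hk0 : 0 < k := by rw [hk]; positivity
  have hc : Continuous (fun t : ℝ => (k ^ 2 - t ^ 2) ^ s) := by
    apply Continuous.rpow_const (by fun_prop)
    intro x; right; exact hs0.le
  have h1 : ∫ x in (0 : ℝ)..q, (x * (q + e - x)) ^ s = ∫ t in (-k)..(q - k), (k ^ 2 - t ^ 2) ^ s := by
    have h2 := intervalIntegral.integral_comp_sub_right (a := 0) (b := q)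
      (fun t : ℝ => (k ^ 2 - t ^ 2) ^ s) k
    rw [zero_sub] at h2
    rw [← h2]
    apply intervalIntegral.integral_congr
    intro x _
    simp only
    congr 1
    have : q + e = 2 * k := by rw [hk]; ring
    rw [this]; ring
  have h3 : ∫ t in (-k)..k, (k ^ 2 - t ^ 2) ^ s = LTG.Bs s * k ^ (2 * s + 1) := by
    have h4 := intervalIntegral.integral_comp_mul_left (a := -1) (b := 1)
      (fun t : ℝ => (k ^ 2 - t ^ 2) ^ s) hk0.ne'
    rw [mul_neg, mul_one] at h4
    have h5 : ∫ y in (-1 : ℝ)..1, (k ^ 2 - (k * y) ^ 2) ^ s = k ^ (2 * s) * LTG.Bs s := by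
      rw [LTG.Bs, ← intervalIntegral.integral_const_mul]
      apply intervalIntegral.integral_congr
      intro y hy
      rw [Set.uIcc_of_le (by norm_num)] at hy
      simp only
      have h6 : k ^ 2 - (k * y) ^ 2 = k ^ 2 * (1 - y ^ 2) := by ring
      have h7 : 0 ≤ 1 - y ^ 2 := by nlinarith [hy.1, hy.2]
      rw [h6, Real.mul_rpow (by positivity) h7, Real.rpow_mul hk0.le, Real.rpow_two]
    rw [h5, smul_eq_mul] at h4
    rw [Real.rpow_add hk0, Real.rpow_one]
    field_simp at h4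
    linarith
  have hint : ∀ a b : ℝ, IntervalIntegrable (fun t : ℝ => (k ^ 2 - t ^ 2) ^ s) volume a b :=
    fun a b => hc.intervalIntegrable a b
  have hqk : q - k = k - e := by rw [hk]; ring
  have h8 : ∫ t in (-k)..(q - k), (k ^ 2 - t ^ 2) ^ s
      = (∫ t in (-k)..k, (k ^ 2 - t ^ 2) ^ s) - ∫ t in (k - e)..k, (k ^ 2 - t ^ 2) ^ s := by
    rw [hqk, ← intervalIntegral.integral_add_adjacent_intervals (hint (-k) (k - e)) (hint (k - e) k)]
    ring
  have h9 : ∫ t in (k - e)..k, (k ^ 2 - t ^ 2) ^ s ≤ e * k ^ (2 * s) := by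
    calc ∫ t in (k - e)..k, (k ^ 2 - t ^ 2) ^ s ≤ ∫ t in (k - e)..k, k ^ (2 * s) := by
          apply intervalIntegral.integral_mono_on (by linarith) (hint _ _)
            (intervalIntegrable_const)
          intro t ht
          have h10 : 0 ≤ k ^ 2 - t ^ 2 := by
            have : -k ≤ k - e := by rw [hk]; linarith
            nlinarith [ht.1, ht.2]
          rw [Real.rpow_mul hk0.le, Real.rpow_two]
          exact Real.rpow_le_rpow h10 (by nlinarith [sq_nonneg t]) hs0.le
      _ = e * k ^ (2 * s) := by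
          rw [intervalIntegral.integral_const, smul_eq_mul]; ring
  rw [h1, h8, h3]
  linarith

end CommAux

open CommAux in
theorem comm (hscal : S_SCAL) : S_COMM := by
  intro n s Q e hs0 hs1 hQ he
  obtain ⟨hI0, -, hlog, -⟩ := hscal s hs0 hs1
  have hH : Q.IsHermitian := hQ.1
  have hq : ∀ i, 0 ≤ hH.eigenvalues i := fun i => hQ.eigenvalues_nonneg i
  -- per eigenvalue
  have key : ∀ q : ℝ, 0 ≤ q → IntegrableOn (fun τ => wt s τ * sg e q τ) (Set.Ioi 0) ∧
      ∫ τ in Set.Ioi (0 : ℝ), wt s τ * sg e q τ = ∫ x in (0 : ℝ)..q, (x * (q + e - x)) ^ s := by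
    intro q hq
    have hnn : ∀ x ∈ Set.Ioc (0 : ℝ) q, 0 ≤ x * (q + e - x) := by
      intro x hx
      have h1 := hx.1.le
      have h2 : 0 ≤ q + e - x := by linarith [hx.2]
      positivity
    have hmeas : Measurable (fun z : ℝ × ℝ => wt s z.1 * Real.log (1 + z.2 * (q + e - z.2) / z.1)) := by
      unfold wt
      fun_prop
    have hwt : ∀ τ : ℝ, 0 < τ → 0 ≤ wt s τ := by
      intro τ hτ; unfold wt; positivity
    have hint : Integrable (Function.uncurry fun (τ x : ℝ) =>
        wt s τ * Real.log (1 + x * (q + e - x) / τ))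
        ((volume.restrict (Set.Ioi 0)).prod (volume.restrict (Set.Ioc 0 q))) := by
      have hmeas' : AEStronglyMeasurable (Function.uncurry fun (τ x : ℝ) =>
          wt s τ * Real.log (1 + x * (q + e - x) / τ))
          ((volume.restrict (Set.Ioi 0)).prod (volume.restrict (Set.Ioc 0 q))) :=
        hmeas.aestronglyMeasurable
      rw [integrable_prod_iff' hmeas']
      constructor
      · filter_upwards [ae_restrict_mem measurableSet_Ioc] with x hx
        exact (hlog _ (hnn x hx)).1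
      · have h1 : ∀ᵐ x ∂(volume.restrict (Set.Ioc 0 q)),
            (∫ τ in Set.Ioi (0 : ℝ), ‖Function.uncurry (fun (τ x : ℝ) =>
              wt s τ * Real.log (1 + x * (q + e - x) / τ)) (τ, x)‖) = (x * (q + e - x)) ^ s := by
          filter_upwards [ae_restrict_mem measurableSet_Ioc] with x hx
          rw [← (hlog _ (hnn x hx)).2]
          apply setIntegral_congr_fun measurableSet_Ioi
          intro τ hτ
          simp only [Function.uncurry]
          rw [Real.norm_of_nonneg]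
          apply mul_nonneg (hwt τ hτ)
          apply Real.log_nonneg
          have : 0 ≤ x * (q + e - x) / τ := div_nonneg (hnn x hx) (le_of_lt hτ)
          linarith
        rw [integrable_congr h1]
        have hc : Continuous (fun x : ℝ => (x * (q + e - x)) ^ s) := by
          apply Continuous.rpow_const (by fun_prop)
          intro x; right; exact hs0.le
        exact (hc.intervalIntegrable 0 q).1
    have hsg : ∀ τ ∈ Set.Ioi (0 : ℝ), wt s τ * sg e q τ
        = ∫ x in Set.Ioc 0 q, wt s τ * Real.log (1 + x * (q + e - x) / τ) := by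
      intro τ hτ
      rw [sg_eq e q τ he hq hτ, intervalIntegral.integral_of_le hq, integral_const_mul]
    constructor
    · have h2 := hint.integral_prod_left
      refine Integrable.congr h2 ?_
      filter_upwards [ae_restrict_mem measurableSet_Ioi] with τ hτ
      rw [hsg τ hτ]
      rfl
    · rw [setIntegral_congr_fun measurableSet_Ioi hsg, integral_integral_swap hint,
        intervalIntegral.integral_of_le hq]
      apply setIntegral_congr_fun measurableSet_Ioc
      intro x hx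
      exact (hlog _ (hnn x hx)).2
  have hGam : Gam s ((1 / 2 : ℝ) • (Q + e • (1 : Mat n))) Q
      = ∑ i, ∫ x in (0 : ℝ)..hH.eigenvalues i, (x * (hH.eigenvalues i + e - x)) ^ s := by
    unfold Gam
    have h1 : ∀ τ : ℝ, wt s τ * gam ((1 / 2 : ℝ) • (Q + e • (1 : Mat n))) Q τ
        = ∑ i, wt s τ * sg e (hH.eigenvalues i) τ := by
      intro τ
      rw [gam_eq hH, Finset.mul_sum]
    simp only [h1]
    rw [integral_finsetSum _ (fun i _ => (key _ (hq i)).1)]
    exact Finset.sum_congr rfl fun i _ => (key _ (hq i)).2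
  rw [hGam, mpow_eq hH, mpow_eq hH, Finset.mul_sum, Finset.mul_sum, ← Finset.sum_sub_distrib]
  exact Finset.sum_le_sum fun i _ => scal_int s e _ hs0 hs1 he (hq i)

end Vale.P371G
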