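import Vale.Agent.P371G.Drep

/-!
# P371G: midpoint concavity of the layer functional
-/

namespace Vale.P371G

open MeasureTheory Set Filter Matrix
open scoped Topology ComplexOrder ComplexConjugate

namespace CONC

variable {n : ℕ}

theorem rt_add (A B : Mat n) : rt (A + B) = rt A + rt B := by
  unfold rt; rw [Matrix.trace_add, Complex.add_re]

theorem rt_sub (A B : Mat n) : rt (A - B) = rt A - rt B := by
  unfold rt; rw [Matrix.trace_sub, Complex.sub_re]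

theorem rt_neg (A : Mat n) : rt (-A) = -rt A := by
  unfold rt; rw [Matrix.trace_neg, Complex.neg_re]

theorem rt_smul (c : ℝ) (A : Mat n) : rt (c • A) = c * rt A := by
  unfold rt; rw [Matrix.trace_smul, Complex.smul_re, smul_eq_mul]

theorem rt_comm (A B : Mat n) : rt (A * B) = rt (B * A) := by
  unfold rt; rw [Matrix.trace_mul_comm]

theorem rt_star (A : Mat n) : rt Aᴴ = rt A := by
  unfold rt; rw [Matrix.trace_conjTranspose, RCLike.star_def, Complex.conj_re]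

theorem rt_nonneg {A : Mat n} (hA : A.PosSemidef) : 0 ≤ rt A :=
  (Complex.nonneg_iff.1 hA.trace_nonneg).1

/-- completing the square, left -/
theorem sqL {T : Mat n} (hT : T.PosSemidef) (X Y : Mat n) :
    2 * rt (Yᴴ * T * X) ≤ rt (Xᴴ * T * X) + rt (Yᴴ * T * Y) := by
  have h1 := rt_nonneg (hT.conjTranspose_mul_mul_same (X - Y))
  have h2 : (X - Y)ᴴ * T * (X - Y) = Xᴴ * T * X - Xᴴ * T * Y - Yᴴ * T * X + Yᴴ * T * Y := by
    rw [Matrix.conjTranspose_sub]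
    noncomm_ring
  have h3 : rt (Xᴴ * T * Y) = rt (Yᴴ * T * X) := by
    rw [← rt_star]
    congr 1
    simp only [Matrix.conjTranspose_mul, Matrix.conjTranspose_conjTranspose, hT.1.eq,
      Matrix.mul_assoc]
  rw [h2, rt_add, rt_sub, rt_sub, h3] at h1
  linarith

/-- completing the square, right -/
theorem sqR {T : Mat n} (hT : T.PosSemidef) (X Y : Mat n) :
    2 * rt (X * T * Yᴴ) ≤ rt (X * T * Xᴴ) + rt (Y * T * Yᴴ) := by
  have h1 := sqL hT Xᴴ Yᴴ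
  simp only [Matrix.conjTranspose_conjTranspose] at h1
  have h3 : rt (Y * T * Xᴴ) = rt (X * T * Yᴴ) := by
    rw [← rt_star]
    congr 1
    simp only [Matrix.conjTranspose_mul, Matrix.conjTranspose_conjTranspose, hT.1.eq,
      Matrix.mul_assoc]
  rw [h3] at h1
  exact h1

/-- one inequality, decreasing part -/
theorem partA1 {u : ℝ} (hu0 : 0 ≤ u) (hu1 : u ≤ 1) {Li Q Wi V D : Mat n}
    (hP : (Li - Q).PosSemidef) (hL : Li.PosSemidef)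
    (hW : u • ((Li - Q) * Wi) + (1 - u) • (Wi * Li) = D) :
    2 * rt (Vᴴ * D) ≤ u * rt (Vᴴ * (Li - Q) * V) + (1 - u) * rt (V * Li * Vᴴ)
      + rt (Wiᴴ * D) := by
  have s1 : rt (Vᴴ * ((Li - Q) * Wi)) = rt (Wiᴴ * (Li - Q) * V) := by
    rw [← rt_star]
    congr 1
    simp only [Matrix.conjTranspose_mul, Matrix.conjTranspose_conjTranspose, hP.1.eq,
      Matrix.mul_assoc]
  have s2 : rt (Vᴴ * (Wi * Li)) = rt (V * Li * Wiᴴ) := by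
    rw [← rt_star, Matrix.mul_assoc V, rt_comm V]
    congr 1
    simp only [Matrix.conjTranspose_mul, Matrix.conjTranspose_conjTranspose, hL.1.eq,
      Matrix.mul_assoc]
  have s3 : rt (Wiᴴ * (Wi * Li)) = rt (Wi * Li * Wiᴴ) := rt_comm _ _
  have e1 : rt (Vᴴ * D) = u * rt (Wiᴴ * (Li - Q) * V) + (1 - u) * rt (V * Li * Wiᴴ) := by
    rw [← hW, Matrix.mul_add, rt_add, Matrix.mul_smul, Matrix.mul_smul, rt_smul, rt_smul, s1, s2]
  have e2 : rt (Wiᴴ * D) = u * rt (Wiᴴ * (Li - Q) * Wi) + (1 - u) * rt (Wi * Li * Wiᴴ) := by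
    rw [← hW, Matrix.mul_add, rt_add, Matrix.mul_smul, Matrix.mul_smul, rt_smul, rt_smul, s3,
      Matrix.mul_assoc Wiᴴ]
  have q1 := mul_le_mul_of_nonneg_left (sqL hP V Wi) hu0
  have q2 := mul_le_mul_of_nonneg_left (sqR hL V Wi) (sub_nonneg.2 hu1)
  rw [e1, e2]
  linarith

theorem partA {u : ℝ} (hu0 : 0 ≤ u) (hu1 : u ≤ 1) {L1 L2 L Q W1 W2 V D : Mat n}
    (hP1 : (L1 - Q).PosSemidef) (hL1 : L1.PosSemidef)
    (hP2 : (L2 - Q).PosSemidef) (hL2 : L2.PosSemidef)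
    (hL : (L - (1 / 2 : ℝ) • (L1 + L2)).PosSemidef)
    (hW1 : u • ((L1 - Q) * W1) + (1 - u) • (W1 * L1) = D)
    (hW2 : u • ((L2 - Q) * W2) + (1 - u) • (W2 * L2) = D)
    (hV : u • ((L - Q) * V) + (1 - u) • (V * L) = D) :
    2 * rt (Vᴴ * D) ≤ rt (W1ᴴ * D) + rt (W2ᴴ * D) := by
  have h1 := partA1 (V := V) hu0 hu1 hP1 hL1 hW1
  have h2 := partA1 (V := V) hu0 hu1 hP2 hL2 hW2
  have e1 : rt (Vᴴ * D) = u * rt (Vᴴ * (L - Q) * V) + (1 - u) * rt (V * L * Vᴴ) := by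
    rw [← hV, Matrix.mul_add, rt_add, Matrix.mul_smul, Matrix.mul_smul, rt_smul, rt_smul,
      Matrix.mul_assoc Vᴴ, rt_comm Vᴴ (V * L)]
  have m1 := rt_nonneg (hL.conjTranspose_mul_mul_same V)
  have m2 := rt_nonneg (hL.mul_mul_conjTranspose_same V)
  have f1 : Vᴴ * (L - (1 / 2 : ℝ) • (L1 + L2)) * V = Vᴴ * (L - Q) * V -
      (1 / 2 : ℝ) • (Vᴴ * (L1 - Q) * V + Vᴴ * (L2 - Q) * V) := by
    have : L - (1 / 2 : ℝ) • (L1 + L2) = (L - Q) - (1 / 2 : ℝ) • ((L1 - Q) + (L2 - Q)) := by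
      module
    rw [this]
    simp only [Matrix.mul_sub, Matrix.sub_mul, Matrix.mul_smul, Matrix.smul_mul, Matrix.mul_add,
      Matrix.add_mul]
  have f2 : V * (L - (1 / 2 : ℝ) • (L1 + L2)) * Vᴴ = V * L * Vᴴ -
      (1 / 2 : ℝ) • (V * L1 * Vᴴ + V * L2 * Vᴴ) := by
    simp only [Matrix.mul_sub, Matrix.sub_mul, Matrix.mul_smul, Matrix.smul_mul, Matrix.mul_add,
      Matrix.add_mul]
  rw [f1, rt_sub, rt_smul, rt_add] at m1
  rw [f2, rt_sub, rt_smul, rt_add] at m2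
  have n1 := mul_nonneg hu0 m1
  have n2 := mul_nonneg (sub_nonneg.2 hu1) m2
  linarith

/-- one inequality, increasing part -/
theorem partB1 {u τ : ℝ} (hu0 : 0 ≤ u) (hu1 : u ≤ 1) (hτ : 0 < τ) {Li Zi Z Q Wi W : Mat n}
    (hLi : Li.IsHermitian) (hZi : Zi.PosSemidef) (hQ : Q.PosSemidef)
    (hLZ : Li * Zi = τ • (1 : Mat n)) (hZL : Zi * Li = τ • (1 : Mat n))
    (hWi : u • ((Zi + Q) * Wi) + (1 - u) • (Wi * Zi) = Q)
    (hW : u • ((Z + Q) * W) + (1 - u) • (W * Z) = Q) :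
    rt (Wiᴴ * Q) ≤ u * τ⁻¹ * rt ((Z * W)ᴴ * Li * (Z * W)) +
      (1 - u) * τ⁻¹ * rt ((W * Z) * Li * (W * Z)ᴴ) + u * rt (Wᴴ * Q * W) := by
  have hτ' : τ⁻¹ * τ = 1 := inv_mul_cancel₀ hτ.ne'
  have q1 := sqL hZi (τ⁻¹ • (Li * (Z * W))) Wi
  have q2 := sqR hZi (τ⁻¹ • ((W * Z) * Li)) Wi
  have q3 := sqL hQ W Wi
  have a1 : Wiᴴ * Zi * (τ⁻¹ • (Li * (Z * W))) = Wiᴴ * (Z * W) := by
    rw [Matrix.mul_smul, Matrix.mul_assoc Wiᴴ, ← Matrix.mul_assoc Zi, hZL, Matrix.smul_mul,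
      Matrix.one_mul, Matrix.mul_smul, smul_smul, hτ', one_smul]
  have a2 : (τ⁻¹ • (Li * (Z * W)))ᴴ * Zi * (τ⁻¹ • (Li * (Z * W))) =
      τ⁻¹ • ((Z * W)ᴴ * Li * (Z * W)) := by
    have : (τ⁻¹ • (Li * (Z * W)))ᴴ = τ⁻¹ • ((Z * W)ᴴ * Li) := by
      rw [Matrix.conjTranspose_smul, Matrix.conjTranspose_mul, hLi.eq]
      simp
    rw [this, Matrix.smul_mul, Matrix.smul_mul, Matrix.mul_smul, Matrix.mul_assoc _ Zi,
      ← Matrix.mul_assoc Zi, hZL, Matrix.smul_mul, Matrix.one_mul, Matrix.mul_smul, smul_smul,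
      smul_smul, mul_assoc τ⁻¹ τ⁻¹ τ, hτ', mul_one]
  have a3 : (τ⁻¹ • ((W * Z) * Li)) * Zi * Wiᴴ = W * Z * Wiᴴ := by
    rw [Matrix.smul_mul, Matrix.smul_mul, Matrix.mul_assoc (W * Z), hLZ, Matrix.mul_smul,
      Matrix.mul_one, Matrix.smul_mul, smul_smul, hτ', one_smul]
  have a4 : (τ⁻¹ • ((W * Z) * Li)) * Zi * (τ⁻¹ • ((W * Z) * Li))ᴴ =
      τ⁻¹ • ((W * Z) * Li * (W * Z)ᴴ) := by
    have : (τ⁻¹ • ((W * Z) * Li))ᴴ = τ⁻¹ • (Li * (W * Z)ᴴ) := by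
      rw [Matrix.conjTranspose_smul, Matrix.conjTranspose_mul (W * Z), hLi.eq]
      simp
    have h5 : (τ⁻¹ • (W * Z * Li)) * Zi = W * Z := by
      rw [Matrix.smul_mul, Matrix.mul_assoc (W * Z), hLZ, Matrix.mul_smul, Matrix.mul_one,
        smul_smul, hτ', one_smul]
    rw [this, h5, Matrix.mul_smul, Matrix.mul_assoc (W * Z) Li]
  rw [a1, a2, rt_smul] at q1
  rw [a3, a4, rt_smul] at q2
  have e1 : rt (Wiᴴ * Q) = u * rt (Wiᴴ * (Z * W)) + u * rt (Wiᴴ * Q * W) +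
      (1 - u) * rt (W * Z * Wiᴴ) := by
    conv_lhs => rw [← hW]
    rw [Matrix.mul_add, rt_add, Matrix.mul_smul, Matrix.mul_smul, rt_smul, rt_smul,
      Matrix.add_mul, Matrix.mul_add, rt_add, rt_comm Wiᴴ (W * Z), ← Matrix.mul_assoc Wiᴴ Q]
    ring
  have e2 : rt (Wiᴴ * Q) = u * rt (Wiᴴ * Zi * Wi) + u * rt (Wiᴴ * Q * Wi) +
      (1 - u) * rt (Wi * Zi * Wiᴴ) := by
    conv_lhs => rw [← hWi]
    rw [Matrix.mul_add, rt_add, Matrix.mul_smul, Matrix.mul_smul, rt_smul, rt_smul,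
      Matrix.add_mul, Matrix.mul_add, rt_add, rt_comm Wiᴴ (Wi * Zi), ← Matrix.mul_assoc Wiᴴ Q,
      ← Matrix.mul_assoc Wiᴴ Zi]
    ring
  have n1 := mul_le_mul_of_nonneg_left q1 hu0
  have n2 := mul_le_mul_of_nonneg_left q2 (sub_nonneg.2 hu1)
  have n3 := mul_le_mul_of_nonneg_left q3 hu0
  linarith

theorem partB {u τ : ℝ} (hu0 : 0 ≤ u) (hu1 : u ≤ 1) (hτ : 0 < τ)
    {L1 L2 L Z1 Z2 Z Q W1 W2 W : Mat n}
    (hL1 : L1.IsHermitian) (hL2 : L2.IsHermitian)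
    (hZ1 : Z1.PosSemidef) (hZ2 : Z2.PosSemidef) (hZ : Z.IsHermitian) (hQ : Q.PosSemidef)
    (hLZ1 : L1 * Z1 = τ • (1 : Mat n)) (hZL1 : Z1 * L1 = τ • (1 : Mat n))
    (hLZ2 : L2 * Z2 = τ • (1 : Mat n)) (hZL2 : Z2 * L2 = τ • (1 : Mat n))
    (hLZ : L * Z = τ • (1 : Mat n))
    (hL : (L - (1 / 2 : ℝ) • (L1 + L2)).PosSemidef)
    (hW1 : u • ((Z1 + Q) * W1) + (1 - u) • (W1 * Z1) = Q)
    (hW2 : u • ((Z2 + Q) * W2) + (1 - u) • (W2 * Z2) = Q)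
    (hW : u • ((Z + Q) * W) + (1 - u) • (W * Z) = Q) :
    rt (W1ᴴ * Q) + rt (W2ᴴ * Q) ≤ 2 * rt (Wᴴ * Q) := by
  have hτ' : τ⁻¹ * τ = 1 := inv_mul_cancel₀ hτ.ne'
  have h1 := partB1 hu0 hu1 hτ hL1 hZ1 hQ hLZ1 hZL1 hW1 hW
  have h2 := partB1 hu0 hu1 hτ hL2 hZ2 hQ hLZ2 hZL2 hW2 hW
  have e2 : rt (Wᴴ * Q) = u * rt (Wᴴ * (Z * W)) + u * rt (Wᴴ * Q * W) +
      (1 - u) * rt (W * Z * Wᴴ) := by
    conv_lhs => rw [← hW]
    rw [Matrix.mul_add, rt_add, Matrix.mul_smul, Matrix.mul_smul, rt_smul, rt_smul,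
      Matrix.add_mul, Matrix.mul_add, rt_add, rt_comm Wᴴ (W * Z), ← Matrix.mul_assoc Wᴴ Q]
    ring
  have g1 : (Z * W)ᴴ * L * (Z * W) = τ • (Wᴴ * (Z * W)) := by
    rw [Matrix.conjTranspose_mul, hZ.eq, Matrix.mul_assoc _ L, ← Matrix.mul_assoc L, hLZ,
      Matrix.smul_mul, Matrix.one_mul, Matrix.mul_smul, Matrix.mul_assoc]
  have g2 : (W * Z) * L * (W * Z)ᴴ = τ • (W * Z * Wᴴ) := by
    rw [Matrix.conjTranspose_mul, hZ.eq, Matrix.mul_assoc _ L, ← Matrix.mul_assoc L, hLZ,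
      Matrix.smul_mul, Matrix.one_mul, Matrix.mul_smul]
  have m1 := rt_nonneg (hL.conjTranspose_mul_mul_same (Z * W))
  have m2 := rt_nonneg (hL.mul_mul_conjTranspose_same (W * Z))
  have f1 : (Z * W)ᴴ * (L - (1 / 2 : ℝ) • (L1 + L2)) * (Z * W) = (Z * W)ᴴ * L * (Z * W) -
      (1 / 2 : ℝ) • ((Z * W)ᴴ * L1 * (Z * W) + (Z * W)ᴴ * L2 * (Z * W)) := by
    simp only [Matrix.mul_sub, Matrix.sub_mul, Matrix.mul_smul, Matrix.smul_mul, Matrix.mul_add,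
      Matrix.add_mul]
  have f2 : (W * Z) * (L - (1 / 2 : ℝ) • (L1 + L2)) * (W * Z)ᴴ = (W * Z) * L * (W * Z)ᴴ -
      (1 / 2 : ℝ) • ((W * Z) * L1 * (W * Z)ᴴ + (W * Z) * L2 * (W * Z)ᴴ) := by
    simp only [Matrix.mul_sub, Matrix.sub_mul, Matrix.mul_smul, Matrix.smul_mul, Matrix.mul_add,
      Matrix.add_mul]
  rw [f1, rt_sub, rt_smul, rt_add, g1, rt_smul] at m1
  rw [f2, rt_sub, rt_smul, rt_add, g2, rt_smul] at m2
  have hti : 0 ≤ τ⁻¹ := (inv_pos.2 hτ).le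
  have n1 := mul_nonneg (mul_nonneg hu0 hti) m1
  have n2 := mul_nonneg (mul_nonneg (sub_nonneg.2 hu1) hti) m2
  have n1' : u * τ⁻¹ * (τ * rt (Wᴴ * (Z * W)) - 1 / 2 * (rt ((Z * W)ᴴ * L1 * (Z * W)) +
      rt ((Z * W)ᴴ * L2 * (Z * W)))) = u * rt (Wᴴ * (Z * W)) - 1 / 2 * (u * τ⁻¹ *
      rt ((Z * W)ᴴ * L1 * (Z * W)) + u * τ⁻¹ * rt ((Z * W)ᴴ * L2 * (Z * W))) := by
    linear_combination (u * rt (Wᴴ * (Z * W))) * hτ'
  have n2' : (1 - u) * τ⁻¹ * (τ * rt (W * Z * Wᴴ) - 1 / 2 * (rt ((W * Z) * L1 * (W * Z)ᴴ) +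
      rt ((W * Z) * L2 * (W * Z)ᴴ))) = (1 - u) * rt (W * Z * Wᴴ) - 1 / 2 * ((1 - u) * τ⁻¹ *
      rt ((W * Z) * L1 * (W * Z)ᴴ) + (1 - u) * τ⁻¹ * rt ((W * Z) * L2 * (W * Z)ᴴ)) := by
    linear_combination ((1 - u) * rt (W * Z * Wᴴ)) * hτ'
  rw [n1'] at n1
  rw [n2'] at n2
  linarith

/-- logarithm of `τ L⁻¹` -/
theorem mlog_inv {L Z : Mat n} {τ : ℝ} (hτ : 0 < τ) (hL : L.PosDef)
    (hZL : Z * L = τ • (1 : Mat n)) : mlog Z = Real.log τ • (1 : Mat n) - mlog L := by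
  obtain ⟨U, a, hU1, hU2, ha, hUf, hLe⟩ := DREP.spec L hL
  have hZ : Z = cfc (fun x : ℝ => τ / x) L := by
    rw [hUf]
    have h1 : L * (U * diagonal (fun i => (((a i)⁻¹ : ℝ) : ℂ)) * star U) = 1 := by
      conv_lhs => rw [hLe]
      have h7 : U * diagonal (fun i => ((a i : ℝ) : ℂ)) * star U *
          (U * diagonal (fun i => (((a i)⁻¹ : ℝ) : ℂ)) * star U) =
          U * (diagonal (fun i => ((a i : ℝ) : ℂ)) *
            diagonal (fun i => (((a i)⁻¹ : ℝ) : ℂ))) * star U := by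
        simp only [← Matrix.mul_assoc]
        rw [Matrix.mul_assoc (U * _) (star U) U, hU1, Matrix.mul_one]
      rw [h7, Matrix.diagonal_mul_diagonal]
      have : (fun i => ((a i : ℝ) : ℂ) * (((a i)⁻¹ : ℝ) : ℂ)) = fun _ => 1 := by
        ext i
        rw [← Complex.ofReal_mul, mul_inv_cancel₀ (ha i).ne', Complex.ofReal_one]
      rw [this, Matrix.diagonal_one, Matrix.mul_one, hU2]
    have h2 : Z = Z * L * (U * diagonal (fun i => (((a i)⁻¹ : ℝ) : ℂ)) * star U) := by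
      rw [Matrix.mul_assoc, h1, Matrix.mul_one]
    rw [h2, hZL, Matrix.smul_mul, Matrix.one_mul]
    have h3 : (diagonal (fun i => ((τ / a i : ℝ) : ℂ)) : Mat n) =
        τ • diagonal (fun i => (((a i)⁻¹ : ℝ) : ℂ)) := by
      ext i j
      by_cases hij : i = j
      · subst hij
        simp [div_eq_mul_inv]
      · simp [hij]
    rw [h3, Matrix.mul_smul, Matrix.smul_mul]
  have hfin : (spectrum ℝ L).Finite := Matrix.finite_real_spectrum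
  have h4 : mlog Z = cfc (fun x : ℝ => Real.log (τ / x)) L := by
    rw [hZ]
    unfold mlog
    exact (cfc_comp Real.log (fun x : ℝ => τ / x) L hL.1 ((hfin.image _).continuousOn _)
      (hfin.continuousOn _)).symm
  rw [h4, hUf]
  unfold mlog
  rw [hUf]
  have h5 : (diagonal (fun i => ((Real.log (τ / a i) : ℝ) : ℂ)) : Mat n) =
      Real.log τ • (1 : Mat n) - diagonal (fun i => ((Real.log (a i) : ℝ) : ℂ)) := by
    ext i j
    by_cases hij : i = j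
    · subst hij
      simp [Real.log_div hτ.ne' (ha i).ne']
    · simp [hij]
  rw [h5, Matrix.mul_sub, Matrix.sub_mul, Matrix.mul_smul, Matrix.mul_one, Matrix.smul_mul, hU2]

/-- the layer functional as a difference of relative entropies -/
theorem gam_eq {κ Q : Mat n} {τ : ℝ} (hτ : 0 < τ) (hL : (kt κ τ + κ).PosDef)
    (hZL : (kt κ τ - κ) * (kt κ τ + κ) = τ • (1 : Mat n)) :
    gam κ Q τ = (rt ((kt κ τ - κ + Q) * (mlog (kt κ τ - κ + Q) - mlog (kt κ τ - κ)))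
        - rt (kt κ τ - κ + Q) + rt (kt κ τ - κ)) -
      (rt ((kt κ τ + κ - Q) * (mlog (kt κ τ + κ - Q) - mlog (kt κ τ + κ)))
        - rt (kt κ τ + κ - Q) + rt (kt κ τ + κ)) := by
  have h1 := mlog_inv hτ hL hZL
  unfold gam eta Pt Qt
  rw [h1]
  have h2 : rt (Q * (Real.log τ • (1 : Mat n))) = Real.log τ * rt Q := by
    rw [Matrix.mul_smul, Matrix.mul_one, rt_smul]
  simp only [Matrix.mul_sub, Matrix.sub_mul, Matrix.add_mul, rt_sub, rt_add, h2]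
  ring

end CONC

open CONC in
theorem conc (hDREP : S_DREP) (hKMID : S_KMID) (hPOS : S_POS) : S_CONC := by
  intro n κ1 κ2 Q τ h1 h2 hτ
  have hQ : Q.PosSemidef := h1.1
  obtain ⟨p1, p1t, p1z, p1P, p1Q, -, p1c, p1e⟩ := hPOS n κ1 Q τ h1 hτ
  obtain ⟨p2, p2t, p2z, p2P, p2Q, -, p2c, p2e⟩ := hPOS n κ2 Q τ h2 hτ
  obtain ⟨km, -, km1, km2⟩ := hKMID n κ1 κ2 p1 p2
  have hd : (kmid κ1 κ2, Q) ∈ Dm n := by
    refine ⟨hQ, ?_⟩
    have e : kmid κ1 κ2 + kmid κ1 κ2 - Q = ((1 / 2 : ℝ) • ((κ1 + κ1 - Q) + (κ2 + κ2 - Q))) +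
        (2 : ℝ) • (kmid κ1 κ2 - (1 / 2 : ℝ) • (κ1 + κ2)) := by module
    show (kmid κ1 κ2 + kmid κ1 κ2 - Q).PosDef
    rw [e]
    refine Matrix.PosDef.add_posSemidef ?_ (km1.smul (by norm_num))
    exact (Matrix.PosDef.add h1.2 h2.2).smul (by norm_num)
  obtain ⟨p, pt, pz, pP, pQ, -, pc, pe⟩ := hPOS n (kmid κ1 κ2) Q τ hd hτ
  set κ := kmid κ1 κ2 with hκ
  have comm : ∀ {κ : Mat n}, kt κ τ * κ = κ * kt κ τ →
      (kt κ τ - κ) * (kt κ τ + κ) = τ • (1 : Mat n) →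
      (kt κ τ + κ) * (kt κ τ - κ) = τ • (1 : Mat n) := by
    intro κ hc he
    rw [← he]
    rw [Matrix.add_mul, Matrix.mul_sub, Matrix.mul_sub, Matrix.sub_mul, Matrix.mul_add,
      Matrix.mul_add, hc]
    abel
  have hLL : ((kt κ τ + κ) - (1 / 2 : ℝ) • ((kt κ1 τ + κ1) + (kt κ2 τ + κ2))).PosSemidef := by
    have e : (kt κ τ + κ) - (1 / 2 : ℝ) • ((kt κ1 τ + κ1) + (kt κ2 τ + κ2)) =
        (kt κ τ - (1 / 2 : ℝ) • (kt κ1 τ + kt κ2 τ)) + (κ - (1 / 2 : ℝ) • (κ1 + κ2)) := by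
      module
    rw [e]
    exact (km2 τ hτ).add km1
  rw [gam_eq hτ (p1t.add p1) p1e, gam_eq hτ (p2t.add p2) p2e, gam_eq hτ (pt.add p) pe]
  obtain ⟨Ra1, ia1, wa1, ea1⟩ := hDREP n (kt κ1 τ + κ1 - Q) (kt κ1 τ + κ1) p1P (p1t.add p1)
  obtain ⟨Ra2, ia2, wa2, ea2⟩ := hDREP n (kt κ2 τ + κ2 - Q) (kt κ2 τ + κ2) p2P (p2t.add p2)
  obtain ⟨Ra, ia, wa, ea⟩ := hDREP n (kt κ τ + κ - Q) (kt κ τ + κ) pP (pt.add p)
  obtain ⟨Rb1, ib1, wb1, eb1⟩ := hDREP n (kt κ1 τ - κ1 + Q) (kt κ1 τ - κ1) p1Q p1z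
  obtain ⟨Rb2, ib2, wb2, eb2⟩ := hDREP n (kt κ2 τ - κ2 + Q) (kt κ2 τ - κ2) p2Q p2z
  obtain ⟨Rb, ib, wb, eb⟩ := hDREP n (kt κ τ - κ + Q) (kt κ τ - κ) pQ pz
  rw [ea1, ea2, ea, eb1, eb2, eb]
  have hA : ∀ u ∈ Ioo (0 : ℝ) 1, 2 * Ra u ≤ Ra1 u + Ra2 u := by
    intro u hu
    obtain ⟨W1, w1, r1⟩ := wa1 u hu
    obtain ⟨W2, w2, r2⟩ := wa2 u hu
    obtain ⟨W, w, r⟩ := wa u hu
    have s1 : kt κ1 τ + κ1 - Q - (kt κ1 τ + κ1) = -Q := by abel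
    have s2 : kt κ2 τ + κ2 - Q - (kt κ2 τ + κ2) = -Q := by abel
    have s : kt κ τ + κ - Q - (kt κ τ + κ) = -Q := by abel
    rw [s1] at w1 r1
    rw [s2] at w2 r2
    rw [s] at w r
    rw [r1, r2, r]
    exact partA hu.1.le hu.2.le p1P.posSemidef (p1t.add p1).posSemidef p2P.posSemidef
      (p2t.add p2).posSemidef hLL w1 w2 w
  have hB : ∀ u ∈ Ioo (0 : ℝ) 1, Rb1 u + Rb2 u ≤ 2 * Rb u := by
    intro u hu
    obtain ⟨W1, w1, r1⟩ := wb1 u hu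
    obtain ⟨W2, w2, r2⟩ := wb2 u hu
    obtain ⟨W, w, r⟩ := wb u hu
    have s1 : kt κ1 τ - κ1 + Q - (kt κ1 τ - κ1) = Q := by abel
    have s2 : kt κ2 τ - κ2 + Q - (kt κ2 τ - κ2) = Q := by abel
    have s : kt κ τ - κ + Q - (kt κ τ - κ) = Q := by abel
    rw [s1] at w1 r1
    rw [s2] at w2 r2
    rw [s] at w r
    rw [r1, r2, r]
    exact partB hu.1.le hu.2.le hτ (p1t.add p1).1 (p2t.add p2).1 p1z.posSemidef p2z.posSemidef
      pz.1 hQ (comm p1c p1e) p1e (comm p2c p2e) p2e (comm pc pe) hLL w1 w2 w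
  have IA : 2 * ∫ u in (0 : ℝ)..1, (1 - u) * Ra u ≤
      (∫ u in (0 : ℝ)..1, (1 - u) * Ra1 u) + ∫ u in (0 : ℝ)..1, (1 - u) * Ra2 u := by
    rw [← intervalIntegral.integral_const_mul, ← intervalIntegral.integral_add ia1 ia2]
    refine intervalIntegral.integral_mono_on_of_le_Ioo zero_le_one (ia.const_mul 2)
      (ia1.add ia2) fun u hu => ?_
    have := mul_le_mul_of_nonneg_left (hA u hu) (sub_nonneg.2 hu.2.le)
    linarith
  have IB : (∫ u in (0 : ℝ)..1, (1 - u) * Rb1 u) + (∫ u in (0 : ℝ)..1, (1 - u) * Rb2 u) ≤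
      2 * ∫ u in (0 : ℝ)..1, (1 - u) * Rb u := by
    rw [← intervalIntegral.integral_const_mul, ← intervalIntegral.integral_add ib1 ib2]
    refine intervalIntegral.integral_mono_on_of_le_Ioo zero_le_one (ib1.add ib2)
      (ib.const_mul 2) fun u hu => ?_
    have := mul_le_mul_of_nonneg_left (hB u hu) (sub_nonneg.2 hu.2.le)
    linarith
  linarith

end Vale.P371G
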