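import Mathlib
import Vale.Agent.P371.GDefs

/-!
# P371, general `1 < γ < 3/2`: definitions and module statements

`s = γ - 1/2 ∈ (1/2, 1)`.  See `BLUEPRINT.md`.
-/

namespace Vale.P371G

open MeasureTheory Set Filter Matrix
open scoped Topology ComplexOrder ComplexConjugate

/-- square complex matrices -/
abbrev Mat (n : ℕ) := Matrix (Fin n) (Fin n) ℂ

variable {n : ℕ}

/-- real part of the trace -/
noncomputable def rt (A : Mat n) : ℝ := A.trace.re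

/-- matrix logarithm -/
noncomputable def mlog (A : Mat n) : Mat n := cfc Real.log A

/-- matrix square root -/
noncomputable def msqrt (A : Mat n) : Mat n := cfc Real.sqrt A

/-- matrix power -/
noncomputable def mpow (p : ℝ) (A : Mat n) : Mat n := cfc (fun x : ℝ => x ^ p) A

/-- `η(A) = Tr A ln A` -/
noncomputable def eta (A : Mat n) : ℝ := rt (A * mlog A)

/-- `κ_τ = (κ² + τ)^{1/2}` -/
noncomputable def kt (κ : Mat n) (τ : ℝ) : Mat n := cfc (fun x : ℝ => √(x ^ 2 + τ)) κ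

/-- `P_τ = κ_τ + κ - Q` -/
noncomputable def Pt (κ Q : Mat n) (τ : ℝ) : Mat n := kt κ τ + κ - Q

/-- `Q_τ = κ_τ - κ + Q` -/
noncomputable def Qt (κ Q : Mat n) (τ : ℝ) : Mat n := kt κ τ - κ + Q

/-- `ℓ_τ = ln P_τ + ln Q_τ - ln τ` -/
noncomputable def ell (κ Q : Mat n) (τ : ℝ) : Mat n :=
  mlog (Pt κ Q τ) + mlog (Qt κ Q τ) - (Real.log τ) • (1 : Mat n)

/-- the layer functional -/
noncomputable def gam (κ Q : Mat n) (τ : ℝ) : ℝ :=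
  eta (kt κ τ + κ) - eta (Pt κ Q τ) + eta (Qt κ Q τ) - eta (kt κ τ - κ)
    - (2 + Real.log τ) * rt Q

/-- `A = κ² - (κ - Q)² = (PQ + QP)/2` with `P = 2κ - Q` -/
def Am (κ Q : Mat n) : Mat n := κ * κ - (κ - Q) * (κ - Q)

/-- normalisation -/
noncomputable def I0 (s : ℝ) : ℝ := ∫ τ in Ioi (0 : ℝ), τ ^ (s - 1) * Real.log (1 + 1 / τ)

/-- the weight -/
noncomputable def wt (s τ : ℝ) : ℝ := τ ^ (s - 1) / I0 s

/-- `B = ∫ wt ℓ_τ dτ` (entrywise) -/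
noncomputable def Bm (s : ℝ) (κ Q : Mat n) : Mat n :=
  Matrix.of fun i j => ∫ τ in Ioi (0 : ℝ), (wt s τ : ℂ) * ell κ Q τ i j

/-- `Γ = ∫ wt γ_τ dτ` -/
noncomputable def Gam (s : ℝ) (κ Q : Mat n) : ℝ :=
  ∫ τ in Ioi (0 : ℝ), wt s τ * gam κ Q τ

/-- the domain `Q ≥ 0`, `P = 2κ - Q > 0` -/
def Dm (n : ℕ) : Set (Mat n × Mat n) := {z | z.2.PosSemidef ∧ (z.1 + z.1 - z.2).PosDef}

/-- decay function -/
noncomputable def mt (τ : ℝ) : ℝ := min (1 + |Real.log τ|) (1 / τ)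

/-- directional derivative of the logarithm, tested against `C` -/
noncomputable def DL (P C D : Mat n) : ℝ :=
  ∫ t in Ioi (0 : ℝ), rt (C * ((P + t • (1 : Mat n))⁻¹ * D * (P + t • (1 : Mat n))⁻¹))

/-- midpoint in `K = κ²` -/
noncomputable def kmid (κ1 κ2 : Mat n) : Mat n := msqrt ((1 / 2 : ℝ) • (κ1 * κ1 + κ2 * κ2))

/-! ## Spectral toolbox -/

/-- double sum formula -/
def S_DS : Prop := ∀ (n : ℕ) (A B : Mat n), A.IsHermitian → B.IsHermitian →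
  ∃ (a b : Fin n → ℝ) (w : Fin n → Fin n → ℝ),
    (∀ i, a i ∈ spectrum ℝ A) ∧ (∀ j, b j ∈ spectrum ℝ B) ∧ (∀ i j, 0 ≤ w i j) ∧
    (∀ i, ∑ j, w i j = 1) ∧ (∀ j, ∑ i, w i j = 1) ∧
    ∀ f g : ℝ → ℝ, rt (cfc f A * cfc g B) = ∑ i, ∑ j, w i j * (f (a i) * g (b j))

/-- Klein's inequality -/
def S_KLEIN : Prop := ∀ (n : ℕ) (X Y : Mat n), X.PosDef → Y.PosDef →
  eta X + rt ((Y - X) * (mlog X + 1)) ≤ eta Y

/-- Golden-Thompson / Gibbs -/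
def S_GT : Prop := ∀ (n : ℕ) (P Q E : Mat n), P.PosDef → Q.PosDef → E.PosDef →
  0 ≤ rt (E * (mlog E - mlog P - mlog Q)) - rt E + rt (P * Q)

/-- `√(½(κ₁² + κ₂²)) ≥ ½(κ₁ + κ₂)` -/
def S_KMID : Prop := ∀ (n : ℕ) (κ1 κ2 : Mat n), κ1.PosDef → κ2.PosDef →
  (kmid κ1 κ2).PosDef ∧ kmid κ1 κ2 * kmid κ1 κ2 = (1 / 2 : ℝ) • (κ1 * κ1 + κ2 * κ2) ∧
  (kmid κ1 κ2 - (1 / 2 : ℝ) • (κ1 + κ2)).PosSemidef ∧
  ∀ τ : ℝ, 0 < τ → (kt (kmid κ1 κ2) τ - (1 / 2 : ℝ) • (kt κ1 τ + kt κ2 τ)).PosSemidef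

/-! ## The logarithm: derivative, kernel inequality -/

/-- derivative of `Tr C(τ) ln P(τ)` -/
def S_DLOG : Prop := ∀ (n : ℕ) (P C : ℝ → Mat n) (P' C' : Mat n) (τ₀ : ℝ),
  (∀ᶠ τ in 𝓝 τ₀, (P τ).PosDef) →
  (∀ i j, HasDerivAt (fun τ => P τ i j) (P' i j) τ₀) →
  (∀ i j, HasDerivAt (fun τ => C τ i j) (C' i j) τ₀) →
  HasDerivAt (fun τ => rt (C τ * mlog (P τ)))
    (rt (C' * mlog (P τ₀)) + DL (P τ₀) (C τ₀) P') τ₀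

/-- `Tr κ⁻¹ Dln(P)[Pκ + κP - P²] ≤ 2n - Tr κ⁻¹P` -/
def S_DLK : Prop := ∀ (n : ℕ) (P κ : Mat n), P.PosDef → κ.PosDef →
  DL P (P * κ + κ * P - P * P) κ⁻¹ ≤ 2 * n - rt (κ⁻¹ * P)

/-- derivative in `τ` and `δ_τ ≥ 0` -/
def S_DT : Prop := ∀ (n : ℕ) (κ Q : Mat n) (τ₀ : ℝ), (κ, Q) ∈ Dm n → 0 < τ₀ →
  ∃ d : ℝ, HasDerivAt (fun τ : ℝ => rt ((Am κ Q + τ • (1 : Mat n)) *
      (mlog (Pt κ Q τ) + mlog (Qt κ Q τ)))) d τ₀ ∧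
    d ≤ rt (mlog (Pt κ Q τ₀) + mlog (Qt κ Q τ₀)) + n

/-! ## Bounds, continuity, integrals -/

/-- positivity of the layers -/
def S_POS : Prop := ∀ (n : ℕ) (κ Q : Mat n) (τ : ℝ), (κ, Q) ∈ Dm n → 0 < τ →
  κ.PosDef ∧ (kt κ τ).PosDef ∧ (kt κ τ - κ).PosDef ∧ (Pt κ Q τ).PosDef ∧ (Qt κ Q τ).PosDef ∧
  kt κ τ * kt κ τ = κ * κ + τ • (1 : Mat n) ∧ kt κ τ * κ = κ * kt κ τ ∧
  (kt κ τ - κ) * (kt κ τ + κ) = τ • (1 : Mat n)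

/-- upper bound `ℓ_τ ≤ ln(1 + κ²/τ)` -/
def S_ELLUP : Prop := ∀ (n : ℕ) (κ Q : Mat n) (τ : ℝ), (κ, Q) ∈ Dm n → 0 < τ →
  (cfc (fun x : ℝ => Real.log (1 + x ^ 2 / τ)) κ - ell κ Q τ).PosSemidef

/-- two sided uniform bounds -/
def S_ELLB : Prop := ∀ (n : ℕ) (δ R : ℝ), 0 < δ → 0 < R → ∃ C : ℝ, 0 < C ∧
  ∀ (κ Q : Mat n) (τ : ℝ), (κ, Q) ∈ Dm n → (R • (1 : Mat n) - κ).PosSemidef →
    (κ + κ - Q - δ • (1 : Mat n)).PosSemidef → 0 < τ →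
    ((C * mt τ) • (1 : Mat n) - ell κ Q τ).PosSemidef ∧
    ((C * mt τ) • (1 : Mat n) + ell κ Q τ).PosSemidef

/-- lower bound for the trace at infinity, sharp to the order `1/τ` -/
def S_ASYM : Prop := ∀ (n : ℕ) (κ Q : Mat n), (κ, Q) ∈ Dm n → ∃ C : ℝ,
  ∀ τ : ℝ, C ≤ τ → rt (Am κ Q) / τ - C / τ ^ 2 ≤ rt (ell κ Q τ)

/-- scalar integrals -/
def S_SCAL : Prop := ∀ s : ℝ, 0 < s → s < 1 → 0 < I0 s ∧
  IntegrableOn (fun τ => wt s τ * mt τ) (Ioi 0) ∧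
  (∀ x : ℝ, 0 ≤ x → IntegrableOn (fun τ => wt s τ * Real.log (1 + x / τ)) (Ioi 0) ∧
    ∫ τ in Ioi (0 : ℝ), wt s τ * Real.log (1 + x / τ) = x ^ s) ∧
  (∀ x : ℝ, 0 ≤ x →
    IntegrableOn (fun τ => wt s τ * ((x + τ) * Real.log (1 + x / τ) - x)) (Ioi 0) ∧
    ∫ τ in Ioi (0 : ℝ), wt s τ * ((x + τ) * Real.log (1 + x / τ) - x)
      = x ^ (1 + s) / (1 + s))

/-- continuity -/
def S_CONT : Prop := ∀ n : ℕ,
  (∀ τ : ℝ, 0 < τ → ContinuousOn (fun z : Mat n × Mat n => ell z.1 z.2 τ) (Dm n)) ∧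
  (∀ τ : ℝ, 0 < τ → ContinuousOn (fun z : Mat n × Mat n => gam z.1 z.2 τ) (Dm n)) ∧
  (∀ z ∈ Dm n, ContinuousOn (fun τ : ℝ => ell z.1 z.2 τ) (Ioi 0)) ∧
  (∀ z ∈ Dm n, ContinuousOn (fun τ : ℝ => gam z.1 z.2 τ) (Ioi 0)) ∧
  ContinuousOn (fun A : Mat n => mlog A) {A | A.PosDef}

/-- derivative of the layer functional in `Q` -/
def S_GDER : Prop := ∀ (n : ℕ) (κ Q H : Mat n) (τ : ℝ), 0 < τ → H.IsHermitian →
  (Pt κ Q τ).PosDef → (Qt κ Q τ).PosDef →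
  HasDerivAt (fun t : ℝ => gam κ (Q + t • H) τ) (rt (H * ell κ Q τ)) 0

/-- bound of the layer functional -/
def S_GAMB : Prop := ∀ (n : ℕ) (δ R : ℝ), 0 < δ → 0 < R → ∃ C : ℝ, 0 < C ∧
  ∀ (κ Q : Mat n) (τ : ℝ), (κ, Q) ∈ Dm n → (R • (1 : Mat n) - κ).PosSemidef →
    (κ + κ - Q - δ • (1 : Mat n)).PosSemidef → 0 < τ →
    |gam κ Q τ| ≤ C * mt τ ∧
    gam κ Q τ ≤ rt (Q * cfc (fun x : ℝ => Real.log (1 + x ^ 2 / τ)) κ)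

/-- midpoint concavity of the layer functional in `K = κ²` -/
def S_CONC : Prop := ∀ (n : ℕ) (κ1 κ2 Q : Mat n) (τ : ℝ), (κ1, Q) ∈ Dm n → (κ2, Q) ∈ Dm n →
  0 < τ → gam κ1 Q τ + gam κ2 Q τ ≤ 2 * gam (kmid κ1 κ2) Q τ

/-- integral representation of the relative entropy by Sylvester solutions -/
def S_DREP : Prop := ∀ (n : ℕ) (A B : Mat n), A.PosDef → B.PosDef →
  ∃ R : ℝ → ℝ, IntervalIntegrable (fun u => (1 - u) * R u) volume 0 1 ∧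
    (∀ u ∈ Ioo (0 : ℝ) 1, ∃ W : Mat n,
      u • (A * W) + (1 - u) • (W * B) = A - B ∧ R u = rt (Wᴴ * (A - B))) ∧
    rt (A * (mlog A - mlog B)) - rt A + rt B = ∫ u in (0 : ℝ)..1, (1 - u) * R u

/-- commuting evaluation -/
def S_COMM : Prop := ∀ (n : ℕ) (s : ℝ) (Q : Mat n) (e : ℝ), 0 < s → s < 1 → Q.PosSemidef →
  0 < e →
  LTG.Bs s * rt (mpow (2 * s + 1) ((1 / 2 : ℝ) • (Q + e • (1 : Mat n))))
      - e * rt (mpow (2 * s) ((1 / 2 : ℝ) • (Q + e • (1 : Mat n))))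
    ≤ Gam s ((1 / 2 : ℝ) • (Q + e • (1 : Mat n))) Q

/-- The matrix Hamilton-Jacobi inequality. -/
def S_HJM : Prop := ∀ (n : ℕ) (s : ℝ) (κ Q a : Mat n), 0 < s → s < 1 → (κ, Q) ∈ Dm n →
  a.PosSemidef →
  (1 + 1 / s) * rt (Bm s κ Q * a) - 1 / s * rt (mpow (1 + s) a) ≤ rt (Bm s κ Q * Am κ Q)

/-- module IFACE: the interface structure of `Vale/Agent/P371/GDefs.lean` -/
def S_IFACE : Prop := ∀ (s : ℝ) (n : ℕ), 1 / 2 < s → s < 1 → Nonempty (LTG.Fun s (Fin n))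

end Vale.P371G
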