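import Mathlib
import Vale.Agent.P371G.Defs
import Vale.Agent.P371.GoldenThompson

/-!
# P371G: modules DS, KLEIN, GT
-/

namespace Vale.P371G

open MeasureTheory Set Filter Matrix
open scoped Topology ComplexOrder ComplexConjugate

theorem ds : S_DS := by
  intro n A B hA hB
  refine ⟨hA.eigenvalues, hB.eigenvalues, P371.ovl hA hB, fun i => hA.eigenvalues_mem_spectrum_real i,
    fun j => hB.eigenvalues_mem_spectrum_real j, P371.ovl_nonneg hA hB, P371.sum_ovl_right hA hB,
    P371.sum_ovl_left hA hB, fun f g => ?_⟩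
  unfold rt
  rw [P371.trace_cfc_mul_cfc hA hB, Complex.ofReal_re]
  refine Finset.sum_congr rfl fun i _ => Finset.sum_congr rfl fun j _ => ?_
  ring

theorem cfc_mul_log {n : ℕ} {X : Mat n} (hX : X.IsHermitian) :
    X * mlog X = cfc (fun x : ℝ => x * Real.log x) X := by
  have h1 : cfc (fun x : ℝ => x) X = X := cfc_id' ℝ X (ha := hX)
  unfold mlog
  nth_rewrite 1 [← h1]
  exact (cfc_mul (fun x : ℝ => x) Real.log X (P371.contOn_matrix _ _)
    (P371.contOn_matrix _ _)).symm

theorem cfc_log_add_one {n : ℕ} {X : Mat n} (hX : X.IsHermitian) :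
    mlog X + 1 = cfc (fun x : ℝ => Real.log x + 1) X := by
  unfold mlog
  have h := cfc_add_const (1:ℝ) Real.log X (P371.contOn_matrix _ _) (ha := hX)
  rw [map_one] at h
  exact h.symm

theorem klein : S_KLEIN := by
  intro n X Y hX hY
  have h := P371.klein hY.1 hX.1 (fun x => x * Real.log x) (fun x => Real.log x + 1)
    (fun x => x * Real.log x) (fun i j => by
      have ha := hY.eigenvalues_pos i
      have hb := hX.eigenvalues_pos j
      set a := hY.1.eigenvalues i
      set b := hX.1.eigenvalues j
      have h1 := Real.add_one_le_exp (Real.log (b / a))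
      rw [Real.exp_log (by positivity), Real.log_div hb.ne' ha.ne'] at h1
      have h2 : a * (Real.log b - Real.log a + 1) ≤ b := by
        have := mul_le_mul_of_nonneg_left h1 ha.le
        rwa [mul_div_cancel₀ _ ha.ne'] at this
      nlinarith)
  rw [← cfc_mul_log hY.1, ← cfc_mul_log hX.1, ← cfc_log_add_one hX.1] at h
  simp only [Complex.sub_re] at h
  unfold eta rt
  rw [Matrix.trace_mul_comm (Y - X)]
  linarith

theorem gt : S_GT := by
  intro n P Q E hP hQ hE
  have h := P371.golden_thompson_gibbs hE hP hQ
  unfold rt mlog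
  linarith

end Vale.P371G
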