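import Vale.Agent.P371G.Defs
import Vale.Agent.P371.GoldenThompson

/-! # Base lemmas -/

namespace Vale.P371G

open MeasureTheory Set Filter Matrix
open scoped Topology ComplexOrder ComplexConjugate

variable {n : ℕ}

lemma rt_add (A B : Mat n) : rt (A + B) = rt A + rt B := by simp [rt]
lemma rt_sub (A B : Mat n) : rt (A - B) = rt A - rt B := by simp [rt]
lemma rt_neg (A : Mat n) : rt (-A) = -rt A := by simp [rt]
lemma rt_smul (c : ℝ) (A : Mat n) : rt (c • A) = c * rt A := by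
  simp [rt, Matrix.trace_smul]
lemma rt_one : rt (1 : Mat n) = n := by simp [rt]
lemma rt_zero : rt (0 : Mat n) = 0 := by simp [rt]
lemma rt_mul_comm (A B : Mat n) : rt (A * B) = rt (B * A) := by
  simp [rt, Matrix.trace_mul_comm A B]

lemma rt_nonneg {A : Mat n} (hA : A.PosSemidef) : 0 ≤ rt A :=
  (Complex.le_def.mp hA.trace_nonneg).1

lemma rt_mul_nonneg {A B : Mat n} (hA : A.PosSemidef) (hB : B.PosSemidef) :
    0 ≤ rt (A * B) := by
  exact (Complex.le_def.mp (Vale.P371.trace_mul_nonneg hA hB)).1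

/-- the spectral theorem in real form -/
lemma exists_unitary {A : Mat n} (hA : A.IsHermitian) :
    ∃ V : Mat n, Vᴴ * V = 1 ∧ V * Vᴴ = 1 ∧
      ∀ f : ℝ → ℝ, cfc f A = V * diagonal (fun i => ((f (hA.eigenvalues i) : ℝ) : ℂ)) * Vᴴ := by
  refine ⟨(hA.eigenvectorUnitary : Mat n), Unitary.coe_star_mul_self hA.eigenvectorUnitary,
    Unitary.coe_mul_star_self hA.eigenvectorUnitary, fun f => ?_⟩
  rw [hA.cfc_eq, Matrix.IsHermitian.cfc, Unitary.conjStarAlgAut_apply]
  rfl

lemma cfc_id_eq {A : Mat n} (hA : A.IsHermitian) : cfc (fun x : ℝ => x) A = A :=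
  cfc_id' ℝ A hA

lemma rt_cfc {A : Mat n} (hA : A.IsHermitian) (f : ℝ → ℝ) :
    rt (cfc f A) = ∑ i, f (hA.eigenvalues i) := by
  obtain ⟨V, h1, _, h3⟩ := exists_unitary hA
  rw [h3 f, rt_mul_comm, ← Matrix.mul_assoc, h1, Matrix.one_mul]
  simp [rt, Matrix.trace]

lemma tp_eq {A : Mat n} (hA : A.IsHermitian) (p : ℝ) : LTG.tp p A = rt (mpow p A) := by
  rw [LTG.tp, dif_pos hA, mpow, rt_cfc hA]

/-- comparison of functional calculi -/
lemma cfc_le_cfc {A : Mat n} (hA : A.IsHermitian) {f g : ℝ → ℝ}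
    (h : ∀ i, f (hA.eigenvalues i) ≤ g (hA.eigenvalues i)) :
    (cfc g A - cfc f A).PosSemidef := by
  obtain ⟨V, h1, _, h3⟩ := exists_unitary hA
  rw [h3 f, h3 g, ← Matrix.sub_mul, ← Matrix.mul_sub, Matrix.diagonal_sub]
  refine Matrix.PosSemidef.mul_mul_conjTranspose_same (Matrix.PosSemidef.diagonal fun i => ?_) V
  have := h i
  simpa using this

lemma smul_one_eq_cfc {A : Mat n} (hA : A.IsHermitian) (c : ℝ) :
    c • (1 : Mat n) = cfc (fun _ : ℝ => c) A := by
  obtain ⟨V, _, h2, h3⟩ := exists_unitary hA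
  rw [h3]
  have e : diagonal (fun _ : Fin n => ((c : ℝ) : ℂ)) = c • (1 : Mat n) := by
    ext i j
    by_cases h : i = j
    · subst h; simp
    · simp [h]
  rw [e, Matrix.mul_smul, Matrix.mul_one, Matrix.smul_mul, h2]

/-- a positive definite matrix dominates a positive multiple of the identity -/
lemma exists_pos_le {A : Mat n} (hA : A.PosDef) : ∃ δ : ℝ, 0 < δ ∧
    (A - δ • (1 : Mat n)).PosSemidef := by
  have hH := hA.isHermitian
  obtain ⟨δ, hδ, h⟩ : ∃ δ : ℝ, 0 < δ ∧ ∀ i, δ ≤ hH.eigenvalues i := by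
    rcases isEmpty_or_nonempty (Fin n) with he | he
    · exact ⟨1, one_pos, fun i => he.elim i⟩
    · obtain ⟨i0, hi0⟩ := Finite.exists_min (fun i => hH.eigenvalues i)
      exact ⟨_, hA.eigenvalues_pos i0, hi0⟩
  refine ⟨δ, hδ, ?_⟩
  have h1 := cfc_le_cfc hH (f := fun _ => δ) (g := fun x => x) h
  rwa [← smul_one_eq_cfc hH, cfc_id_eq hH] at h1

/-- a Hermitian matrix is dominated by a multiple of the identity, quantitatively in the entries -/
lemma psd_of_entries {H : Mat n} (hH : H.IsHermitian) {c : ℝ}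
    (hc : ∑ i, ∑ j, ‖H i j‖ ≤ c) : (c • (1 : Mat n) - H).PosSemidef := by
  refine Matrix.PosSemidef.of_dotProduct_mulVec_nonneg ?_ ?_
  · refine Matrix.IsHermitian.sub ?_ hH
    rw [Matrix.IsHermitian, conjTranspose_smul, conjTranspose_one]
    simp
  · intro x
    have him : (star x ⬝ᵥ ((c • (1 : Mat n) - H) *ᵥ x)).im = 0 := by
      have hh : (c • (1 : Mat n) - H).IsHermitian := by
        refine Matrix.IsHermitian.sub ?_ hH
        rw [Matrix.IsHermitian, conjTranspose_smul, conjTranspose_one]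
        simp
      have := hh.im_star_dotProduct_mulVec_self x
      simpa using this
    rw [Complex.le_def]
    refine ⟨?_, by rw [him]; rfl⟩
    rw [Matrix.sub_mulVec, dotProduct_sub, Complex.sub_re, Complex.zero_re, sub_nonneg]
    have e1 : star x ⬝ᵥ ((c • (1 : Mat n)) *ᵥ x) = ((c * ∑ i, ‖x i‖ ^ 2 : ℝ) : ℂ) := by
      rw [Matrix.smul_mulVec, Matrix.one_mulVec, dotProduct_smul]
      simp only [dotProduct, Pi.star_apply, RCLike.star_def]
      rw [Complex.real_smul]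
      push_cast
      congr 1
      refine Finset.sum_congr rfl fun i _ => ?_
      rw [← Complex.normSq_eq_conj_mul_self, Complex.normSq_eq_norm_sq]
      push_cast; rfl
    rw [e1, Complex.ofReal_re]
    have e2 : ‖star x ⬝ᵥ (H *ᵥ x)‖ ≤ (∑ i, ∑ j, ‖H i j‖) * ∑ k, ‖x k‖ ^ 2 := by
      have e3 : star x ⬝ᵥ (H *ᵥ x) = ∑ i, ∑ j, star x i * (H i j * x j) := by
        simp only [dotProduct, mulVec, Finset.mul_sum]
      rw [e3]
      refine (norm_sum_le _ _).trans ?_
      rw [Finset.sum_mul]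
      refine Finset.sum_le_sum fun i _ => ?_
      refine (norm_sum_le _ _).trans ?_
      rw [Finset.sum_mul]
      refine Finset.sum_le_sum fun j _ => ?_
      have hi : ‖x i‖ ^ 2 ≤ ∑ k, ‖x k‖ ^ 2 :=
        Finset.single_le_sum (f := fun k => ‖x k‖ ^ 2) (fun k _ => sq_nonneg _)
          (Finset.mem_univ i)
      have hj : ‖x j‖ ^ 2 ≤ ∑ k, ‖x k‖ ^ 2 :=
        Finset.single_le_sum (f := fun k => ‖x k‖ ^ 2) (fun k _ => sq_nonneg _)
          (Finset.mem_univ j)
      have h1 : ‖x i‖ * ‖x j‖ ≤ ∑ k, ‖x k‖ ^ 2 := by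
        nlinarith [sq_nonneg (‖x i‖ - ‖x j‖)]
      calc ‖star x i * (H i j * x j)‖ = ‖H i j‖ * (‖x i‖ * ‖x j‖) := by
            rw [norm_mul, norm_mul, Pi.star_apply, norm_star]; ring
        _ ≤ ‖H i j‖ * ∑ k, ‖x k‖ ^ 2 := mul_le_mul_of_nonneg_left h1 (norm_nonneg _)
    refine ((Complex.re_le_norm _).trans e2).trans ?_
    exact mul_le_mul_of_nonneg_right hc (Finset.sum_nonneg fun i _ => sq_nonneg _)

end Vale.P371G
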