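import Mathlib
import Vale.Agent.P371G.Base
import Vale.Agent.P371.GDelta

/-!
# P371G: module DT
-/

namespace Vale.P371G

open MeasureTheory Set Filter Matrix
open scoped Topology ComplexOrder ComplexConjugate

open P371 in
theorem kt_inv {n : ℕ} {κ : Mat n} (hκ : κ.IsHermitian) {τ : ℝ} (hτ : 0 < τ) :
    (kt κ τ)⁻¹ = cfc (fun x : ℝ => (√(x ^ 2 + τ))⁻¹) κ := by
  apply Matrix.inv_eq_right_inv
  unfold kt
  rw [← cfc_mul _ _ κ (contOn_matrix _ _) (contOn_matrix _ _)]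
  have h1 : cfc (fun x : ℝ => √(x ^ 2 + τ) * (√(x ^ 2 + τ))⁻¹) κ = cfc (fun _ : ℝ => (1:ℝ)) κ := by
    congr 1
    funext x
    have : 0 < x ^ 2 + τ := by positivity
    exact mul_inv_cancel₀ (Real.sqrt_pos.2 this).ne'
  rw [h1]
  exact cfc_const_one ℝ κ (ha := hκ)

open P371 in
theorem kt_deriv {n : ℕ} {κ : Mat n} (hκ : κ.IsHermitian) {τ₀ : ℝ} (hτ : 0 < τ₀) (i j : Fin n) :
    HasDerivAt (fun τ => kt κ τ i j) (((1 / 2 : ℂ) • (kt κ τ₀)⁻¹) i j) τ₀ := by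
  rw [kt_inv hκ hτ, Matrix.smul_apply, cfc_apply_eq hκ, smul_eq_mul, Finset.mul_sum]
  have e : (fun τ => kt κ τ i j) = fun τ => ∑ k, ((√(hκ.eigenvalues k ^ 2 + τ) : ℝ) : ℂ) *
      ((hκ.eigenvectorUnitary : Matrix (Fin n) (Fin n) ℂ) i k *
        star ((hκ.eigenvectorUnitary : Matrix (Fin n) (Fin n) ℂ) j k)) := by
    funext τ
    unfold kt
    rw [cfc_apply_eq hκ]
  rw [e]
  refine HasDerivAt.fun_sum fun k _ => ?_
  have hpos : 0 < hκ.eigenvalues k ^ 2 + τ₀ := by positivity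
  have h1 : HasDerivAt (fun τ : ℝ => √(hκ.eigenvalues k ^ 2 + τ))
      (1 / (2 * √(hκ.eigenvalues k ^ 2 + τ₀))) τ₀ := by
    have h2 : HasDerivAt (fun τ : ℝ => hκ.eigenvalues k ^ 2 + τ) 1 τ₀ := by
      simpa using (hasDerivAt_id τ₀).const_add (hκ.eigenvalues k ^ 2)
    exact h2.sqrt hpos.ne'
  have h3 := (h1.ofReal_comp).mul_const
    ((hκ.eigenvectorUnitary : Matrix (Fin n) (Fin n) ℂ) i k *
        star ((hκ.eigenvectorUnitary : Matrix (Fin n) (Fin n) ℂ) j k))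
  refine h3.congr_deriv ?_
  have hs : (√(hκ.eigenvalues k ^ 2 + τ₀)) ≠ 0 := (Real.sqrt_pos.2 hpos).ne'
  push_cast
  have hs' : ((√(hκ.eigenvalues k ^ 2 + τ₀) : ℝ) : ℂ) ≠ 0 := by exact_mod_cast hs
  field_simp

theorem dt (hPOS : S_POS) : S_DT := by
  intro n κ Q τ₀ hΩ hτ₀
  have hDm : (κ, Q) ∈ Dm n := hΩ
  obtain ⟨hκp, -, hZ0, -⟩ := hPOS n κ Q (τ₀ / 2) hDm (by linarith)
  obtain ⟨cP, hcP, hP⟩ := P371.exists_sub_posSemidef hΩ.2
  obtain ⟨cQ, hcQ, hQ⟩ := P371.exists_sub_posSemidef hZ0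
  have hκ : κ.PosDef := (hPOS n κ Q τ₀ hDm hτ₀).1
  obtain ⟨-, hkt, -, hPtd, hQtd, hkk, -, -⟩ := hPOS n κ Q τ₀ hDm hτ₀
  have hPc : ∀ᶠ τ in 𝓝 τ₀, (Pt κ Q τ - (cP : ℂ) • 1).PosSemidef := by
    filter_upwards [lt_mem_nhds hτ₀] with τ hτ
    have h := (hPOS n κ Q τ hDm hτ).2.2.1.posSemidef.add hP
    have e : kt κ τ - κ + ((κ, Q).1 + (κ, Q).1 - (κ, Q).2 - (cP : ℂ) • 1) =
      Pt κ Q τ - (cP : ℂ) • 1 := by simp only [Pt]; abel
    rwa [e] at h
  have hQc : ∀ᶠ τ in 𝓝 τ₀, (Qt κ Q τ - (cQ : ℂ) • 1).PosSemidef := by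
    filter_upwards [lt_mem_nhds (by linarith : τ₀ / 2 < τ₀)] with τ hτ
    have hmono : (kt κ τ - kt κ (τ₀ / 2)).PosSemidef := by
      refine cfc_le_cfc hκp.isHermitian fun i => ?_
      exact Real.sqrt_le_sqrt (by linarith)
    have h := (hmono.add hQ).add hDm.1
    have e : kt κ τ - kt κ (τ₀ / 2) + (kt κ (τ₀ / 2) - κ - (cQ : ℂ) • 1) + (κ, Q).2 =
      Qt κ Q τ - (cQ : ℂ) • 1 := by simp only [Qt]; abel
    rwa [e] at h
  have hPd : ∀ i j, HasDerivAt (fun τ => Pt κ Q τ i j) (((1 / 2 : ℂ) • (kt κ τ₀)⁻¹) i j) τ₀ := by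
    intro i j
    have h := ((kt_deriv hκ.1 hτ₀ i j).add_const (κ i j)).sub_const (Q i j)
    exact h
  have hQd : ∀ i j, HasDerivAt (fun τ => Qt κ Q τ i j) (((1 / 2 : ℂ) • (kt κ τ₀)⁻¹) i j) τ₀ := by
    intro i j
    have h := ((kt_deriv hκ.1 hτ₀ i j).sub_const (κ i j)).add_const (Q i j)
    exact h
  have hLP := fun i j => P371.hasDerivAt_log_apply hcP hPc hPd i j
  have hLQ := fun i j => P371.hasDerivAt_log_apply hcQ hQc hQd i j
  set DP : Mat n := Matrix.of fun i j => ∫ t in Ioi (0:ℝ), (P371.Rs (Pt κ Q τ₀) t *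
    ((1 / 2 : ℂ) • (kt κ τ₀)⁻¹) * P371.Rs (Pt κ Q τ₀) t) i j with hDP
  set DQ : Mat n := Matrix.of fun i j => ∫ t in Ioi (0:ℝ), (P371.Rs (Qt κ Q τ₀) t *
    ((1 / 2 : ℂ) • (kt κ τ₀)⁻¹) * P371.Rs (Qt κ Q τ₀) t) i j with hDQ
  set E : Mat n := Am κ Q + τ₀ • (1 : Mat n) with hE
  -- the traces of the derivative matrices
  have key : ∀ (P : Mat n), P.PosDef → E = P * kt κ τ₀ + kt κ τ₀ * P - P * P →
      rt (E * (Matrix.of fun i j => ∫ t in Ioi (0:ℝ), (P371.Rs P t *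
        ((1 / 2 : ℂ) • (kt κ τ₀)⁻¹) * P371.Rs P t) i j)) ≤
      1 / 2 * (2 * n - ((kt κ τ₀)⁻¹ * P).trace.re) := by
    intro P hPpd hEP
    obtain ⟨c, hc, hcc⟩ := P371.exists_sub_posSemidef hPpd
    obtain ⟨i1, i2⟩ := P371.dlk_gen hPpd hkt
    have e1 : rt (E * (Matrix.of fun i j => ∫ t in Ioi (0:ℝ), (P371.Rs P t *
        ((1 / 2 : ℂ) • (kt κ τ₀)⁻¹) * P371.Rs P t) i j)) =
        ∫ t in Ioi (0:ℝ), (1 / 2 : ℝ) * ((P * kt κ τ₀ + kt κ τ₀ * P - P * P) *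
          (P371.Rs P t * (kt κ τ₀)⁻¹ * P371.Rs P t)).trace.re := by
      have e2 : ∀ t : ℝ, (1 / 2 : ℝ) * ((P * kt κ τ₀ + kt κ τ₀ * P - P * P) *
          (P371.Rs P t * (kt κ τ₀)⁻¹ * P371.Rs P t)).trace.re =
          ∑ i, ∑ j, (E i j * (P371.Rs P t *
        ((1 / 2 : ℂ) • (kt κ τ₀)⁻¹) * P371.Rs P t) j i).re := by
        intro t
        rw [← hEP, Matrix.trace, Complex.re_sum, Finset.mul_sum]
        refine Finset.sum_congr rfl fun i _ => ?_
        rw [Matrix.diag_apply, Matrix.mul_apply, Complex.re_sum, Finset.mul_sum]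
        refine Finset.sum_congr rfl fun j _ => ?_
        rw [Matrix.mul_smul, Matrix.smul_mul, Matrix.smul_apply, smul_eq_mul]
        rw [show E i j * (1 / 2 * (P371.Rs P t * (kt κ τ₀)⁻¹ * P371.Rs P t) j i) =
          ((1 / 2 : ℝ) : ℂ) * (E i j * (P371.Rs P t * (kt κ τ₀)⁻¹ * P371.Rs P t) j i) by
            push_cast; ring, Complex.re_ofReal_mul]
      simp only [e2]
      have hii : ∀ i j, IntegrableOn (fun t => (E i j * (P371.Rs P t *
        ((1 / 2 : ℂ) • (kt κ τ₀)⁻¹) * P371.Rs P t) j i)) (Ioi 0) := fun i j =>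
        (P371.integrable_RMR hc hcc j i).const_mul _
      have hiir : ∀ i j, IntegrableOn (fun t => (E i j * (P371.Rs P t *
        ((1 / 2 : ℂ) • (kt κ τ₀)⁻¹) * P371.Rs P t) j i).re) (Ioi 0) := fun i j => (hii i j).re
      rw [integral_finsetSum _ fun i _ => integrable_finsetSum _ fun j _ => hiir i j]
      unfold rt
      rw [Matrix.trace, Complex.re_sum]
      refine Finset.sum_congr rfl fun i _ => ?_
      rw [integral_finsetSum _ fun j _ => hiir i j, Matrix.diag_apply, Matrix.mul_apply,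
        Complex.re_sum]
      refine Finset.sum_congr rfl fun j _ => ?_
      rw [Matrix.of_apply, ← integral_const_mul]
      exact (integral_re (hii i j)).symm
    rw [e1, integral_const_mul]
    simp only [Fintype.card_fin] at i2
    linarith
  have hkk2 : E = kt κ τ₀ * kt κ τ₀ - (κ - Q) * (κ - Q) := by
    rw [hE, hkk]; unfold Am; abel
  have kP := key (Pt κ Q τ₀) hPtd (by rw [hkk2]; unfold Pt; noncomm_ring)
  have kQ := key (Qt κ Q τ₀) hQtd (by rw [hkk2]; unfold Qt; noncomm_ring)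
  have hsum : ((kt κ τ₀)⁻¹ * Pt κ Q τ₀).trace.re + ((kt κ τ₀)⁻¹ * Qt κ Q τ₀).trace.re = 2 * n := by
    rw [← Complex.add_re, ← Matrix.trace_add, ← Matrix.mul_add]
    have e : Pt κ Q τ₀ + Qt κ Q τ₀ = (2 : ℂ) • kt κ τ₀ := by
      rw [two_smul]; unfold Pt Qt; abel
    rw [e, Matrix.mul_smul, Matrix.nonsing_inv_mul _
      ((Matrix.isUnit_iff_isUnit_det _).1 hkt.isUnit), Matrix.trace_smul, Matrix.trace_one]
    simp
  refine ⟨rt (mlog (Pt κ Q τ₀) + mlog (Qt κ Q τ₀)) + rt (E * (DP + DQ)), ?_, ?_⟩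
  · have hfun : (fun τ : ℝ => rt ((Am κ Q + τ • (1 : Mat n)) *
        (mlog (Pt κ Q τ) + mlog (Qt κ Q τ)))) = fun τ : ℝ => ∑ i, ∑ j,
        (((Am κ Q i j + (τ : ℂ) * (1 : Mat n) i j)) *
          (cfc Real.log (Pt κ Q τ) j i + cfc Real.log (Qt κ Q τ) j i)).re := by
      funext τ
      unfold rt mlog
      rw [Matrix.trace, Complex.re_sum]
      refine Finset.sum_congr rfl fun i _ => ?_
      rw [Matrix.diag_apply, Matrix.mul_apply, Complex.re_sum]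
      refine Finset.sum_congr rfl fun j _ => ?_
      rw [Matrix.add_apply, Matrix.add_apply, Matrix.smul_apply, Complex.real_smul]
    rw [hfun]
    have hval : rt (mlog (Pt κ Q τ₀) + mlog (Qt κ Q τ₀)) + rt (E * (DP + DQ)) =
        ∑ i, ∑ j, ((1 : Mat n) i j * (cfc Real.log (Pt κ Q τ₀) j i + cfc Real.log (Qt κ Q τ₀) j i) +
          (Am κ Q i j + (τ₀ : ℂ) * (1 : Mat n) i j) * (DP j i + DQ j i)).re := by
      have e1 : rt (mlog (Pt κ Q τ₀) + mlog (Qt κ Q τ₀)) =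
          rt ((1 : Mat n) * (mlog (Pt κ Q τ₀) + mlog (Qt κ Q τ₀))) := by rw [Matrix.one_mul]
      rw [e1]
      unfold rt mlog
      rw [← Complex.add_re, ← Matrix.trace_add, Matrix.trace, Complex.re_sum]
      refine Finset.sum_congr rfl fun i _ => ?_
      rw [Matrix.diag_apply, Matrix.add_apply, Matrix.mul_apply, Matrix.mul_apply,
        ← Finset.sum_add_distrib, Complex.re_sum]
      refine Finset.sum_congr rfl fun j _ => ?_
      rw [Matrix.add_apply, Matrix.add_apply, hE, Matrix.add_apply, Matrix.smul_apply,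
        Complex.real_smul]
    rw [hval]
    refine HasDerivAt.fun_sum fun i _ => HasDerivAt.fun_sum fun j _ => ?_
    have h1 : HasDerivAt (fun τ : ℝ => (Am κ Q i j + (τ : ℂ) * (1 : Mat n) i j))
        ((1 : Mat n) i j) τ₀ := by
      have := ((Complex.ofRealCLM.hasDerivAt (x := τ₀)).mul_const ((1 : Mat n) i j)).const_add
        (Am κ Q i j)
      simpa using this
    have h2 := (hLP j i).2.add (hLQ j i).2
    have h3 := h1.mul h2
    have h4 := Complex.reCLM.hasFDerivAt.comp_hasDerivAt τ₀ h3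
    exact h4
  · have : rt (E * (DP + DQ)) = rt (E * DP) + rt (E * DQ) := by
      unfold rt; rw [Matrix.mul_add, Matrix.trace_add, Complex.add_re]
    rw [this]
    linarith [kP, kQ, hsum]

end Vale.P371G
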