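import Vale.Agent.P371G.Defs

/-!
# P371G: integral representation of the relative entropy by Sylvester solutions
-/

namespace Vale.P371G

open MeasureTheory Set Filter Matrix
open scoped Topology ComplexOrder ComplexConjugate

namespace DREP

variable {n : ℕ}

/-- spectral form -/
theorem spec (A : Mat n) (hA : A.PosDef) : ∃ (U : Mat n) (a : Fin n → ℝ),
    star U * U = 1 ∧ U * star U = 1 ∧ (∀ i, 0 < a i) ∧
    (∀ f : ℝ → ℝ, cfc f A = U * diagonal (fun i => ((f (a i) : ℝ) : ℂ)) * star U) ∧
    A = U * diagonal (fun i => ((a i : ℝ) : ℂ)) * star U := by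
  refine ⟨hA.1.eigenvectorUnitary, hA.1.eigenvalues, ?_, ?_, hA.eigenvalues_pos, ?_, ?_⟩
  · exact Unitary.coe_star_mul_self _
  · exact Unitary.coe_mul_star_self _
  · intro f
    rw [hA.1.cfc_eq]
    rfl
  · conv_lhs => rw [hA.1.spectral_theorem]
    rfl

/-- double sum for the trace -/
theorem tr_double {U V : Mat n} (α β : Fin n → ℝ) :
    rt (U * diagonal (fun i => ((α i : ℝ) : ℂ)) * star U *
      (V * diagonal (fun i => ((β i : ℝ) : ℂ)) * star V)) =
      ∑ i, ∑ j, ‖(star U * V) i j‖ ^ 2 * (α i * β j) := by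
  unfold rt
  have h1 : (U * diagonal (fun i => ((α i : ℝ) : ℂ)) * star U *
      (V * diagonal (fun i => ((β i : ℝ) : ℂ)) * star V)).trace =
      (diagonal (fun i => ((α i : ℝ) : ℂ)) * (star U * V) *
        (diagonal (fun i => ((β i : ℝ) : ℂ)) * star (star U * V))).trace := by
    rw [star_mul, star_star]
    simp only [Matrix.mul_assoc]
    rw [Matrix.trace_mul_comm]
    simp only [Matrix.mul_assoc]
  rw [h1]
  simp only [Matrix.trace, Matrix.diag, Matrix.mul_apply (M := _ * _) (N := _ * _),
    Matrix.diagonal_mul, Complex.re_sum]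
  refine Finset.sum_congr rfl fun i _ => Finset.sum_congr rfl fun j _ => ?_
  rw [Matrix.star_apply, RCLike.star_def]
  have : (α i : ℂ) * (star U * V) i j * ((β j : ℂ) * (starRingEnd ℂ) ((star U * V) i j)) =
      ((‖(star U * V) i j‖ ^ 2 * (α i * β j) : ℝ) : ℂ) := by
    have h2 := Complex.mul_conj' ((star U * V) i j)
    push_cast
    rw [← h2]
    ring
  rw [this, Complex.ofReal_re]

/-- scalar identity -/
theorem scalar {a b : ℝ} (ha : 0 < a) (hb : 0 < b) :
    a * Real.log a - a * Real.log b - a + b =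
      ∫ u in (0 : ℝ)..1, (1 - u) * ((a - b) ^ 2 / (u * a + (1 - u) * b)) := by
  have hpos : ∀ u ∈ Icc (0 : ℝ) 1, 0 < u * a + (1 - u) * b := by
    rintro u ⟨h0, h1⟩
    rcases h0.eq_or_lt with rfl | h0
    · simpa using hb
    · have := mul_pos h0 ha
      have := mul_nonneg (sub_nonneg.2 h1) hb.le
      linarith
  set F : ℝ → ℝ := fun u => (1 - u) * ((a - b) * (Real.log (u * a + (1 - u) * b) - Real.log b)) +
    ((u * a + (1 - u) * b) * (Real.log (u * a + (1 - u) * b) - Real.log b)
      - (u * a + (1 - u) * b) + b) with hF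
  have hd : ∀ u ∈ uIcc (0 : ℝ) 1, HasDerivAt F
      ((1 - u) * ((a - b) ^ 2 / (u * a + (1 - u) * b))) u := by
    intro u hu
    rw [uIcc_of_le zero_le_one] at hu
    have hp := hpos u hu
    have d1 : HasDerivAt (fun u : ℝ => u * a + (1 - u) * b) (a - b) u := by
      have := ((hasDerivAt_id u).mul_const a).add (((hasDerivAt_id u).const_sub 1).mul_const b)
      refine this.congr_deriv ?_
      ring
    have d2 : HasDerivAt (fun u : ℝ => Real.log (u * a + (1 - u) * b) - Real.log b)
        ((a - b) / (u * a + (1 - u) * b)) u := (d1.log hp.ne').sub_const _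
    have d3 := (((hasDerivAt_id u).const_sub 1).mul (d2.const_mul (a - b))).add
      (((d1.mul d2).sub d1).add_const b)
    refine d3.congr_deriv ?_
    have he : (u * a + (1 - u) * b) * ((a - b) / (u * a + (1 - u) * b)) = a - b :=
      mul_div_cancel₀ _ hp.ne'
    rw [he]
    simp only [id_eq]
    ring
  have hc : ContinuousOn (fun u => (1 - u) * ((a - b) ^ 2 / (u * a + (1 - u) * b)))
      (uIcc (0 : ℝ) 1) := by
    rw [uIcc_of_le zero_le_one]
    refine ContinuousOn.mul (by fun_prop) (ContinuousOn.div (by fun_prop) (by fun_prop) ?_)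
    intro u hu
    exact (hpos u hu).ne'
  rw [intervalIntegral.integral_eq_sub_of_hasDerivAt hd hc.intervalIntegrable]
  simp only [hF]
  simp
  ring

/-- entries -/
theorem entry (e d : ℝ) (x : ℂ) : star ((e : ℂ) * x) * ((d : ℂ) * x) =
    ((‖x‖ ^ 2 * (e * d) : ℝ) : ℂ) := by
  have h6 := Complex.conj_mul' x
  rw [star_mul', RCLike.star_def, Complex.conj_ofReal]
  push_cast
  rw [← h6]
  ring

end DREP

open DREP in
theorem drep : S_DREP := by
  intro n A B hA hB
  obtain ⟨U, a, hU1, hU2, ha, hUf, hAe⟩ := spec A hA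
  obtain ⟨V, b, hV1, hV2, hb, hVf, hBe⟩ := spec B hB
  set X := star U * V with hX
  have hpos : ∀ u ∈ Icc (0 : ℝ) 1, ∀ i j, 0 < u * a i + (1 - u) * b j := by
    rintro u ⟨h0, h1⟩ i j
    rcases h0.eq_or_lt with rfl | h0
    · simpa using hb j
    · have := mul_pos h0 (ha i)
      have := mul_nonneg (sub_nonneg.2 h1) (hb j).le
      linarith
  set R : ℝ → ℝ := fun u => ∑ i, ∑ j, ‖X i j‖ ^ 2 *
    ((a i - b j) ^ 2 / (u * a i + (1 - u) * b j)) with hR
  have hAB : A - B = U * (Matrix.of fun i j => ((a i - b j : ℝ) : ℂ) * X i j) * star V := by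
    have h1 : (Matrix.of fun i j => ((a i - b j : ℝ) : ℂ) * X i j) =
        diagonal (fun i => ((a i : ℝ) : ℂ)) * X - X * diagonal (fun i => ((b i : ℝ) : ℂ)) := by
      ext i j
      simp only [Matrix.of_apply, Matrix.sub_apply, Matrix.diagonal_mul, Matrix.mul_diagonal]
      push_cast
      ring
    rw [h1, Matrix.mul_sub, Matrix.sub_mul]
    conv_lhs => rw [hAe, hBe]
    congr 1
    · rw [hX]
      simp only [Matrix.mul_assoc]
      rw [hV2, Matrix.mul_one]
    · rw [hX]
      simp only [← Matrix.mul_assoc]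
      rw [hU2, Matrix.one_mul]
  refine ⟨R, ?_, ?_, ?_⟩
  · refine ContinuousOn.intervalIntegrable ?_
    rw [uIcc_of_le zero_le_one, hR]
    refine ContinuousOn.mul (by fun_prop) (continuousOn_finsetSum _ fun i _ =>
      continuousOn_finsetSum _ fun j _ => ContinuousOn.mul (by fun_prop)
        (ContinuousOn.div (by fun_prop) (by fun_prop) ?_))
    intro u hu
    exact (hpos u hu i j).ne'
  · intro u hu
    have hu' : u ∈ Icc (0 : ℝ) 1 := ⟨hu.1.le, hu.2.le⟩
    set M : Mat n := Matrix.of fun i j =>
      ((((a i - b j) / (u * a i + (1 - u) * b j) : ℝ) : ℂ)) * X i j with hM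
    refine ⟨U * M * star V, ?_, ?_⟩
    · have h1 : u • (A * (U * M * star V)) + (1 - u) • ((U * M * star V) * B) =
          U * (u • (diagonal (fun i => ((a i : ℝ) : ℂ)) * M) +
            (1 - u) • (M * diagonal (fun i => ((b i : ℝ) : ℂ)))) * star V := by
        rw [Matrix.mul_add, Matrix.add_mul, Matrix.mul_smul, Matrix.smul_mul, Matrix.mul_smul,
          Matrix.smul_mul]
        congr 2
        · conv_lhs => rw [hAe]
          simp only [← Matrix.mul_assoc]
          rw [Matrix.mul_assoc (U * _) (star U) U, hU1, Matrix.mul_one]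
        · conv_lhs => rw [hBe]
          simp only [Matrix.mul_assoc]
          rw [← Matrix.mul_assoc (star V) V, hV1, Matrix.one_mul]
      rw [h1, hAB]
      congr 2
      ext i j
      simp only [Matrix.add_apply, Matrix.smul_apply, Matrix.diagonal_mul, Matrix.mul_diagonal,
        hM, Matrix.of_apply, Complex.real_smul]
      have := (hpos u hu' i j).ne'
      have h3 : (u : ℂ) * a i + (1 - u) * b j ≠ 0 := by exact_mod_cast this
      have h4 : ((a i : ℂ) - b j) / (u * a i + (1 - u) * b j) * (u * a i + (1 - u) * b j) =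
          a i - b j := div_mul_cancel₀ _ h3
      push_cast
      linear_combination X i j * h4
    · have h1 : (U * M * star V)ᴴ * (A - B) = V * (star M *
          (Matrix.of fun i j => ((a i - b j : ℝ) : ℂ) * X i j)) * star V := by
        rw [hAB, ← Matrix.star_eq_conjTranspose, star_mul, star_mul, star_star]
        simp only [Matrix.mul_assoc]
        rw [← Matrix.mul_assoc (star U) U, hU1, Matrix.one_mul]
      have h2 : rt ((U * M * star V)ᴴ * (A - B)) = rt (star M *
          (Matrix.of fun i j => ((a i - b j : ℝ) : ℂ) * X i j)) := by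
        unfold rt
        rw [h1, Matrix.mul_assoc, Matrix.trace_mul_comm, Matrix.mul_assoc, hV1, Matrix.mul_one]
      rw [h2, hR]
      unfold rt
      simp only [Matrix.trace, Matrix.diag, Matrix.mul_apply, Complex.re_sum, Matrix.star_apply,
        hM, Matrix.of_apply]
      rw [Finset.sum_comm]
      refine Finset.sum_congr rfl fun j _ => Finset.sum_congr rfl fun i _ => ?_
      have h5 := entry ((a i - b j) / (u * a i + (1 - u) * b j)) (a i - b j) (X i j)
      refine Eq.trans ?_ (congrArg Complex.re h5).symm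
      rw [Complex.ofReal_re]
      ring
  · have e0 : ∀ (α β : Fin n → ℝ), rt (U * diagonal (fun i => ((α i : ℝ) : ℂ)) * star U *
        (V * diagonal (fun i => ((β i : ℝ) : ℂ)) * star V)) =
        ∑ i, ∑ j, ‖X i j‖ ^ 2 * (α i * β j) := fun α β => tr_double α β
    have hV3 : V * diagonal (fun i => (((fun _ => 1 : Fin n → ℝ) i : ℝ) : ℂ)) * star V = 1 := by
      simp [hV2]
    have hU3 : U * diagonal (fun i => (((fun _ => 1 : Fin n → ℝ) i : ℝ) : ℂ)) * star U = 1 := by
      simp [hU2]
    have e1 : rt A = ∑ i, ∑ j, ‖X i j‖ ^ 2 * (a i * 1) := by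
      rw [← e0 a (fun _ => 1), hV3, Matrix.mul_one, ← hAe]
    have e2 : rt B = ∑ i, ∑ j, ‖X i j‖ ^ 2 * (1 * b j) := by
      rw [← e0 (fun _ => 1) b, hU3, Matrix.one_mul, ← hBe]
    have e3 : rt (A * mlog A) = ∑ i, ∑ j, ‖X i j‖ ^ 2 * (a i * Real.log (a i) * 1) := by
      rw [← e0 (fun i => a i * Real.log (a i)) (fun _ => 1), hV3, Matrix.mul_one]
      congr 1
      unfold mlog
      rw [hUf]
      conv_lhs => rw [hAe]
      have h7 : U * diagonal (fun i => ((a i : ℝ) : ℂ)) * star U *
          (U * diagonal (fun i => ((Real.log (a i) : ℝ) : ℂ)) * star U) =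
          U * (diagonal (fun i => ((a i : ℝ) : ℂ)) *
            diagonal (fun i => ((Real.log (a i) : ℝ) : ℂ))) * star U := by
        simp only [← Matrix.mul_assoc]
        rw [Matrix.mul_assoc (U * _) (star U) U, hU1, Matrix.mul_one]
      rw [h7, Matrix.diagonal_mul_diagonal]
      congr 2
      ext i j
      push_cast
      rfl
    have e4 : rt (A * mlog B) = ∑ i, ∑ j, ‖X i j‖ ^ 2 * (a i * Real.log (b j)) := by
      rw [← e0 a (fun j => Real.log (b j)), ← hAe]
      congr 2
      exact hVf _
    have e5 : rt (A * (mlog A - mlog B)) = rt (A * mlog A) - rt (A * mlog B) := by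
      unfold rt
      rw [Matrix.mul_sub, Matrix.trace_sub, Complex.sub_re]
    rw [e5, e1, e2, e3, e4]
    have hii : ∀ i j, IntervalIntegrable (fun u => (1 - u) * (‖X i j‖ ^ 2 *
        ((a i - b j) ^ 2 / (u * a i + (1 - u) * b j)))) volume 0 1 := by
      intro i j
      refine ContinuousOn.intervalIntegrable ?_
      rw [uIcc_of_le zero_le_one]
      refine ContinuousOn.mul (by fun_prop) (ContinuousOn.mul (by fun_prop)
        (ContinuousOn.div (by fun_prop) (by fun_prop) ?_))
      intro u hu
      exact (hpos u hu i j).ne'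
    have e6 : ∫ u in (0 : ℝ)..1, (1 - u) * R u = ∑ i, ∑ j, ∫ u in (0 : ℝ)..1,
        (1 - u) * (‖X i j‖ ^ 2 * ((a i - b j) ^ 2 / (u * a i + (1 - u) * b j))) := by
      simp only [hR, Finset.mul_sum]
      rw [intervalIntegral.integral_finsetSum]
      · refine Finset.sum_congr rfl fun i _ => ?_
        rw [intervalIntegral.integral_finsetSum]
        intro j _
        exact hii i j
      · intro i _
        have := IntervalIntegrable.sum (Finset.univ) fun j (_ : j ∈ Finset.univ) => hii i j
        refine this.congr ?_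
        intro u _
        simp
    rw [e6, ← Finset.sum_sub_distrib, ← Finset.sum_sub_distrib, ← Finset.sum_add_distrib]
    refine Finset.sum_congr rfl fun i _ => ?_
    rw [← Finset.sum_sub_distrib, ← Finset.sum_sub_distrib, ← Finset.sum_add_distrib]
    refine Finset.sum_congr rfl fun j _ => ?_
    have h8 := scalar (ha i) (hb j)
    have h9 : ∫ u in (0 : ℝ)..1, (1 - u) * (‖X i j‖ ^ 2 *
        ((a i - b j) ^ 2 / (u * a i + (1 - u) * b j))) = ‖X i j‖ ^ 2 *
        ∫ u in (0 : ℝ)..1, (1 - u) * ((a i - b j) ^ 2 / (u * a i + (1 - u) * b j)) := by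
      rw [← intervalIntegral.integral_const_mul]
      congr 1
      ext u
      ring
    rw [h9, ← h8]
    ring

end Vale.P371G
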