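import Vale.Agent.P371G.POS

/-!
# P371G, module ELLB (helper17)
-/

namespace Vale.P371G

open Matrix Set Filter MeasureTheory
open scoped Topology ComplexOrder

namespace H17

variable {n : ℕ}

section
open scoped MatrixOrder

theorem spec_ge {A : Mat n} (hA : A.IsHermitian) {a : ℝ} (h : (A - a • (1 : Mat n)).PosSemidef) :
    ∀ x ∈ spectrum ℝ A, a ≤ x := by
  rw [← algebraMap_le_iff_le_spectrum (ha := hA), Matrix.le_iff, Algebra.algebraMap_eq_smul_one]
  exact h

theorem spec_le {A : Mat n} (hA : A.IsHermitian) {a : ℝ} (h : (a • (1 : Mat n) - A).PosSemidef) :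
    ∀ x ∈ spectrum ℝ A, x ≤ a := by
  rw [← le_algebraMap_iff_spectrum_le (ha := hA), Matrix.le_iff, Algebra.algebraMap_eq_smul_one]
  exact h

end

theorem cfc_sub_posSemidef {A : Mat n} (hA : A.IsHermitian) {f g : ℝ → ℝ}
    (h : ∀ x ∈ spectrum ℝ A, f x ≤ g x) : (cfc g A - cfc f A).PosSemidef := by
  rw [cfcm_sub]
  exact cfc_posSemidef hA fun x hx => sub_nonneg.2 (h x hx)

theorem cfc_sub_const_posSemidef {A : Mat n} (hA : A.IsHermitian) {f : ℝ → ℝ} {c : ℝ}
    (h : ∀ x ∈ spectrum ℝ A, c ≤ f x) : (cfc f A - c • (1 : Mat n)).PosSemidef := by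
  rw [← cfcm_const hA]
  exact cfc_sub_posSemidef hA h

theorem const_sub_cfc_posSemidef {A : Mat n} (hA : A.IsHermitian) {f : ℝ → ℝ} {c : ℝ}
    (h : ∀ x ∈ spectrum ℝ A, f x ≤ c) : (c • (1 : Mat n) - cfc f A).PosSemidef := by
  rw [← cfcm_const hA]
  exact cfc_sub_posSemidef hA h

theorem smul_one_posSemidef {c : ℝ} (hc : 0 ≤ c) : (c • (1 : Mat n)).PosSemidef :=
  Matrix.PosSemidef.one.smul hc

theorem mlog_sub_posSemidef {A : Mat n} (hA : A.IsHermitian) {a : ℝ} (ha : 0 < a)
    (h : (A - a • (1 : Mat n)).PosSemidef) :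
    (mlog A - (Real.log a) • (1 : Mat n)).PosSemidef :=
  cfc_sub_const_posSemidef hA fun x hx => Real.log_le_log ha (spec_ge hA h x hx)

/-- quadratic lower bound of the logarithm -/
theorem log_quad {q x : ℝ} (hq : 0 < q) (hx : q / 2 ≤ x) :
    Real.log q + (q⁻¹ * x - 1) - 2 * ((q⁻¹ * x - 1) * (q⁻¹ * x - 1)) ≤ Real.log x := by
  have hx0 : 0 < x := lt_of_lt_of_le (by positivity) hx
  set y := q⁻¹ * x with hy
  have hy2 : 1 / 2 ≤ y := by
    rw [hy, inv_mul_eq_div, le_div_iff₀ hq]; linarith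
  have hy0 : 0 < y := by linarith
  have hx' : x = q * y := by rw [hy]; field_simp
  rw [hx', Real.log_mul hq.ne' hy0.ne']
  have h1 : 1 - y⁻¹ ≤ Real.log y := by
    have := Real.log_le_sub_one_of_pos (inv_pos.2 hy0)
    rw [Real.log_inv] at this
    linarith
  have h2 : (y - 1) - 2 * ((y - 1) * (y - 1)) ≤ 1 - y⁻¹ := by
    have h3 : y * ((y - 1) - 2 * ((y - 1) * (y - 1))) ≤ y * (1 - y⁻¹) := by
      have : y * (1 - y⁻¹) = y - 1 := by field_simp
      rw [this]
      nlinarith [sq_nonneg (y - 1), mul_nonneg (sq_nonneg (y - 1)) (by linarith : 0 ≤ 2 * y - 1)]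
    exact le_of_mul_le_mul_left h3 hy0
  linarith

theorem mlog_quad {A : Mat n} (hA : A.IsHermitian) {q : ℝ} (hq : 0 < q)
    (h : (A - (q / 2) • (1 : Mat n)).PosSemidef) :
    (mlog A - ((Real.log q) • (1 : Mat n) + (q⁻¹ • A - 1) -
      (2 : ℝ) • ((q⁻¹ • A - 1) * (q⁻¹ • A - 1)))).PosSemidef := by
  have hy : q⁻¹ • A - 1 = cfc (fun x : ℝ => q⁻¹ * x - 1) A := by
    have e1 : q⁻¹ • A = cfc (fun x : ℝ => q⁻¹ * x) A := by
      rw [← cfcm_smul, cfcm_id hA]
    have e2 : (1 : Mat n) = cfc (fun _ : ℝ => (1 : ℝ)) A := by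
      rw [cfcm_const hA, one_smul]
    rw [e1]
    nth_rewrite 1 [e2]
    rw [cfcm_sub]
  rw [hy, cfcm_mul, cfcm_smul, ← cfcm_const hA, cfcm_add, cfcm_sub]
  exact cfc_sub_posSemidef hA fun x hx => log_quad hq (spec_ge hA h x hx)

theorem le_mul_mt {C τ x : ℝ} (hC : 0 ≤ C) (h1 : x ≤ C * (1 + |Real.log τ|))
    (h2 : x ≤ C * (1 / τ)) : x ≤ C * mt τ := by
  unfold mt
  rw [mul_min_of_nonneg _ _ hC]
  exact le_min h1 h2

/-- scalar upper bound -/
theorem scalar_up {R τ : ℝ} (hτ : 0 < τ) :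
    Real.log (1 + R ^ 2 / τ) ≤ (R ^ 2 + 1 + Real.log (1 + R ^ 2)) * mt τ := by
  have hL : 0 ≤ Real.log (1 + R ^ 2) := Real.log_nonneg (by nlinarith [sq_nonneg R])
  have hR2 : 0 ≤ R ^ 2 := sq_nonneg R
  refine le_mul_mt (by positivity) ?_ ?_
  · rcases le_total 1 τ with h | h
    · have h1 : Real.log (1 + R ^ 2 / τ) ≤ Real.log (1 + R ^ 2) := by
        apply Real.log_le_log (by positivity)
        have : R ^ 2 / τ ≤ R ^ 2 := div_le_self hR2 h
        linarith
      have h2 : 0 ≤ |Real.log τ| := abs_nonneg _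
      nlinarith [mul_nonneg (by positivity : 0 ≤ R ^ 2 + 1 + Real.log (1 + R ^ 2)) h2]
    · have h1 : Real.log (1 + R ^ 2 / τ) ≤ Real.log ((1 + R ^ 2) / τ) := by
        apply Real.log_le_log (by positivity)
        rw [add_div]
        have : 1 ≤ 1 / τ := by rw [le_div_iff₀ hτ]; linarith
        linarith
      rw [Real.log_div (by positivity) hτ.ne'] at h1
      have h2 : -Real.log τ ≤ |Real.log τ| := neg_le_abs _
      have h3 : 0 ≤ |Real.log τ| := abs_nonneg _
      nlinarith [mul_nonneg (by positivity : 0 ≤ R ^ 2 + Real.log (1 + R ^ 2)) h3]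
  · have h1 : Real.log (1 + R ^ 2 / τ) ≤ R ^ 2 / τ := by
      have := Real.log_le_sub_one_of_pos (show 0 < 1 + R ^ 2 / τ by positivity)
      linarith
    have h2 : R ^ 2 / τ = R ^ 2 * (1 / τ) := by ring
    have h3 : 0 ≤ 1 / τ := by positivity
    nlinarith [mul_nonneg (by positivity : 0 ≤ 1 + Real.log (1 + R ^ 2)) h3]

theorem sq_add_sq (D f : Mat n) :
    (D + f) * (D + f) + (D - f) * (D - f) = (2 : ℝ) • (D * D) + (2 : ℝ) • (f * f) := by
  rw [two_smul, two_smul]
  noncomm_ring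

theorem posSemidef_cast {A B : Mat n} (h : A.PosSemidef) (e : A = B) : B.PosSemidef := e ▸ h

section bounds

variable {κ Q : Mat n} {R : ℝ}

theorem F_up (hQ : Q.PosSemidef) (hR : (R • (1 : Mat n) - κ).PosSemidef) :
    (R • (1 : Mat n) - (κ - Q)).PosSemidef :=
  posSemidef_cast (hR.add hQ) (by abel)

theorem F_lo (hP : (κ + κ - Q).PosSemidef) (hR : (R • (1 : Mat n) - κ).PosSemidef) :
    (R • (1 : Mat n) + (κ - Q)).PosSemidef :=
  posSemidef_cast (hR.add hP) (by abel)

theorem F_sq {F : Mat n} (hF : F.IsHermitian) (h1 : (R • (1 : Mat n) - F).PosSemidef)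
    (h2 : (R • (1 : Mat n) + F).PosSemidef) : ((R ^ 2) • (1 : Mat n) - F * F).PosSemidef := by
  have e : F * F = cfc (fun x : ℝ => x * x) F := by
    have : F * F = cfc (fun x : ℝ => x) F * cfc (fun x : ℝ => x) F := by rw [cfcm_id hF]
    rw [this, cfcm_mul]
  rw [e]
  refine const_sub_cfc_posSemidef hF fun x hx => ?_
  have h3 := spec_le hF h1 x hx
  have h4 := spec_ge hF (a := -R) (posSemidef_cast h2 (by rw [neg_smul]; abel)) x hx
  nlinarith

theorem kt_lo (hκ : κ.IsHermitian) {τ : ℝ} :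
    (kt κ τ - (√τ) • (1 : Mat n)).PosSemidef := by
  unfold kt
  refine cfc_sub_const_posSemidef hκ fun x _ => ?_
  exact Real.sqrt_le_sqrt (by nlinarith [sq_nonneg x])

theorem kt_ge (hκ : κ.IsHermitian) {τ : ℝ} (hτ : 0 < τ) : (kt κ τ - κ).PosSemidef := by
  have e : kt κ τ - κ = cfc (fun x : ℝ => √(x ^ 2 + τ)) κ - cfc (fun x : ℝ => x) κ := by
    rw [cfcm_id hκ]; rfl
  rw [e]
  refine cfc_sub_posSemidef hκ fun x _ => ?_
  exact (Real.lt_sqrt_of_sq_lt (by linarith)).le

/-- `kt - κ ≥ τ / (2 √(R² + τ))` -/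
theorem kt_sub_lo (hκ : κ.PosDef) (hR : (R • (1 : Mat n) - κ).PosSemidef) {τ : ℝ} (hτ : 0 < τ) :
    (kt κ τ - κ - (τ / (2 * √(R ^ 2 + τ))) • (1 : Mat n)).PosSemidef := by
  have e : kt κ τ - κ = cfc (fun x : ℝ => √(x ^ 2 + τ) - x) κ := by
    have : kt κ τ - κ = cfc (fun x : ℝ => √(x ^ 2 + τ)) κ - cfc (fun x : ℝ => x) κ := by
      rw [cfcm_id hκ.1]; rfl
    rw [this, cfcm_sub]
  rw [e]
  refine cfc_sub_const_posSemidef hκ.1 fun x hx => ?_
  have hx0 : 0 < x := spectrum_subset_Ioi hκ hx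
  have hxR : x ≤ R := spec_le hκ.1 hR x hx
  have hs : 0 < √(x ^ 2 + τ) := Real.sqrt_pos.2 (by positivity)
  have hs2 : 0 < √(R ^ 2 + τ) := Real.sqrt_pos.2 (by positivity)
  have h1 : √(x ^ 2 + τ) ≤ √(R ^ 2 + τ) := Real.sqrt_le_sqrt (by nlinarith)
  have h2 : x ≤ √(x ^ 2 + τ) := (Real.lt_sqrt_of_sq_lt (by linarith)).le
  rw [div_le_iff₀ (by positivity)]
  have h3 : (√(x ^ 2 + τ) - x) * (√(x ^ 2 + τ) + x) = τ := by
    have := Real.mul_self_sqrt (show 0 ≤ x ^ 2 + τ by positivity)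
    nlinarith
  have h4 : 0 ≤ √(x ^ 2 + τ) - x := sub_nonneg.2 h2
  calc τ = (√(x ^ 2 + τ) - x) * (√(x ^ 2 + τ) + x) := h3.symm
    _ ≤ (√(x ^ 2 + τ) - x) * (2 * √(R ^ 2 + τ)) := by
      apply mul_le_mul_of_nonneg_left _ h4
      linarith

end bounds

end H17

open H17

theorem ellb_module (pos : S_POS) (ellup : S_ELLUP) : S_ELLB := by
  intro n δ R hδ hR
  -- constants
  set C1 : ℝ := R ^ 2 + 1 + Real.log (1 + R ^ 2) with hC1
  set C2 : ℝ := 4 * R ^ 2 + 1 with hC2
  set c1 : ℝ := |Real.log δ - Real.log (2 * √(17 * R ^ 2))| with hc1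
  set C3 : ℝ := c1 * (1 + 16 * R ^ 2) with hC3
  have hL : 0 ≤ Real.log (1 + R ^ 2) := Real.log_nonneg (by nlinarith [sq_nonneg R])
  have hC1p : 0 < C1 := by positivity
  have hC2p : 0 < C2 := by positivity
  have hC3p : 0 ≤ C3 := by positivity
  refine ⟨C1 + C2 + C3, by positivity, ?_⟩
  intro κ Q τ h hRκ hδP hτ
  obtain ⟨hκ, hkt, hZ, hPt, hQt, hsq, hcomm, hprod⟩ := pos n κ Q τ h hτ
  obtain ⟨hQ, hP⟩ := id h
  have hmt : 0 < mt τ := lt_min (by positivity) (by positivity)
  have hP' : (κ + κ - Q).PosSemidef := hP.posSemidef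
  have hFh : (κ - Q).IsHermitian := hκ.1.sub hQ.1
  constructor
  · -- upper bound
    have h1 := ellup n κ Q τ h hτ
    have h2 : (((C1 + C2 + C3) * mt τ) • (1 : Mat n) -
        cfc (fun x : ℝ => Real.log (1 + x ^ 2 / τ)) κ).PosSemidef := by
      refine const_sub_cfc_posSemidef hκ.1 fun x hx => ?_
      have hx0 : 0 < x := spectrum_subset_Ioi hκ hx
      have hxR : x ≤ R := spec_le hκ.1 hRκ x hx
      calc Real.log (1 + x ^ 2 / τ) ≤ Real.log (1 + R ^ 2 / τ) := by
            apply Real.log_le_log (by positivity)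
            gcongr
        _ ≤ C1 * mt τ := scalar_up hτ
        _ ≤ (C1 + C2 + C3) * mt τ := by
            apply mul_le_mul_of_nonneg_right _ hmt.le
            linarith
    exact posSemidef_cast (h2.add h1) (by abel)
  · -- lower bound
    rcases le_or_gt (16 * R ^ 2) τ with hτR | hτR
    · set q : ℝ := √τ with hq
      have hq0 : 0 < q := Real.sqrt_pos.2 hτ
      have hqq : q * q = τ := Real.mul_self_sqrt hτ.le
      have hqR : 4 * R ≤ q := by
        apply Real.le_sqrt_of_sq_le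
        nlinarith
      have hF1 := F_up hQ hRκ
      have hF2 := F_lo hP' hRκ
      have hP1 : (Pt κ Q τ - (q / 2) • (1 : Mat n)).PosSemidef := by
        have h3 := ((kt_lo hκ.1 (τ := τ)).add hF2).add
          (smul_one_posSemidef (n := n) (c := q / 2 - R) (by linarith))
        refine posSemidef_cast h3 ?_
        unfold Pt
        rw [← hq]
        module
      have hQ1 : (Qt κ Q τ - (q / 2) • (1 : Mat n)).PosSemidef := by
        have h3 := ((kt_lo hκ.1 (τ := τ)).add hF1).add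
          (smul_one_posSemidef (n := n) (c := q / 2 - R) (by linarith))
        refine posSemidef_cast h3 ?_
        unfold Qt
        rw [← hq]
        module
      have h1 := mlog_quad hPt.1 hq0 hP1
      have h2 := mlog_quad hQt.1 hq0 hQ1
      set D : Mat n := q⁻¹ • kt κ τ - 1 with hD
      set f : Mat n := q⁻¹ • (κ - Q) with hf
      have e1 : q⁻¹ • Pt κ Q τ - 1 = D + f := by
        rw [hD, hf]; unfold Pt; module
      have e2 : q⁻¹ • Qt κ Q τ - 1 = D - f := by
        rw [hD, hf]; unfold Qt; module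
      rw [e1] at h1
      rw [e2] at h2
      have hDc : D = cfc (fun x : ℝ => q⁻¹ * √(x ^ 2 + τ) - 1) κ := by
        rw [hD]
        unfold kt
        rw [cfcm_smul]
        have : (1 : Mat n) = cfc (fun _ : ℝ => (1 : ℝ)) κ := by
          rw [cfcm_const hκ.1, one_smul]
        nth_rewrite 1 [this]
        rw [cfcm_sub]
      have h3 : ((2 : ℝ) • D - (4 : ℝ) • (D * D)).PosSemidef := by
        rw [hDc, cfcm_mul, cfcm_smul, cfcm_smul, cfcm_sub]
        refine cfc_posSemidef hκ.1 fun x hx => ?_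
        have hx0 : 0 < x := spectrum_subset_Ioi hκ hx
        have hxR : x ≤ R := spec_le hκ.1 hRκ x hx
        have h4 : q ≤ √(x ^ 2 + τ) := Real.sqrt_le_sqrt (by nlinarith)
        have h5 : √(x ^ 2 + τ) ≤ 3 / 2 * q := by
          rw [Real.sqrt_le_left (by positivity)]
          nlinarith
        have h6 : 1 ≤ q⁻¹ * √(x ^ 2 + τ) := by
          rw [inv_mul_eq_div, le_div_iff₀ hq0]; linarith
        have h7 : q⁻¹ * √(x ^ 2 + τ) ≤ 3 / 2 := by
          rw [inv_mul_eq_div, div_le_iff₀ hq0]; linarith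
        nlinarith
      have h4 : ((4 * R ^ 2 / τ) • (1 : Mat n) - (4 : ℝ) • (f * f)).PosSemidef := by
        have h5 := (F_sq hFh hF1 hF2).smul (show (0 : ℝ) ≤ 4 / τ by positivity)
        refine posSemidef_cast h5 ?_
        rw [hf, Matrix.smul_mul, Matrix.mul_smul, smul_sub, smul_smul, smul_smul, smul_smul]
        congr 1
        · congr 1; ring
        · congr 1
          rw [← hqq]
          field_simp
      have h5 : 4 * R ^ 2 / τ ≤ (C1 + C2 + C3) * mt τ := by
        have h6 : 4 * R ^ 2 / τ ≤ C2 * mt τ := by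
          refine le_mul_mt hC2p.le ?_ ?_
          · have h7 : 4 * R ^ 2 / τ ≤ 1 := by
              rw [div_le_one hτ]; nlinarith
            have h8 : 0 ≤ |Real.log τ| := abs_nonneg _
            have h9 : 1 ≤ C2 := by rw [hC2]; nlinarith [sq_nonneg R]
            nlinarith
          · have h7 : 4 * R ^ 2 / τ = 4 * R ^ 2 * (1 / τ) := by ring
            have h8 : 0 < 1 / τ := by positivity
            rw [h7, hC2]
            nlinarith
        have h7 : C2 * mt τ ≤ (C1 + C2 + C3) * mt τ := by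
          apply mul_le_mul_of_nonneg_right _ hmt.le
          linarith
        linarith
      have h6 := smul_one_posSemidef (n := n) (sub_nonneg.2 h5)
      refine posSemidef_cast ((((h1.add h2).add h3).add h4).add h6) ?_
      have hlog : Real.log τ = 2 * Real.log q := by
        rw [← hqq, Real.log_mul hq0.ne' hq0.ne']; ring
      have h7 : (D + f) * (D + f) + (D - f) * (D - f) = (2 : ℝ) • (D * D) + (2 : ℝ) • (f * f) :=
        sq_add_sq D f
      unfold ell
      rw [hlog]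
      have h8 : mlog (Pt κ Q τ) - (Real.log q • (1 : Mat n) + (D + f) - (2 : ℝ) • ((D + f) * (D + f)))
          + (mlog (Qt κ Q τ) - (Real.log q • (1 : Mat n) + (D - f) - (2 : ℝ) • ((D - f) * (D - f))))
          = mlog (Pt κ Q τ) + mlog (Qt κ Q τ) - (2 * Real.log q) • (1 : Mat n) - (2 : ℝ) • D +
            (2 : ℝ) • ((D + f) * (D + f) + (D - f) * (D - f)) := by module
      rw [h8, h7]
      module
    · have hlo : (mlog (Pt κ Q τ) - (Real.log δ) • (1 : Mat n)).PosSemidef := by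
        refine mlog_sub_posSemidef hPt.1 hδ ?_
        refine posSemidef_cast ((kt_ge hκ.1 hτ).add hδP) ?_
        unfold Pt
        module
      have hs : 0 < √(R ^ 2 + τ) := Real.sqrt_pos.2 (by positivity)
      have hlo2 : (mlog (Qt κ Q τ) -
          (Real.log (τ / (2 * √(R ^ 2 + τ)))) • (1 : Mat n)).PosSemidef := by
        refine mlog_sub_posSemidef hQt.1 (by positivity) ?_
        refine posSemidef_cast ((kt_sub_lo hκ hRκ hτ).add hQ) ?_
        unfold Qt
        module
      have h1 : c1 ≤ C3 * mt τ := by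
        have hc1p : 0 ≤ c1 := abs_nonneg _
        refine le_mul_mt hC3p ?_ ?_
        · have h8 : 0 ≤ |Real.log τ| := abs_nonneg _
          have h9 : c1 ≤ C3 := by
            rw [hC3]
            nlinarith [mul_nonneg hc1p (sq_nonneg R)]
          nlinarith [mul_nonneg hC3p h8]
        · rw [hC3, mul_one_div, le_div_iff₀ hτ]
          nlinarith [mul_nonneg hc1p (sq_nonneg R)]
      have h2 : Real.log (2 * √(R ^ 2 + τ)) ≤ Real.log (2 * √(17 * R ^ 2)) := by
        apply Real.log_le_log (by positivity)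
        have : √(R ^ 2 + τ) ≤ √(17 * R ^ 2) := Real.sqrt_le_sqrt (by linarith)
        linarith
      have h3 : -c1 ≤ Real.log δ - Real.log (2 * √(17 * R ^ 2)) := neg_abs_le _
      have h4 : 0 ≤ (C1 + C2 + C3) * mt τ + (Real.log δ - Real.log (2 * √(R ^ 2 + τ))) := by
        have h5 : C3 * mt τ ≤ (C1 + C2 + C3) * mt τ := by
          apply mul_le_mul_of_nonneg_right _ hmt.le
          linarith
        linarith
      have h6 := smul_one_posSemidef (n := n) h4
      refine posSemidef_cast ((hlo.add hlo2).add h6) ?_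
      rw [Real.log_div hτ.ne' (by positivity)]
      unfold ell
      module

end Vale.P371G
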