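import Mathlib
import Vale.Agent.P371G.Defs

/-!
# P371G: module GDER, derivative of the layer functional in `Q`
-/

namespace Vale.P371G

open MeasureTheory Set Filter Matrix
open scoped Topology ComplexOrder ComplexConjugate

namespace GDER

variable {n : ℕ}

lemma rt_add (A B : Mat n) : rt (A + B) = rt A + rt B := by
  simp [rt, Matrix.trace_add]

lemma rt_sub (A B : Mat n) : rt (A - B) = rt A - rt B := by
  simp [rt, Matrix.trace_sub]

lemma rt_neg (A : Mat n) : rt (-A) = - rt A := by
  simp [rt, Matrix.trace_neg]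

lemma rt_smul (c : ℝ) (A : Mat n) : rt (c • A) = c * rt A := by
  simp [rt, Matrix.trace_smul]

lemma rt_zero : rt (0 : Mat n) = 0 := by simp [rt]

lemma rt_one : rt (1 : Mat n) = n := by simp [rt]

lemma continuous_rt : Continuous (fun A : Mat n => rt A) := by
  unfold rt
  exact Complex.continuous_re.comp (continuous_id.matrix_trace)

/-- a positive definite matrix is bounded below -/
lemma exists_lower {X : Mat n} (hX : X.PosDef) :
    ∃ c : ℝ, 0 < c ∧ (X - c • (1 : Mat n)).PosSemidef := by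
  open scoped MatrixOrder in
  rcases Nat.eq_zero_or_pos n with h0 | hpos
  · subst h0
    refine ⟨1, one_pos, ?_⟩
    have : X - (1 : ℝ) • (1 : Mat 0) = 0 := Subsingleton.elim _ _
    rw [this]
    exact Matrix.PosSemidef.zero
  · have : Nonempty (Fin n) := ⟨⟨0, hpos⟩⟩
    have h := (CFC.exists_pos_algebraMap_le_iff (A := Mat n) (a := X) hX.1).2 (by
      intro x hx
      rw [hX.1.spectrum_real_eq_range_eigenvalues] at hx
      obtain ⟨i, rfl⟩ := hx
      exact hX.eigenvalues_pos i)
    obtain ⟨r, hr, hle⟩ := h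
    refine ⟨r, hr, ?_⟩
    rw [Matrix.le_iff] at hle
    rwa [Algebra.algebraMap_eq_smul_one] at hle

/-- a hermitian matrix is bounded on both sides -/
lemma exists_upper {H : Mat n} (hH : H.IsHermitian) :
    ∃ M : ℝ, 0 < M ∧ (M • (1 : Mat n) - H).PosSemidef ∧ (M • (1 : Mat n) + H).PosSemidef := by
  open scoped MatrixOrder Matrix.Norms.L2Operator in
  have h1 : H ≤ algebraMap ℝ (Mat n) ‖H‖ := IsSelfAdjoint.le_algebraMap_norm_self hH
  have h2 : -(algebraMap ℝ (Mat n) ‖H‖) ≤ H := IsSelfAdjoint.neg_algebraMap_norm_le_self hH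
  rw [Matrix.le_iff, Algebra.algebraMap_eq_smul_one] at h1 h2
  refine ⟨‖H‖ + 1, by positivity, ?_, ?_⟩
  · have : (‖H‖ + 1) • (1 : Mat n) - H = (‖H‖ • (1 : Mat n) - H) + 1 := by
      rw [add_smul, one_smul]; abel
    rw [this]
    exact h1.add Matrix.PosSemidef.one
  · have : (‖H‖ + 1) • (1 : Mat n) + H = (H - -(‖H‖ • (1 : Mat n))) + 1 := by
      rw [add_smul, one_smul]; abel
    rw [this]
    exact h2.add Matrix.PosSemidef.one

/-- positive definiteness is an open condition along a line -/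
lemma eventually_posDef {X H : Mat n} (hX : X.PosDef) (hH : H.IsHermitian) :
    ∀ᶠ t : ℝ in 𝓝 0, (X + t • H).PosDef := by
  obtain ⟨c, hc, hXc⟩ := exists_lower hX
  obtain ⟨M, hM, hM1, hM2⟩ := exists_upper hH
  have hev : ∀ᶠ t : ℝ in 𝓝 0, |t| * M < c := by
    have : Tendsto (fun t : ℝ => |t| * M) (𝓝 0) (𝓝 (|0| * M)) :=
      (continuous_abs.mul continuous_const).tendsto 0
    rw [abs_zero, zero_mul] at this
    exact this.eventually (gt_mem_nhds hc)
  filter_upwards [hev] with t ht
  have hpd : ((c - |t| * M) • (1 : Mat n)).PosDef := by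
    have h1 : (1 : Mat n).PosDef := Matrix.PosDef.one
    exact h1.smul (sub_pos.2 ht)
  rcases le_total 0 t with h0 | h0
  · have e : X + t • H = (c - |t| * M) • (1 : Mat n) + ((X - c • (1 : Mat n)) +
        t • (M • (1 : Mat n) + H)) := by
      rw [abs_of_nonneg h0, sub_smul, smul_add, smul_smul]; abel
    rw [e]
    exact hpd.add_posSemidef (hXc.add (hM2.smul h0))
  · have e : X + t • H = (c - |t| * M) • (1 : Mat n) + ((X - c • (1 : Mat n)) +
        (-t) • (M • (1 : Mat n) - H)) := by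
      rw [abs_of_nonpos h0, sub_smul, smul_sub, smul_smul, neg_smul]; abel
    rw [e]
    exact hpd.add_posSemidef (hXc.add (hM1.smul (neg_nonneg.2 h0)))

/-- derivative of `η` along a line -/
lemma hasDerivAt_eta (hk : S_KLEIN) (hc : S_CONT) {X H : Mat n} (hX : X.PosDef)
    (hH : H.IsHermitian) :
    HasDerivAt (fun t : ℝ => eta (X + t • H)) (rt (H * (mlog X + 1))) 0 := by
  have hpd := eventually_posDef hX hH
  have hlin : Tendsto (fun t : ℝ => X + t • H) (𝓝 0) (𝓝 X) := by
    have : Continuous (fun t : ℝ => X + t • H) := by fun_prop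
    have := this.tendsto 0
    simpa using this
  have hlog : Tendsto (fun t : ℝ => mlog (X + t • H)) (𝓝 0) (𝓝 (mlog X)) := by
    have h5 := (hc n).2.2.2.2 X hX
    exact h5.tendsto.comp (tendsto_nhdsWithin_iff.2 ⟨hlin, hpd⟩)
  have hd : Tendsto (fun t : ℝ => rt (H * (mlog (X + t • H) + 1)) - rt (H * (mlog X + 1)))
      (𝓝 0) (𝓝 0) := by
    have h6 : Tendsto (fun t : ℝ => rt (H * (mlog (X + t • H) + 1))) (𝓝 0)
        (𝓝 (rt (H * (mlog X + 1)))) := by
      have h7 : Tendsto (fun t : ℝ => H * (mlog (X + t • H) + 1)) (𝓝 0)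
          (𝓝 (H * (mlog X + 1))) := (hlog.add_const 1).const_mul H
      exact (continuous_rt.tendsto _).comp h7
    have := h6.sub_const (rt (H * (mlog X + 1)))
    simpa using this
  rw [hasDerivAt_iff_isLittleO]
  simp only [zero_smul, add_zero, sub_zero, smul_eq_mul]
  rw [Asymptotics.isLittleO_iff]
  intro ε hε
  have hev := Metric.tendsto_nhds.1 hd ε hε
  filter_upwards [hpd, hev] with t h1 h2
  rw [dist_zero_right] at h2
  have hk1 := hk n X (X + t • H) hX h1
  have hk2 := hk n (X + t • H) X h1 hX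
  have e1 : X + t • H - X = t • H := by abel
  have e2 : X - (X + t • H) = -(t • H) := by abel
  rw [e1, smul_mul_assoc, rt_smul] at hk1
  rw [e2, neg_mul, smul_mul_assoc, rt_neg, rt_smul] at hk2
  rw [Real.norm_eq_abs] at h2
  rw [Real.norm_eq_abs, Real.norm_eq_abs]
  set D := rt (H * (mlog X + 1)) with hD
  set D' := rt (H * (mlog (X + t • H) + 1)) with hD'
  have hpos : 0 ≤ eta (X + t • H) - eta X - t * D := by linarith
  rw [abs_of_nonneg hpos]
  calc eta (X + t • H) - eta X - t * D ≤ t * (D' - D) := by linarith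
    _ ≤ |t * (D' - D)| := le_abs_self _
    _ = |D' - D| * |t| := by rw [abs_mul, mul_comm]
    _ ≤ ε * |t| := mul_le_mul_of_nonneg_right h2.le (abs_nonneg _)

end GDER

open GDER in
theorem gder (hk : S_KLEIN) (hc : S_CONT) : S_GDER := by
  intro n κ Q H τ hτ hH hP hQ
  have h1 := hasDerivAt_eta hk hc hP hH.neg
  have h2 := hasDerivAt_eta hk hc hQ hH
  have h3 : HasDerivAt (fun t : ℝ => rt (Q + t • H)) (rt H) 0 := by
    have : (fun t : ℝ => rt (Q + t • H)) = fun t : ℝ => rt Q + t * rt H := by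
      funext t; rw [rt_add, rt_smul]
    rw [this]
    simpa using ((hasDerivAt_id (0:ℝ)).mul_const (rt H)).const_add (rt Q)
  have h4 := (((((hasDerivAt_const (0:ℝ) (eta (kt κ τ + κ))).sub h1).add h2).sub
    (hasDerivAt_const (0:ℝ) (eta (kt κ τ - κ)))).sub (h3.const_mul (2 + Real.log τ)))
  have e : rt (H * ell κ Q τ) = 0 - rt (-H * (mlog (Pt κ Q τ) + 1)) +
      rt (H * (mlog (Qt κ Q τ) + 1)) - 0 - (2 + Real.log τ) * rt H := by
    unfold ell
    rw [neg_mul, rt_neg, mul_sub, mul_add, mul_add, mul_add, rt_sub, rt_add, rt_add, rt_add,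
      mul_one, mul_smul_comm, rt_smul, mul_one]
    ring
  rw [e]
  refine h4.congr_of_eventuallyEq (Eventually.of_forall fun t => ?_)
  show gam κ (Q + t • H) τ = _
  have eP : Pt κ (Q + t • H) τ = Pt κ Q τ + t • (-H) := by
    unfold Pt; rw [smul_neg]; abel
  have eQ : Qt κ (Q + t • H) τ = Qt κ Q τ + t • H := by
    unfold Qt; abel
  unfold gam
  rw [eP, eQ]
  rfl

end Vale.P371G
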