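import Mathlib
import Vale.Agent.P371G.Defs
import Vale.Agent.P371.GoldenThompson
import Vale.Agent.P371G.Gder

/-!
# P371G: module GAMB, bound of the layer functional
-/

namespace Vale.P371G

open MeasureTheory Set Filter Matrix
open scoped Topology ComplexOrder ComplexConjugate

namespace GAMB

open GDER

variable {n : ℕ}

lemma rt_mul_nonneg {A B : Mat n} (hA : A.PosSemidef) (hB : B.PosSemidef) : 0 ≤ rt (A * B) := by
  have h := P371.trace_mul_nonneg hA hB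
  exact (Complex.nonneg_iff.1 h).1

lemma rt_nonneg {A : Mat n} (hA : A.PosSemidef) : 0 ≤ rt A :=
  (Complex.nonneg_iff.1 hA.trace_nonneg).1

lemma mt_nonneg {τ : ℝ} (hτ : 0 < τ) : 0 ≤ mt τ := by
  unfold mt
  positivity

lemma gam_zero (κ : Mat n) (τ : ℝ) : gam κ 0 τ = 0 := by
  unfold gam Pt Qt
  rw [rt_zero, sub_zero, add_zero]
  ring

lemma mem_Dm {κ Q : Mat n} (h : (κ, Q) ∈ Dm n) {u : ℝ} (h0 : 0 ≤ u) (h1 : u ≤ 1) :
    (κ, u • Q) ∈ Dm n := by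
  obtain ⟨hQ, hP⟩ := h
  refine ⟨hQ.smul h0, ?_⟩
  show (κ + κ - u • Q).PosDef
  have e : κ + κ - u • Q = (κ + κ - Q) + (1 - u) • Q := by
    rw [sub_smul, one_smul]; abel
  rw [e]
  exact hP.add_posSemidef (hQ.smul (sub_nonneg.2 h1))

lemma lower_smul {κ Q : Mat n} {δ : ℝ} (h : (κ, Q) ∈ Dm n)
    (hδ : (κ + κ - Q - δ • (1 : Mat n)).PosSemidef) {u : ℝ} (h1 : u ≤ 1) :
    (κ + κ - u • Q - δ • (1 : Mat n)).PosSemidef := by
  have e : κ + κ - u • Q - δ • (1 : Mat n) = (κ + κ - Q - δ • (1 : Mat n)) + (1 - u) • Q := by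
    rw [sub_smul, one_smul]; abel
  rw [e]
  exact hδ.add (h.1.smul (sub_nonneg.2 h1))

/-- derivative along the segment `u • Q` -/
lemma hasDerivAt_seg (hg : S_GDER) (hp : S_POS) {κ Q : Mat n} {τ : ℝ} (h : (κ, Q) ∈ Dm n)
    (hτ : 0 < τ) {u : ℝ} (h0 : 0 ≤ u) (h1 : u ≤ 1) :
    HasDerivAt (fun u : ℝ => gam κ (u • Q) τ) (rt (Q * ell κ (u • Q) τ)) u := by
  have hm := mem_Dm h h0 h1
  obtain ⟨-, -, -, hP, hQ, -⟩ := hp n κ (u • Q) τ hm hτ
  have hd := hg n κ (u • Q) Q τ hτ h.1.1 hP hQ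
  have hd' : HasDerivAt (fun t : ℝ => gam κ (u • Q + t • Q) τ) (rt (Q * ell κ (u • Q) τ))
      (u - u) := by rwa [sub_self]
  have h2 := hd'.comp_sub_const u u
  refine h2.congr_of_eventuallyEq (Eventually.of_forall fun v => ?_)
  show gam κ (v • Q) τ = gam κ (u • Q + (v - u) • Q) τ
  rw [← add_smul, add_sub_cancel]

/-- mean value -/
lemma exists_mean (hg : S_GDER) (hp : S_POS) {κ Q : Mat n} {τ : ℝ} (h : (κ, Q) ∈ Dm n)
    (hτ : 0 < τ) :
    ∃ u : ℝ, 0 ≤ u ∧ u ≤ 1 ∧ gam κ Q τ = rt (Q * ell κ (u • Q) τ) := by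
  obtain ⟨u, hu, he⟩ := exists_hasDerivAt_eq_slope (fun u : ℝ => gam κ (u • Q) τ)
    (fun u => rt (Q * ell κ (u • Q) τ)) zero_lt_one
    (fun u hu => (hasDerivAt_seg hg hp h hτ hu.1 hu.2).continuousAt.continuousWithinAt)
    (fun u hu => hasDerivAt_seg hg hp h hτ hu.1.le hu.2.le)
  refine ⟨u, hu.1.le, hu.2.le, ?_⟩
  rw [he, one_smul, zero_smul, gam_zero]
  ring

/-- the trace of `Q` is at most `2 R n` -/
lemma rt_Q_le {κ Q : Mat n} {R : ℝ} (h : (κ, Q) ∈ Dm n)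
    (hR : (R • (1 : Mat n) - κ).PosSemidef) : rt Q ≤ 2 * R * n := by
  have h1 := rt_nonneg h.2.posSemidef
  have h2 := rt_nonneg hR
  have e1 : rt ((κ, Q).1 + (κ, Q).1 - (κ, Q).2) = rt κ + rt κ - rt Q := by
    show rt (κ + κ - Q) = _
    rw [rt_sub, rt_add]
  rw [e1] at h1
  rw [rt_sub, rt_smul, rt_one] at h2
  linarith

end GAMB

open GDER GAMB in
theorem gamb (hg : S_GDER) (hb : S_ELLB) (hu : S_ELLUP) (hp : S_POS) : S_GAMB := by
  intro n δ R hδ hR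
  obtain ⟨C, hC, hCb⟩ := hb n δ R hδ hR
  refine ⟨2 * R * n * C + 1, by positivity, ?_⟩
  intro κ Q τ hm hκ hPδ hτ
  obtain ⟨u, hu0, hu1, he⟩ := exists_mean hg hp hm hτ
  have hmu := mem_Dm hm hu0 hu1
  have hQ : Q.PosSemidef := hm.1
  obtain ⟨hb1, hb2⟩ := hCb κ (u • Q) τ hmu hκ (lower_smul hm hPδ hu1) hτ
  have hmt := mt_nonneg hτ
  have hQ0 := rt_nonneg hQ
  have hQ1 := rt_Q_le hm hκ
  have k1 := rt_mul_nonneg hQ hb1
  have k2 := rt_mul_nonneg hQ hb2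
  rw [mul_sub, mul_smul_comm, mul_one, rt_sub, rt_smul] at k1
  rw [mul_add, mul_smul_comm, mul_one, rt_add, rt_smul] at k2
  have k3 : C * mt τ * rt Q ≤ (2 * R * n * C + 1) * mt τ := by
    have : C * mt τ * rt Q ≤ C * mt τ * (2 * R * n) :=
      mul_le_mul_of_nonneg_left hQ1 (by positivity)
    nlinarith
  constructor
  · rw [he, abs_le]
    constructor <;> linarith
  · rw [he]
    have k4 := rt_mul_nonneg hQ (hu n κ (u • Q) τ hmu hτ)
    rw [mul_sub, rt_sub] at k4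
    linarith

end Vale.P371G
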