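import Mathlib
import Vale.Agent.P371G.Defs
import Vale.Agent.P371.GDelta

/-!
# P371G: module HJM, the matrix Hamilton-Jacobi inequality
-/

namespace Vale.P371G

open MeasureTheory Set Filter Matrix
open scoped Topology ComplexOrder ComplexConjugate

namespace HJM

variable {n : ℕ}

theorem entry_le_trace {Y : Mat n} (hY : Y.PosSemidef) (i j : Fin n) : ‖Y i j‖ ≤ rt Y := by
  have h1 : cfc (fun x : ℝ => x) Y = Y := cfc_id' ℝ Y (ha := hY.1)
  have h2 := P371.norm_cfc_apply_le hY.1 (fun x : ℝ => x) i j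
  rw [h1] at h2
  have h3 := P371.trace_cfc hY.1 (fun x : ℝ => x)
  rw [h1] at h3
  unfold rt
  rw [h3, Complex.ofReal_re]
  refine h2.trans (le_of_eq ?_)
  exact Finset.sum_congr rfl fun k _ => abs_of_nonneg (hY.eigenvalues_nonneg k)

theorem rt_add (A B : Mat n) : rt (A + B) = rt A + rt B := by
  unfold rt; rw [Matrix.trace_add, Complex.add_re]

theorem rt_sub (A B : Mat n) : rt (A - B) = rt A - rt B := by
  unfold rt; rw [Matrix.trace_sub, Complex.sub_re]

theorem rt_smul (c : ℝ) (A : Mat n) : rt (c • A) = c * rt A := by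
  unfold rt; rw [Matrix.trace_smul, Complex.real_smul, Complex.re_ofReal_mul]

theorem rt_one : rt (1 : Mat n) = n := by
  unfold rt; rw [Matrix.trace_one]; simp

theorem rt_mul_eq (A B : Mat n) : rt (A * B) = ∑ i, ∑ j, (A i j * B j i).re := by
  unfold rt
  rw [Matrix.trace, Complex.re_sum]
  refine Finset.sum_congr rfl fun i _ => ?_
  rw [Matrix.diag_apply, Matrix.mul_apply, Complex.re_sum]

theorem rt_comm (A B : Mat n) : rt (A * B) = rt (B * A) := by
  unfold rt; rw [Matrix.trace_mul_comm]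

theorem abs_rt_mul_le {X M : Mat n} {c : ℝ} (h : ∀ i j, ‖X i j‖ ≤ c) :
    |rt (X * M)| ≤ c * ∑ i, ∑ j, ‖M j i‖ := by
  rw [rt_mul_eq]
  calc |∑ i, ∑ j, (X i j * M j i).re| ≤ ∑ i, ∑ j, c * ‖M j i‖ := by
        refine (Finset.abs_sum_le_sum_abs _ _).trans (Finset.sum_le_sum fun i _ => ?_)
        refine (Finset.abs_sum_le_sum_abs _ _).trans (Finset.sum_le_sum fun j _ => ?_)
        refine (Complex.abs_re_le_norm _).trans ?_
        rw [norm_mul]
        exact mul_le_mul_of_nonneg_right (h i j) (norm_nonneg _)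
    _ = _ := by simp only [Finset.mul_sum]

theorem mt_nonneg {τ : ℝ} (hτ : 0 < τ) : 0 ≤ mt τ := by
  unfold mt
  exact le_min (by positivity) (by positivity)

/-- entry bound of `ell` -/
theorem ell_bound (hELLB : S_ELLB) {κ Q : Mat n} (hΩ : (κ, Q) ∈ Dm n) (hκ : κ.IsHermitian) :
    ∃ C : ℝ, 0 < C ∧ ∀ τ : ℝ, 0 < τ → ∀ i j, ‖ell κ Q τ i j‖ ≤ C * mt τ := by
  obtain ⟨δ, hδ, hP⟩ := P371.exists_sub_posSemidef hΩ.2
  have hR : ∃ R : ℝ, 0 < R ∧ (R • (1 : Mat n) - κ).PosSemidef := by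
    have h1 : cfc (fun x : ℝ => x) κ = κ := cfc_id' ℝ κ (ha := hκ)
    refine ⟨∑ i, |hκ.eigenvalues i| + 1, by positivity, ?_⟩
    set R := ∑ i, |hκ.eigenvalues i| + 1
    have h2 : (R • (1 : Mat n) - κ) = (hκ.eigenvectorUnitary : Matrix (Fin n) (Fin n) ℂ) *
        Matrix.diagonal (fun i => ((R - hκ.eigenvalues i : ℝ) : ℂ)) *
        (hκ.eigenvectorUnitary : Matrix (Fin n) (Fin n) ℂ)ᴴ := by
      have h3 := P371.cfc_eq_conj hκ (fun x : ℝ => R - x)
      have h4 : cfc (fun x : ℝ => R - x) κ = R • (1 : Mat n) - κ := by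
        have h5 : cfc (fun x : ℝ => R - x) κ = cfc (fun _ : ℝ => R) κ - cfc (fun x : ℝ => x) κ :=
          cfc_sub (fun _ : ℝ => R) (fun x : ℝ => x) κ (P371.contOn_matrix _ _)
            (P371.contOn_matrix _ _)
        have h6 : cfc (fun _ : ℝ => R) κ = algebraMap ℝ (Mat n) R := cfc_const R κ (ha := hκ)
        rw [h5, h6, h1, Algebra.algebraMap_eq_smul_one]
      rw [← h4, h3]
    rw [h2]
    refine Matrix.PosSemidef.mul_mul_conjTranspose_same ?_ _
    rw [Matrix.posSemidef_diagonal_iff]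
    intro i
    have h6 : hκ.eigenvalues i ≤ R := by
      have h7 : |hκ.eigenvalues i| ≤ ∑ i, |hκ.eigenvalues i| :=
        Finset.single_le_sum (f := fun i => |hκ.eigenvalues i|) (fun i _ => abs_nonneg _)
          (Finset.mem_univ i)
      have h8 := le_abs_self (hκ.eigenvalues i)
      linarith
    exact_mod_cast sub_nonneg.2 h6
  obtain ⟨R, hR0, hR⟩ := hR
  obtain ⟨C, hC, h⟩ := hELLB n δ R hδ hR0
  have hDm : (κ, Q) ∈ Dm n := hΩ
  have hP' : (κ + κ - Q - δ • (1 : Mat n)).PosSemidef := by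
    have e : (δ • (1 : Mat n)) = ((δ : ℂ) • (1 : Mat n)) := by
      ext i j; simp [Matrix.smul_apply]
    rw [e]; exact hP
  refine ⟨C * (1 + 2 * n), by positivity, fun τ hτ i j => ?_⟩
  obtain ⟨h1, h2⟩ := h κ Q τ hDm hR hP' hτ
  have hm := mt_nonneg hτ
  have e0 := entry_le_trace h1 i j
  have e2 : rt ((C * mt τ) • (1 : Mat n) - ell κ Q τ) ≤ 2 * (C * mt τ * n) := by
    have h3 : 0 ≤ rt ((C * mt τ) • (1 : Mat n) + ell κ Q τ) := by
      have := h2.trace_nonneg
      exact (Complex.nonneg_iff.1 this).1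
    rw [rt_sub, rt_smul, rt_one]
    rw [rt_add, rt_smul, rt_one] at h3
    linarith
  have e3 : ell κ Q τ i j = (C * mt τ : ℝ) * (1 : Mat n) i j -
      ((C * mt τ) • (1 : Mat n) - ell κ Q τ) i j := by
    rw [Matrix.sub_apply, Matrix.smul_apply, Complex.real_smul]; ring
  rw [e3]
  have e4 : ‖((C * mt τ : ℝ) : ℂ) * (1 : Mat n) i j‖ ≤ C * mt τ := by
    rw [norm_mul, Complex.norm_real, Real.norm_of_nonneg (by positivity)]
    have : ‖(1 : Mat n) i j‖ ≤ 1 := by
      rw [Matrix.one_apply]; split_ifs <;> simp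
    calc C * mt τ * ‖(1 : Mat n) i j‖ ≤ C * mt τ * 1 := by gcongr
      _ = _ := mul_one _
  calc _ ≤ ‖((C * mt τ : ℝ) : ℂ) * (1 : Mat n) i j‖ +
        ‖((C * mt τ) • (1 : Mat n) - ell κ Q τ) i j‖ := norm_sub_le _ _
    _ ≤ C * mt τ + 2 * (C * mt τ * n) := add_le_add e4 (e0.trans e2)
    _ = _ := by ring

theorem wt_meas (s : ℝ) : Measurable (wt s) := by
  unfold wt
  exact (Measurable.pow_const measurable_id _).div_const _

theorem ell_aesm (hCONT : S_CONT) {κ Q : Mat n} (hΩ : (κ, Q) ∈ Dm n) (i j : Fin n) :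
    AEStronglyMeasurable (fun τ : ℝ => ell κ Q τ i j) (volume.restrict (Ioi 0)) := by
  have hDm : (κ, Q) ∈ Dm n := hΩ
  have h := (hCONT n).2.2.1 (κ, Q) hDm
  have h2 : ContinuousOn (fun τ : ℝ => ell κ Q τ i j) (Ioi 0) := by
    have h3 : ContinuousOn (fun τ : ℝ => (ell κ Q τ : Fin n → Fin n → ℂ)) (Ioi 0) := h
    exact (continuousOn_pi.1 (continuousOn_pi.1 h3 i) j)
  exact h2.aestronglyMeasurable measurableSet_Ioi

theorem ell_int (hSCAL : S_SCAL) (hELLB : S_ELLB) (hCONT : S_CONT) {s : ℝ} (hs0 : 0 < s)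
    (hs1 : s < 1) {κ Q : Mat n} (hΩ : (κ, Q) ∈ Dm n) (hκ : κ.IsHermitian) (i j : Fin n) :
    IntegrableOn (fun τ : ℝ => (wt s τ : ℂ) * ell κ Q τ i j) (Ioi 0) := by
  obtain ⟨C, hC, hb⟩ := ell_bound hELLB hΩ hκ
  obtain ⟨hI0, hint, -, -⟩ := hSCAL s hs0 hs1
  refine Integrable.mono' (hint.const_mul C) ?_ ?_
  · exact ((Complex.measurable_ofReal.comp (wt_meas s)).aestronglyMeasurable).mul
      (ell_aesm hCONT hΩ i j)
  · filter_upwards [ae_restrict_mem measurableSet_Ioi] with τ hτ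
    have hτ' : (0:ℝ) < τ := hτ
    have hw : 0 ≤ wt s τ := by unfold wt; positivity
    rw [norm_mul, Complex.norm_real, Real.norm_of_nonneg hw]
    calc wt s τ * ‖ell κ Q τ i j‖ ≤ wt s τ * (C * mt τ) := by gcongr; exact hb τ hτ' i j
      _ = _ := by ring

theorem rt_Bm_mul (hSCAL : S_SCAL) (hELLB : S_ELLB) (hCONT : S_CONT) {s : ℝ} (hs0 : 0 < s)
    (hs1 : s < 1) {κ Q : Mat n} (hΩ : (κ, Q) ∈ Dm n) (hκ : κ.IsHermitian) (M : Mat n) :
    IntegrableOn (fun τ => wt s τ * rt (ell κ Q τ * M)) (Ioi 0) ∧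
    rt (Bm s κ Q * M) = ∫ τ in Ioi (0:ℝ), wt s τ * rt (ell κ Q τ * M) := by
  have hi := fun i j => ell_int hSCAL hELLB hCONT hs0 hs1 hΩ hκ i j
  have hi2 : ∀ i j, IntegrableOn (fun τ : ℝ => ((wt s τ : ℂ) * ell κ Q τ i j * M j i).re) (Ioi 0) :=
    fun i j => ((hi i j).mul_const (M j i)).re
  have e : ∀ τ : ℝ, wt s τ * rt (ell κ Q τ * M) =
      ∑ i, ∑ j, ((wt s τ : ℂ) * ell κ Q τ i j * M j i).re := by
    intro τ
    rw [rt_mul_eq, Finset.mul_sum]
    refine Finset.sum_congr rfl fun i _ => ?_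
    rw [Finset.mul_sum]
    refine Finset.sum_congr rfl fun j _ => ?_
    rw [mul_assoc, Complex.re_ofReal_mul]
  simp only [e]
  refine ⟨integrable_finsetSum _ fun i _ => integrable_finsetSum _ fun j _ => hi2 i j, ?_⟩
  rw [integral_finsetSum _ fun i _ => integrable_finsetSum _ fun j _ => hi2 i j, rt_mul_eq]
  refine Finset.sum_congr rfl fun i _ => ?_
  rw [integral_finsetSum _ fun j _ => hi2 i j]
  refine Finset.sum_congr rfl fun j _ => ?_
  unfold Bm
  rw [Matrix.of_apply, ← integral_mul_const]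
  exact (integral_re ((hi i j).mul_const (M j i))).symm

theorem add_smul_eq_cfc {a : Mat n} (ha : a.IsHermitian) (τ : ℝ) :
    a + τ • (1 : Mat n) = cfc (fun x : ℝ => x + τ) a := by
  have h1 : cfc (fun x : ℝ => x) a = a := cfc_id' ℝ a (ha := ha)
  have h5 := cfc_add_const τ (fun x : ℝ => x) a (P371.contOn_matrix _ _) (ha := ha)
  have h5' : cfc (fun x : ℝ => x + τ) a = cfc (fun x : ℝ => x) a + algebraMap ℝ (Mat n) τ := h5
  rw [h5', h1, Algebra.algebraMap_eq_smul_one]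

/-- `Tr (a+τ) ln (a+τ)` -/
theorem rt_log_shift {a : Mat n} (ha : a.IsHermitian) (τ : ℝ) :
    rt ((a + τ • (1 : Mat n)) * mlog (a + τ • (1 : Mat n))) =
      ∑ i, (ha.eigenvalues i + τ) * Real.log (ha.eigenvalues i + τ) := by
  unfold mlog
  rw [add_smul_eq_cfc ha τ]
  have h1 : cfc Real.log (cfc (fun x : ℝ => x + τ) a) = cfc (fun x : ℝ => Real.log (x + τ)) a := by
    refine (cfc_comp' Real.log (fun x : ℝ => x + τ) a ?_ (P371.contOn_matrix _ _) ha).symm
    have : (fun x : ℝ => x + τ) '' spectrum ℝ a ⊆ (fun x : ℝ => x + τ) '' spectrum ℝ a := le_rfl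
    have hfin : ((fun x : ℝ => x + τ) '' spectrum ℝ a).Finite := by
      rw [ha.spectrum_real_eq_range_eigenvalues]
      exact (Set.finite_range _).image _
    exact hfin.continuousOn _
  rw [h1, ← cfc_mul _ _ a (P371.contOn_matrix _ _) (P371.contOn_matrix _ _)]
  unfold rt
  rw [P371.trace_cfc ha, Complex.ofReal_re]

end HJM

open HJM in
theorem hjm (hPOS : S_POS) (hELLB : S_ELLB) (hASYM : S_ASYM) (hSCAL : S_SCAL) (hCONT : S_CONT)
    (hGT : S_GT) (hDT : S_DT) : S_HJM := by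
  intro n s κ Q a hs0 hs1 hΩ ha
  have hDm : (κ, Q) ∈ Dm n := hΩ
  have hκ : κ.PosDef := (hPOS n κ Q 1 hDm one_pos).1
  obtain ⟨C, hC, hCb⟩ := ell_bound hELLB hΩ hκ.1
  obtain ⟨hI0, -, -, hsc⟩ := hSCAL s hs0 hs1
  obtain ⟨C2, hC2⟩ := hASYM n κ Q hΩ
  set A := Am κ Q with hA
  set α : ℝ → ℝ := fun τ => rt (ell κ Q τ * A) with hα
  set β : ℝ → ℝ := fun τ => rt (ell κ Q τ) with hβ
  set θ : ℝ → ℝ := fun τ => rt (ell κ Q τ * a) with hθ
  set x : Fin n → ℝ := ha.1.eigenvalues with hx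
  have hx0 : ∀ i, 0 ≤ x i := ha.eigenvalues_nonneg
  set h : ℝ → ℝ := fun τ => ∑ i, ((x i + τ) * Real.log (1 + x i / τ) - x i) with hh
  set N : ℝ := (n : ℝ) with hN
  -- the integrable majorant
  set g : ℝ → ℝ := fun τ => I0 s * (s * (wt s τ * α τ) - (1 + s) * (wt s τ * θ τ) +
    (1 + s) * (wt s τ * h τ)) with hg
  obtain ⟨iα, eα⟩ := rt_Bm_mul hSCAL hELLB hCONT hs0 hs1 hΩ hκ.1 A
  obtain ⟨iθ, eθ⟩ := rt_Bm_mul hSCAL hELLB hCONT hs0 hs1 hΩ hκ.1 a
  have ih : IntegrableOn (fun τ => wt s τ * h τ) (Ioi 0) ∧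
      ∫ τ in Ioi (0:ℝ), wt s τ * h τ = ∑ i, x i ^ (1 + s) / (1 + s) := by
    have e : (fun τ => wt s τ * h τ) = fun τ => ∑ i, wt s τ *
        ((x i + τ) * Real.log (1 + x i / τ) - x i) := by
      funext τ; rw [hh, Finset.mul_sum]
    rw [e]
    refine ⟨integrable_finsetSum _ fun i _ => (hsc (x i) (hx0 i)).1, ?_⟩
    rw [integral_finsetSum _ fun i _ => (hsc (x i) (hx0 i)).1]
    exact Finset.sum_congr rfl fun i _ => (hsc (x i) (hx0 i)).2
  have ig : IntegrableOn g (Ioi 0) :=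
    (((iα.const_mul s).sub (iθ.const_mul (1 + s))).add (ih.1.const_mul (1 + s))).const_mul (I0 s)
  have eg : ∫ τ in Ioi (0:ℝ), g τ = I0 s * (s * rt (Bm s κ Q * A) - (1 + s) * rt (Bm s κ Q * a) +
      ∑ i, x i ^ (1 + s)) := by
    rw [eα, eθ]
    have i0 : IntegrableOn (fun τ => s * (wt s τ * α τ)) (Ioi 0) := iα.const_mul s
    have i1 : IntegrableOn (fun τ => (1 + s) * (wt s τ * θ τ)) (Ioi 0) := iθ.const_mul (1 + s)
    have i2 : IntegrableOn (fun τ => s * (wt s τ * α τ) - (1 + s) * (wt s τ * θ τ)) (Ioi 0) :=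
      i0.sub i1
    have i3 : IntegrableOn (fun τ => (1 + s) * (wt s τ * h τ)) (Ioi 0) := ih.1.const_mul (1 + s)
    have e1 : ∫ τ in Ioi (0:ℝ), g τ = I0 s * ∫ τ in Ioi (0:ℝ), (s * (wt s τ * α τ) -
        (1 + s) * (wt s τ * θ τ) + (1 + s) * (wt s τ * h τ)) := integral_const_mul _ _
    have e2 : ∫ τ in Ioi (0:ℝ), (s * (wt s τ * α τ) -
        (1 + s) * (wt s τ * θ τ) + (1 + s) * (wt s τ * h τ)) =
        (∫ τ in Ioi (0:ℝ), (s * (wt s τ * α τ) - (1 + s) * (wt s τ * θ τ))) +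
        ∫ τ in Ioi (0:ℝ), (1 + s) * (wt s τ * h τ) := integral_add i2 i3
    have e3 : ∫ τ in Ioi (0:ℝ), (s * (wt s τ * α τ) - (1 + s) * (wt s τ * θ τ)) =
        (∫ τ in Ioi (0:ℝ), s * (wt s τ * α τ)) - ∫ τ in Ioi (0:ℝ), (1 + s) * (wt s τ * θ τ) :=
      integral_sub i0 i1
    rw [e1, e2, e3, integral_const_mul, integral_const_mul, integral_const_mul, ih.2,
      Finset.mul_sum]
    have e4 : ∀ i ∈ Finset.univ, (1 + s) * (x i ^ (1 + s) / (1 + s)) = x i ^ (1 + s) :=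
      fun i _ => by field_simp
    rw [Finset.sum_congr rfl e4]
  -- pointwise facts
  set D : ℝ → ℝ := fun τ => rt ((A + τ • (1 : Mat n)) * (mlog (Pt κ Q τ) + mlog (Qt κ Q τ)))
    with hD
  set G : ℝ → ℝ := fun τ => τ ^ s * (D τ - Real.log τ * (rt A + τ * N) - rt A) with hG
  have hDval : ∀ τ : ℝ, 0 < τ → D τ - Real.log τ * (rt A + τ * N) = α τ + τ * β τ := by
    intro τ hτ
    have e1 : mlog (Pt κ Q τ) + mlog (Qt κ Q τ) = ell κ Q τ + (Real.log τ) • (1 : Mat n) := by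
      unfold ell; abel
    simp only [hD, hα, hβ]
    rw [e1, Matrix.mul_add, rt_add, Matrix.add_mul, rt_add, Matrix.smul_mul, Matrix.one_mul,
      rt_smul, Matrix.mul_smul, Matrix.mul_one, rt_smul, rt_add, rt_smul, rt_one, rt_comm A]
    ring
  have hβval : ∀ τ : ℝ, rt (mlog (Pt κ Q τ) + mlog (Qt κ Q τ)) = β τ + Real.log τ * N := by
    intro τ
    have e1 : mlog (Pt κ Q τ) + mlog (Qt κ Q τ) = ell κ Q τ + (Real.log τ) • (1 : Mat n) := by
      unfold ell; abel
    rw [e1, rt_add, rt_smul, rt_one]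
  have hstar : ∀ τ : ℝ, 0 < τ → 0 ≤ h τ - θ τ - τ * β τ + rt A := by
    intro τ hτ
    obtain ⟨-, hktd, -, hPd, hQd, hkk, -, -⟩ := hPOS n κ Q τ hDm hτ
    have hE : (a + τ • (1 : Mat n)).PosDef := by
      refine Matrix.PosDef.posSemidef_add ha ?_
      exact Matrix.PosDef.one.smul hτ
    have h1 := hGT n (Pt κ Q τ) (Qt κ Q τ) (a + τ • (1 : Mat n)) hPd hQd hE
    have e1 : mlog (a + τ • (1 : Mat n)) - mlog (Pt κ Q τ) - mlog (Qt κ Q τ) =
        mlog (a + τ • (1 : Mat n)) - (ell κ Q τ + (Real.log τ) • (1 : Mat n)) := by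
      unfold ell; abel
    have e2 : rt (Pt κ Q τ * Qt κ Q τ) = rt A + τ * N := by
      have e3 : Pt κ Q τ * Qt κ Q τ = (kt κ τ * kt κ τ - (κ - Q) * (κ - Q)) +
          ((κ - Q) * kt κ τ - kt κ τ * (κ - Q)) := by
        unfold Pt Qt; noncomm_ring
      rw [e3, rt_add, rt_sub ((κ - Q) * kt κ τ), rt_comm (κ - Q) (kt κ τ), sub_self, add_zero, hkk]
      have e4 : κ * κ + τ • (1 : Mat n) - (κ - Q) * (κ - Q) = A + τ • (1 : Mat n) := by
        rw [hA]; unfold Am; abel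
      rw [e4, rt_add, rt_smul, rt_one]
    rw [e1, e2, Matrix.mul_sub, rt_sub, rt_log_shift ha.1, Matrix.mul_add, rt_add,
      Matrix.mul_smul, Matrix.mul_one, rt_smul, Matrix.add_mul, rt_add, Matrix.smul_mul,
      Matrix.one_mul, rt_smul, rt_add, rt_smul, rt_one, rt_comm a] at h1
    have e5 : rt a = ∑ i, x i := by
      have h1 : cfc (fun x : ℝ => x) a = a := cfc_id' ℝ a (ha := ha.1)
      have h3 := P371.trace_cfc ha.1 (fun x : ℝ => x)
      rw [h1] at h3
      unfold rt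
      rw [h3, Complex.ofReal_re]
    have e6 : h τ = ∑ i, (x i + τ) * Real.log (x i + τ) - Real.log τ * (∑ i, x i + τ * N)
        - ∑ i, x i := by
      have e7 : τ * N = ∑ _i : Fin n, τ := by simp [hN, mul_comm]
      rw [e7, ← Finset.sum_add_distrib, Finset.mul_sum, ← Finset.sum_sub_distrib,
        ← Finset.sum_sub_distrib]
      refine Finset.sum_congr rfl fun i _ => ?_
      have h8 : 1 + x i / τ = (x i + τ) / τ := by field_simp; ring
      have h9 : 0 < x i + τ := by linarith [hx0 i]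
      rw [h8, Real.log_div h9.ne' hτ.ne']
      ring
    rw [e6]
    rw [e5] at h1
    simp only [hθ, hβ]
    linarith
  -- the derivative of G
  have hGd : ∀ τ : ℝ, 0 < τ → ∃ d' : ℝ, HasDerivAt G d' τ ∧ d' ≤ g τ := by
    intro τ hτ
    obtain ⟨d, hd, hdle⟩ := hDT n κ Q τ hΩ hτ
    rw [hβval] at hdle
    have h1 : HasDerivAt (fun τ : ℝ => Real.log τ * (rt A + τ * N))
        (τ⁻¹ * (rt A + τ * N) + Real.log τ * N) τ := by
      have h2 : HasDerivAt (fun τ : ℝ => rt A + τ * N) N τ := by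
        simpa using ((hasDerivAt_id τ).mul_const N).const_add (rt A)
      exact (Real.hasDerivAt_log hτ.ne').mul h2
    have h3 : HasDerivAt (fun τ : ℝ => τ ^ s) (s * τ ^ (s - 1)) τ :=
      Real.hasDerivAt_rpow_const (Or.inl hτ.ne')
    have h4 : HasDerivAt G _ τ := h3.mul ((hd.sub h1).sub_const (rt A))
    refine ⟨_, h4, ?_⟩
    have h5 := hDval τ hτ
    have h6 := hstar τ hτ
    have hp : 0 < τ ^ (s - 1) := Real.rpow_pos_of_pos hτ _
    have hps : τ ^ s = τ ^ (s - 1) * τ := by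
      rw [← Real.rpow_add_one hτ.ne']; congr 1; ring
    have hgv : g τ = τ ^ (s - 1) * (s * α τ - (1 + s) * θ τ + (1 + s) * h τ) := by
      simp only [hg]
      have : I0 s * wt s τ = τ ^ (s - 1) := by unfold wt; field_simp
      calc _ = (I0 s * wt s τ) * (s * α τ - (1 + s) * θ τ + (1 + s) * h τ) := by ring
        _ = _ := by rw [this]
    rw [hgv, hps]
    have h7 : D τ - Real.log τ * (rt A + τ * N) - rt A = α τ + τ * β τ - rt A := by rw [h5]
    have h8 : s * τ ^ (s - 1) * (D τ - Real.log τ * (rt A + τ * N) - rt A) +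
        τ ^ (s - 1) * τ * (d - (τ⁻¹ * (rt A + τ * N) + Real.log τ * N)) =
        τ ^ (s - 1) * (s * (α τ + τ * β τ - rt A) + (τ * (d - Real.log τ * N - N) - rt A)) := by
      rw [h7]
      field_simp
      ring
    refine le_trans (le_of_eq h8) ?_
    refine mul_le_mul_of_nonneg_left ?_ hp.le
    have h9 : τ * (d - Real.log τ * N - N) ≤ τ * β τ :=
      mul_le_mul_of_nonneg_left (by linarith) hτ.le
    nlinarith
  have hFTC : ∀ ρ R : ℝ, 0 < ρ → ρ ≤ R → G R - G ρ ≤ ∫ τ in ρ..R, g τ := by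
    intro ρ R hρ hρR
    have hcont : ContinuousOn G (Icc ρ R) := by
      intro τ hτ
      obtain ⟨d', h1, -⟩ := hGd τ (hρ.trans_le hτ.1)
      exact h1.continuousAt.continuousWithinAt
    refine intervalIntegral.sub_le_integral_of_hasDeriv_right_of_le (g' := deriv G) hρR hcont ?_
      (ig.mono_set fun τ hτ => hρ.trans_le hτ.1) ?_
    · intro τ hτ
      obtain ⟨d', h1, -⟩ := hGd τ (hρ.trans hτ.1)
      rw [h1.deriv]
      exact h1.hasDerivWithinAt
    · intro τ hτ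
      obtain ⟨d', h1, h2⟩ := hGd τ (hρ.trans hτ.1)
      rw [h1.deriv]
      exact h2
  -- bounds for α, β
  set SA : ℝ := ∑ i, ∑ j, ‖A j i‖ with hSA
  set S1 : ℝ := ∑ i, ∑ j, ‖(1 : Mat n) j i‖ with hS1
  have hSA0 : 0 ≤ SA := by positivity
  have hS10 : 0 ≤ S1 := by positivity
  have hαb : ∀ τ : ℝ, 0 < τ → |α τ| ≤ C * mt τ * SA := fun τ hτ => abs_rt_mul_le (hCb τ hτ)
  have hβb : ∀ τ : ℝ, 0 < τ → |β τ| ≤ C * mt τ * S1 := by
    intro τ hτ
    have := abs_rt_mul_le (M := (1 : Mat n)) (hCb τ hτ)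
    rwa [Matrix.mul_one] at this
  have hGval : ∀ τ : ℝ, 0 < τ → G τ = τ ^ s * (α τ + τ * β τ - rt A) := by
    intro τ hτ
    simp only [hG]
    rw [hDval τ hτ]
  -- limit at 0
  set ρ : ℕ → ℝ := fun k => 1 / ((k : ℝ) + 1) with hρ
  have hρpos : ∀ k, 0 < ρ k := fun k => by positivity
  have hρ1 : ∀ k, ρ k ≤ 1 := fun k => by
    rw [hρ]; simp only; rw [div_le_one (by positivity)]
    have : (0:ℝ) ≤ k := Nat.cast_nonneg k
    linarith
  have hρ0 : Tendsto ρ atTop (𝓝 0) := tendsto_one_div_add_atTop_nhds_zero_nat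
  have hρ0' : Tendsto ρ atTop (𝓝[>] 0) :=
    tendsto_nhdsWithin_iff.2 ⟨hρ0, Eventually.of_forall hρpos⟩
  have hlog : Tendsto (fun k => ρ k ^ s * (1 + |Real.log (ρ k)|)) atTop (𝓝 0) := by
    have h1 : Tendsto (fun k => ρ k ^ s) atTop (𝓝 0) := by
      have := (Real.continuousAt_rpow_const 0 s (Or.inr hs0.le)).tendsto.comp hρ0
      rw [Real.zero_rpow hs0.ne'] at this
      exact this
    have h2 := (tendsto_log_mul_rpow_nhdsGT_zero hs0).comp hρ0'
    have h3 := h2.abs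
    rw [abs_zero] at h3
    have h4 := h1.add h3
    rw [add_zero] at h4
    refine h4.congr fun k => ?_
    simp only [Function.comp]
    rw [abs_mul, abs_of_pos (Real.rpow_pos_of_pos (hρpos k) s)]
    ring
  have hG0 : Tendsto (fun k => G (ρ k)) atTop (𝓝 0) := by
    have hb : ∀ k, |G (ρ k)| ≤ (C * SA + C * S1 + |rt A|) *
        (ρ k ^ s * (1 + |Real.log (ρ k)|)) := by
      intro k
      have hp := hρpos k
      have hps : 0 < ρ k ^ s := Real.rpow_pos_of_pos hp s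
      rw [hGval _ hp, abs_mul, abs_of_pos hps]
      have hm : mt (ρ k) ≤ 1 + |Real.log (ρ k)| := min_le_left _ _
      have hm0 := mt_nonneg hp
      have h1 := hαb _ hp
      have h2 := hβb _ hp
      have h3 : |α (ρ k) + ρ k * β (ρ k) - rt A| ≤ |α (ρ k)| + |β (ρ k)| + |rt A| := by
        calc |α (ρ k) + ρ k * β (ρ k) - rt A| ≤ |α (ρ k) + ρ k * β (ρ k)| + |rt A| := abs_sub _ _
          _ ≤ |α (ρ k)| + |ρ k * β (ρ k)| + |rt A| := by gcongr; exact abs_add_le _ _
          _ ≤ _ := by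
              rw [abs_mul, abs_of_pos hp]
              have : ρ k * |β (ρ k)| ≤ 1 * |β (ρ k)| := by gcongr; exact hρ1 k
              linarith
      have h4 : |α (ρ k)| + |β (ρ k)| + |rt A| ≤
          (C * SA + C * S1 + |rt A|) * (1 + |Real.log (ρ k)|) := by
        have h5 : C * mt (ρ k) * SA ≤ C * SA * (1 + |Real.log (ρ k)|) := by
          calc C * mt (ρ k) * SA = C * SA * mt (ρ k) := by ring
            _ ≤ _ := by gcongr
        have h6 : C * mt (ρ k) * S1 ≤ C * S1 * (1 + |Real.log (ρ k)|) := by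
          calc C * mt (ρ k) * S1 = C * S1 * mt (ρ k) := by ring
            _ ≤ _ := by gcongr
        have h7 : |rt A| ≤ |rt A| * (1 + |Real.log (ρ k)|) := by
          have := mul_nonneg (abs_nonneg (rt A)) (abs_nonneg (Real.log (ρ k)))
          linarith
        linarith
      calc ρ k ^ s * |α (ρ k) + ρ k * β (ρ k) - rt A|
          ≤ ρ k ^ s * ((C * SA + C * S1 + |rt A|) * (1 + |Real.log (ρ k)|)) := by
            gcongr; exact h3.trans h4
        _ = _ := by ring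
    have h1 : Tendsto (fun k => (C * SA + C * S1 + |rt A|) *
        (ρ k ^ s * (1 + |Real.log (ρ k)|))) atTop (𝓝 0) := by
      simpa using hlog.const_mul (C * SA + C * S1 + |rt A|)
    exact squeeze_zero_norm (fun k => by rw [Real.norm_eq_abs]; exact hb k) h1
  -- lower bound at infinity
  set R : ℕ → ℝ := fun k => (k : ℝ) + 1 with hR
  have hRpos : ∀ k, 0 < R k := fun k => by positivity
  have hRtop : Tendsto R atTop atTop := tendsto_atTop_add_const_right _ _ tendsto_natCast_atTop_atTop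
  have hGinf : ∀ᶠ k in atTop, -(C * SA + C2) * R k ^ (s - 1) ≤ G (R k) := by
    filter_upwards [hRtop.eventually (eventually_ge_atTop C2)] with k hk
    have hp := hRpos k
    rw [hGval _ hp]
    have h1 := hC2 (R k) hk
    have h2 := hαb _ hp
    have h3 : mt (R k) ≤ 1 / R k := min_le_right _ _
    have h4 : -(C * SA) / R k ≤ α (R k) := by
      have h5 := neg_abs_le (α (R k))
      have h6 : C * mt (R k) * SA ≤ C * SA / R k := by
        calc C * mt (R k) * SA = C * SA * mt (R k) := by ring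
          _ ≤ C * SA * (1 / R k) := by gcongr
          _ = _ := by ring
      have h7 : -(C * SA) / R k = -(C * SA / R k) := by ring
      rw [h7]
      linarith
    have h8 : -C2 / R k ≤ R k * β (R k) - rt A := by
      have h9 := mul_le_mul_of_nonneg_left h1 hp.le
      have h10 : R k * (rt (Am κ Q) / R k - C2 / R k ^ 2) = rt A - C2 / R k := by
        rw [← hA]; field_simp
      rw [h10] at h9
      have h11 : -C2 / R k = -(C2 / R k) := by ring
      rw [h11]
      simp only [hβ]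
      linarith
    have h12 : R k ^ s = R k ^ (s - 1) * R k := by
      rw [← Real.rpow_add_one hp.ne']; congr 1; ring
    have hp1 : 0 < R k ^ (s - 1) := Real.rpow_pos_of_pos hp _
    calc -(C * SA + C2) * R k ^ (s - 1)
        = R k ^ s * (-(C * SA) / R k + -C2 / R k) := by
          rw [h12]; field_simp; ring
      _ ≤ _ := by
          have := Real.rpow_pos_of_pos hp s
          gcongr
          linarith
  have hRlim : Tendsto (fun k => -(C * SA + C2) * R k ^ (s - 1)) atTop (𝓝 0) := by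
    have h1 : Tendsto (fun k => R k ^ (s - 1)) atTop (𝓝 0) := by
      have h2 := (tendsto_rpow_neg_atTop (y := 1 - s) (by linarith)).comp hRtop
      refine h2.congr fun k => ?_
      simp only [Function.comp, neg_sub]
    simpa using h1.const_mul (-(C * SA + C2))
  -- limit of the integrals
  have hcov : AECover (volume.restrict (Ioi (0:ℝ))) atTop fun k => Ioi (ρ k) ∩ Iic (R k) :=
    (aecover_Ioi_of_Ioi hρ0).inter (aecover_Iic hRtop)
  have hint := hcov.integral_tendsto_of_countably_generated ig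
  have hint2 : ∀ k, ∫ τ in Ioi (ρ k) ∩ Iic (R k), g τ ∂(volume.restrict (Ioi (0:ℝ))) =
      ∫ τ in (ρ k)..(R k), g τ := by
    intro k
    have hle : ρ k ≤ R k := (hρ1 k).trans (by
      simp only [hR]; have : (0:ℝ) ≤ k := Nat.cast_nonneg k; linarith)
    rw [intervalIntegral.integral_of_le hle, Ioi_inter_Iic, Measure.restrict_restrict
      measurableSet_Ioc]
    congr 2
    ext τ
    simp only [mem_inter_iff, mem_Ioc, mem_Ioi]
    exact ⟨fun h => h.1, fun h => ⟨h, (hρpos k).trans h.1⟩⟩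
  simp only [hint2] at hint
  have hfinal : 0 ≤ ∫ τ in Ioi (0:ℝ), g τ := by
    have h1 : Tendsto (fun k => -(C * SA + C2) * R k ^ (s - 1) - G (ρ k)) atTop (𝓝 0) := by
      simpa using hRlim.sub hG0
    refine le_of_tendsto_of_tendsto h1 hint ?_
    filter_upwards [hGinf] with k hk
    have hle : ρ k ≤ R k := (hρ1 k).trans (by
      simp only [hR]; have : (0:ℝ) ≤ k := Nat.cast_nonneg k; linarith)
    have := hFTC (ρ k) (R k) (hρpos k) hle
    linarith
  rw [eg] at hfinal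
  have h1 : 0 ≤ s * rt (Bm s κ Q * A) - (1 + s) * rt (Bm s κ Q * a) + ∑ i, x i ^ (1 + s) :=
    nonneg_of_mul_nonneg_right hfinal hI0
  have h2 : rt (mpow (1 + s) a) = ∑ i, x i ^ (1 + s) := by
    unfold mpow rt
    rw [P371.trace_cfc ha.1, Complex.ofReal_re]
  rw [h2]
  have h3 : s * ((1 + 1 / s) * rt (Bm s κ Q * a) - 1 / s * ∑ i, x i ^ (1 + s)) ≤
      s * rt (Bm s κ Q * A) := by
    have e : s * ((1 + 1 / s) * rt (Bm s κ Q * a) - 1 / s * ∑ i, x i ^ (1 + s)) =
        (1 + s) * rt (Bm s κ Q * a) - ∑ i, x i ^ (1 + s) := by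
      have hs' : s ≠ 0 := hs0.ne'
      field_simp
      ring
    rw [e]
    linarith
  exact le_of_mul_le_mul_left h3 hs0

end Vale.P371G
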