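import Vale.Agent.P371G.Conc

/-!
# P371G: the midpoint in `K = κ²`
-/

namespace Vale.P371G

open MeasureTheory Set Filter Matrix
open scoped Topology ComplexOrder ComplexConjugate

namespace KMID

variable {n : ℕ}

/-- the square root is operator monotone -/
theorem sqrt_mono {X Y : Mat n} (hX : X.PosSemidef) (hY : Y.PosDef)
    (h : (Y * Y - X * X).PosSemidef) : (Y - X).PosSemidef := by
  have hH : (Y - X).IsHermitian := hY.1.sub hX.1
  rw [hH.posSemidef_iff_eigenvalues_nonneg]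
  intro i
  set v : Fin n → ℂ := ⇑(hH.eigenvectorBasis i) with hv
  set l : ℝ := hH.eigenvalues i with hl
  have he : (Y - X) *ᵥ v = l • v := hH.mulVec_eigenvectorBasis i
  have hv0 : v ≠ 0 := by
    intro h0
    have := hH.eigenvectorBasis.orthonormal.ne_zero i
    apply this
    ext j
    exact congrFun h0 j
  have h1 : 0 ≤ star v ⬝ᵥ ((Y * Y - X * X) *ᵥ v) := h.dotProduct_mulVec_nonneg v
  have h2 : Y * Y - X * X = Y * (Y - X) + (Y - X) * X := by noncomm_ring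
  have h3 : star v ⬝ᵥ ((Y - X) *ᵥ (X *ᵥ v)) = l • (star v ⬝ᵥ (X *ᵥ v)) := by
    have h4 : star v ᵥ* (Y - X) = l • star v := by
      have h5 := Matrix.star_mulVec (Y - X) v
      rw [he, hH.eq] at h5
      rw [← h5, star_smul]
      simp
    rw [Matrix.dotProduct_mulVec, h4, smul_dotProduct]
  have h6 : star v ⬝ᵥ ((Y * Y - X * X) *ᵥ v) =
      l • (star v ⬝ᵥ (Y *ᵥ v) + star v ⬝ᵥ (X *ᵥ v)) := by
    rw [h2, Matrix.add_mulVec, ← Matrix.mulVec_mulVec, ← Matrix.mulVec_mulVec, he,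
      dotProduct_add, h3, Matrix.mulVec_smul, dotProduct_smul, smul_add]
  have h7 : 0 < star v ⬝ᵥ (Y *ᵥ v) := hY.dotProduct_mulVec_pos hv0
  have h8 : 0 ≤ star v ⬝ᵥ (X *ᵥ v) := hX.dotProduct_mulVec_nonneg v
  rw [h6] at h1
  have h9 : 0 < (star v ⬝ᵥ (Y *ᵥ v) + star v ⬝ᵥ (X *ᵥ v)).re := by
    rw [Complex.add_re]
    have a := (Complex.pos_iff.1 h7).1
    have b := (Complex.nonneg_iff.1 h8).1
    linarith
  have h10 := (Complex.nonneg_iff.1 h1).1
  rw [Complex.smul_re, smul_eq_mul] at h10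
  exact nonneg_of_mul_nonneg_left h10 h9

theorem posDef_cfc {A : Mat n} (hA : A.PosDef) {f : ℝ → ℝ} (hf : ∀ x, 0 < x → 0 < f x) :
    (cfc f A).PosDef := by
  obtain ⟨U, a, hU1, hU2, ha, hUf, hAe⟩ := DREP.spec A hA
  rw [hUf]
  have h : (diagonal (fun i => ((f (a i) : ℝ) : ℂ)) : Mat n).PosDef := by
    rw [Matrix.posDef_diagonal_iff]
    intro i
    exact_mod_cast (hf _ (ha i))
  refine h.mul_mul_conjTranspose_same ?_
  intro x y hxy
  have := congrArg (fun z => z ᵥ* (star U)) hxy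
  simpa [Matrix.vecMul_vecMul, hU2] using this

theorem cfc_mul_eq {A : Mat n} (hA : A.PosDef) {f g h : ℝ → ℝ}
    (hf : ∀ x, 0 < x → f x * g x = h x) : cfc f A * cfc g A = cfc h A := by
  obtain ⟨U, a, hU1, hU2, ha, hUf, hAe⟩ := DREP.spec A hA
  rw [hUf, hUf, hUf]
  have h7 : U * diagonal (fun i => ((f (a i) : ℝ) : ℂ)) * star U *
      (U * diagonal (fun i => ((g (a i) : ℝ) : ℂ)) * star U) =
      U * (diagonal (fun i => ((f (a i) : ℝ) : ℂ)) *
        diagonal (fun i => ((g (a i) : ℝ) : ℂ))) * star U := by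
    simp only [← Matrix.mul_assoc]
    rw [Matrix.mul_assoc (U * _) (star U) U, hU1, Matrix.mul_one]
  rw [h7, Matrix.diagonal_mul_diagonal]
  congr 3
  ext i
  rw [← Complex.ofReal_mul, hf _ (ha i)]

theorem sq_posDef {A : Mat n} (hA : A.PosDef) : (A * A).PosDef := by
  obtain ⟨U, a, hU1, hU2, ha, hUf, hAe⟩ := DREP.spec A hA
  have h1 : A = cfc (fun x : ℝ => x) A := by rw [hUf]; exact hAe
  have h2 : A * A = cfc (fun x : ℝ => x * x) A := by
    conv_lhs => rw [h1]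
    exact cfc_mul_eq hA fun x hx => rfl
  rw [h2]
  exact posDef_cfc hA fun x hx => mul_pos hx hx

theorem kt_posDef {κ : Mat n} {τ : ℝ} (hκ : κ.PosDef) (hτ : 0 < τ) : (kt κ τ).PosDef :=
  posDef_cfc hκ fun x hx => Real.sqrt_pos.2 (by positivity)

theorem kt_sq {κ : Mat n} {τ : ℝ} (hκ : κ.PosDef) (hτ : 0 < τ) :
    kt κ τ * kt κ τ = κ * κ + τ • (1 : Mat n) := by
  obtain ⟨U, a, hU1, hU2, ha, hUf, hAe⟩ := DREP.spec κ hκ
  have h1 : κ = cfc (fun x : ℝ => x) κ := by rw [hUf]; exact hAe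
  have h2 : κ * κ = cfc (fun x : ℝ => x * x) κ := by
    conv_lhs => rw [h1]
    exact cfc_mul_eq hκ fun x hx => rfl
  have h3 : kt κ τ * kt κ τ = cfc (fun x : ℝ => x * x + τ) κ := by
    refine cfc_mul_eq hκ fun x hx => ?_
    rw [Real.mul_self_sqrt (by positivity)]
    ring
  rw [h3, h2, hUf, hUf]
  have h4 : (diagonal (fun i => ((a i * a i + τ : ℝ) : ℂ)) : Mat n) =
      diagonal (fun i => ((a i * a i : ℝ) : ℂ)) + τ • (1 : Mat n) := by
    ext i j
    by_cases hij : i = j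
    · subst hij
      simp
    · simp [hij]
  rw [h4, Matrix.mul_add, Matrix.add_mul, Matrix.mul_smul, Matrix.mul_one, Matrix.smul_mul, hU2]

theorem half_sq (A B : Mat n) (hA : A.IsHermitian) (hB : B.IsHermitian) :
    ((1 / 2 : ℝ) • (A * A + B * B) -
      ((1 / 2 : ℝ) • (A + B)) * ((1 / 2 : ℝ) • (A + B))).PosSemidef := by
  have h1 : (1 / 2 : ℝ) • (A * A + B * B) - ((1 / 2 : ℝ) • (A + B)) * ((1 / 2 : ℝ) • (A + B)) =
      ((1 / 2 : ℝ) • (A - B))ᴴ * ((1 / 2 : ℝ) • (A - B)) := by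
    have h2 : ((1 / 2 : ℝ) • (A - B))ᴴ = (1 / 2 : ℝ) • (A - B) := by
      rw [Matrix.conjTranspose_smul, Matrix.conjTranspose_sub, hA.eq, hB.eq]
      simp
    rw [h2]
    simp only [Matrix.smul_mul, Matrix.mul_smul, Matrix.mul_add, Matrix.add_mul, Matrix.mul_sub,
      Matrix.sub_mul]
    module
  rw [h1]
  exact Matrix.posSemidef_conjTranspose_mul_self _

end KMID

open KMID in
theorem kmid_module : S_KMID := by
  intro n κ1 κ2 h1 h2
  have hS : ((1 / 2 : ℝ) • (κ1 * κ1 + κ2 * κ2)).PosDef :=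
    ((sq_posDef h1).add (sq_posDef h2)).smul (by norm_num)
  have hk : (kmid κ1 κ2).PosDef := posDef_cfc hS fun x hx => Real.sqrt_pos.2 hx
  have hkk : kmid κ1 κ2 * kmid κ1 κ2 = (1 / 2 : ℝ) • (κ1 * κ1 + κ2 * κ2) := by
    obtain ⟨U, a, hU1, hU2, ha, hUf, hAe⟩ := DREP.spec _ hS
    have h3 : cfc (fun x : ℝ => x) ((1 / 2 : ℝ) • (κ1 * κ1 + κ2 * κ2)) =
        (1 / 2 : ℝ) • (κ1 * κ1 + κ2 * κ2) := by rw [hUf]; exact hAe.symm
    rw [← h3]
    exact cfc_mul_eq hS fun x hx => Real.mul_self_sqrt hx.le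
  refine ⟨hk, hkk, ?_, ?_⟩
  · refine sqrt_mono ((h1.posSemidef.add h2.posSemidef).smul (by norm_num)) hk ?_
    rw [hkk]
    exact half_sq _ _ h1.1 h2.1
  · intro τ hτ
    have t1 := kt_posDef h1 hτ
    have t2 := kt_posDef h2 hτ
    refine sqrt_mono ((t1.posSemidef.add t2.posSemidef).smul (by norm_num))
      (kt_posDef hk hτ) ?_
    rw [kt_sq hk hτ, hkk]
    have h4 : (1 / 2 : ℝ) • (κ1 * κ1 + κ2 * κ2) + τ • (1 : Mat n) =
        (1 / 2 : ℝ) • (kt κ1 τ * kt κ1 τ + kt κ2 τ * kt κ2 τ) := by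
      rw [kt_sq h1 hτ, kt_sq h2 hτ]
      module
    rw [h4]
    exact half_sq _ _ t1.1 t2.1

end Vale.P371G
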