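import Vale.Agent.P371G.H17Base

/-!
# P371G, modules POS and ELLUP (helper17)
-/

namespace Vale.P371G

open Matrix Set Filter MeasureTheory
open scoped Topology ComplexOrder

namespace H17



variable {n : ℕ}

theorem cfc_isHermitian (f : ℝ → ℝ) (A : Mat n) : (cfc f A).IsHermitian :=
  cfc_predicate (R := ℝ) (p := IsSelfAdjoint) f A

/-- a function of a Hermitian matrix which is positive on the eigenvalues is positive definite -/
theorem cfc_posDef {A : Mat n} (hA : A.IsHermitian) {f : ℝ → ℝ}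
    (h : ∀ x ∈ spectrum ℝ A, 0 < f x) : (cfc f A).PosDef := by
  rw [Vale.P371.cfc_eq_conj hA]
  have hu : IsUnit ((hA.eigenvectorUnitary : Mat n)) := by
    have h2 : (hA.eigenvectorUnitary : Mat n) * (hA.eigenvectorUnitary : Mat n)ᴴ = 1 :=
      Unitary.coe_mul_star_self hA.eigenvectorUnitary
    have h1 : (hA.eigenvectorUnitary : Mat n)ᴴ * (hA.eigenvectorUnitary : Mat n) = 1 :=
      Unitary.coe_star_mul_self hA.eigenvectorUnitary
    exact ⟨⟨_, _, h2, h1⟩, rfl⟩
  have hd : (diagonal (fun i => ((f (hA.eigenvalues i) : ℝ) : ℂ))).PosDef := by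
    rw [Matrix.posDef_diagonal_iff]
    intro i
    have : 0 < f (hA.eigenvalues i) := h _ (by
      rw [hA.spectrum_real_eq_range_eigenvalues]; exact ⟨i, rfl⟩)
    exact_mod_cast this
  have := (Matrix.IsUnit.posDef_star_right_conjugate_iff hu).2 hd
  simpa [Matrix.star_eq_conjTranspose] using this

theorem cfc_posSemidef {A : Mat n} (hA : A.IsHermitian) {f : ℝ → ℝ}
    (h : ∀ x ∈ spectrum ℝ A, 0 ≤ f x) : (cfc f A).PosSemidef := by
  rw [Vale.P371.cfc_eq_conj hA]
  refine Matrix.PosSemidef.mul_mul_conjTranspose_same ?_ _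
  rw [Matrix.posSemidef_diagonal_iff]
  intro i
  have : 0 ≤ f (hA.eigenvalues i) := h _ (by
    rw [hA.spectrum_real_eq_range_eigenvalues]; exact ⟨i, rfl⟩)
  exact_mod_cast this

theorem cfcm_mul (f g : ℝ → ℝ) (A : Mat n) : cfc f A * cfc g A = cfc (fun x => f x * g x) A :=
  (cfc_mul f g A (Vale.P371.contOn_matrix _ _) (Vale.P371.contOn_matrix _ _)).symm

theorem cfcm_add (f g : ℝ → ℝ) (A : Mat n) : cfc f A + cfc g A = cfc (fun x => f x + g x) A :=
  (cfc_add A f g (Vale.P371.contOn_matrix _ _) (Vale.P371.contOn_matrix _ _)).symm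

theorem cfcm_sub (f g : ℝ → ℝ) (A : Mat n) : cfc f A - cfc g A = cfc (fun x => f x - g x) A :=
  (cfc_sub f g A (Vale.P371.contOn_matrix _ _) (Vale.P371.contOn_matrix _ _)).symm

theorem cfcm_smul (c : ℝ) (f : ℝ → ℝ) (A : Mat n) : c • cfc f A = cfc (fun x => c * f x) A := by
  have := (cfc_smul c f A (Vale.P371.contOn_matrix _ _)).symm
  simpa using this

theorem cfcm_const {A : Mat n} (hA : A.IsHermitian) (c : ℝ) :
    cfc (fun _ : ℝ => c) A = c • (1 : Mat n) := by
  rw [cfc_const (p := IsSelfAdjoint) c A hA, Algebra.algebraMap_eq_smul_one]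

theorem cfcm_id {A : Mat n} (hA : A.IsHermitian) : cfc (fun x : ℝ => x) A = A := cfc_id' ℝ A hA

theorem cfcm_comp {A : Mat n} (hA : A.IsHermitian) (g f : ℝ → ℝ) :
    cfc g (cfc f A) = cfc (fun x => g (f x)) A := by
  refine (cfc_comp' g f A ?_ (Vale.P371.contOn_matrix _ _) hA).symm
  exact (Set.toFinite _).continuousOn _

theorem half_two_posDef {κ Q : Mat n} (h : (κ, Q) ∈ Dm n) : κ.PosDef := by
  obtain ⟨hQ, hP⟩ := h
  have h1 : (κ + κ).PosDef := by
    have := hP.add_posSemidef hQ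
    simpa using this
  have h2 : κ = (1 / 2 : ℝ) • (κ + κ) := by
    rw [smul_add, ← add_smul]; norm_num
  rw [h2]
  exact h1.smul (by norm_num)

end H17

open H17

variable {n : ℕ}

theorem pos_module : S_POS := by
  intro n κ Q τ h hτ
  have hκ := half_two_posDef h
  obtain ⟨hQ, hP⟩ := h
  have hκh := hκ.1
  have hsp : ∀ x ∈ spectrum ℝ κ, 0 < x := fun x hx => spectrum_subset_Ioi hκ hx
  have hkt : (kt κ τ).PosDef := by
    unfold kt
    exact cfc_posDef hκh fun x hx => by have := hsp x hx; positivity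
  have hid := cfcm_id hκh
  have hsub : kt κ τ - κ = cfc (fun x : ℝ => √(x ^ 2 + τ) - x) κ := by
    have e : kt κ τ - κ = cfc (fun x : ℝ => √(x ^ 2 + τ)) κ - cfc (fun x : ℝ => x) κ := by
      rw [hid]; rfl
    rw [e, cfcm_sub]
  have hlt : ∀ x : ℝ, x < √(x ^ 2 + τ) := by
    intro x
    apply Real.lt_sqrt_of_sq_lt
    linarith
  have hZ : (kt κ τ - κ).PosDef := by
    rw [hsub]
    exact cfc_posDef hκh fun x hx => sub_pos.2 (hlt x)
  have hPt : (Pt κ Q τ).PosDef := by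
    have : Pt κ Q τ = (kt κ τ - κ) + (κ + κ - Q) := by unfold Pt; abel
    rw [this]
    exact hZ.add hP
  have hQt : (Qt κ Q τ).PosDef := hZ.add_posSemidef hQ
  have hsq : kt κ τ * kt κ τ = κ * κ + τ • (1 : Mat n) := by
    unfold kt
    rw [cfcm_mul]
    have e1 : κ * κ = cfc (fun x : ℝ => x * x) κ := by
      conv_lhs => rw [← hid]
      rw [cfcm_mul]
    rw [e1, ← cfcm_const hκh, cfcm_add]
    congr 1
    funext x
    rw [Real.mul_self_sqrt (by positivity)]
    ring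
  have hcomm : kt κ τ * κ = κ * kt κ τ := by
    have e1 : kt κ τ * κ = cfc (fun x : ℝ => √(x ^ 2 + τ) * x) κ := by
      have e : kt κ τ * κ = cfc (fun x : ℝ => √(x ^ 2 + τ)) κ * cfc (fun x : ℝ => x) κ := by
        rw [hid]; rfl
      rw [e, cfcm_mul]
    have e2 : κ * kt κ τ = cfc (fun x : ℝ => x * √(x ^ 2 + τ)) κ := by
      have e : κ * kt κ τ = cfc (fun x : ℝ => x) κ * cfc (fun x : ℝ => √(x ^ 2 + τ)) κ := by
        rw [hid]; rfl
      rw [e, cfcm_mul]
    rw [e1, e2]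
    congr 1
    funext x
    ring
  refine ⟨hκ, hkt, hZ, hPt, hQt, hsq, hcomm, ?_⟩
  rw [Matrix.sub_mul, Matrix.mul_add, Matrix.mul_add, hsq, hcomm]
  abel

namespace H17

section
open scoped MatrixOrder Matrix.Norms.L2Operator

theorem log_eq_mlog (A : Mat n) : CFC.log A = mlog A := rfl

theorem mlog_mono {A B : Mat n} (hA : A.PosDef) (hAB : (B - A).PosSemidef) :
    (mlog B - mlog A).PosSemidef := by
  have h1 : IsStrictlyPositive A := Matrix.isStrictlyPositive_iff_posDef.2 hA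
  have h2 : A ≤ B := by
    rw [Matrix.le_iff]; exact hAB
  have h3 := CFC.log_le_log h2 h1
  rw [Matrix.le_iff] at h3
  exact h3

theorem mlog_concave {A B : Mat n} (hA : A.PosDef) (hB : B.PosDef) :
    (mlog ((1 / 2 : ℝ) • A + (1 / 2 : ℝ) • B) -
      ((1 / 2 : ℝ) • mlog A + (1 / 2 : ℝ) • mlog B)).PosSemidef := by
  have h1 : IsStrictlyPositive A := Matrix.isStrictlyPositive_iff_posDef.2 hA
  have h2 : IsStrictlyPositive B := Matrix.isStrictlyPositive_iff_posDef.2 hB
  have h3 := (CFC.concaveOn_log (A := Mat n)).2 h1 h2 (show (0 : ℝ) ≤ 1 / 2 by norm_num)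
    (show (0 : ℝ) ≤ 1 / 2 by norm_num) (by norm_num)
  rw [Matrix.le_iff] at h3
  exact h3

end

end H17

theorem ellup_module (pos : S_POS) : S_ELLUP := by
  intro n κ Q τ h hτ
  obtain ⟨hκ, hkt, hZ, hPt, hQt, hsq, hcomm, hprod⟩ := pos n κ Q τ h hτ
  have hκh := hκ.1
  have hmid : (1 / 2 : ℝ) • Pt κ Q τ + (1 / 2 : ℝ) • Qt κ Q τ = kt κ τ := by
    rw [← smul_add]
    have : Pt κ Q τ + Qt κ Q τ = (2 : ℝ) • kt κ τ := by
      unfold Pt Qt
      rw [two_smul]
      abel
    rw [this, smul_smul]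
    norm_num
  have h1 := mlog_concave hPt hQt
  rw [hmid] at h1
  have h2 : mlog (kt κ τ) = cfc (fun x : ℝ => Real.log (√(x ^ 2 + τ))) κ := by
    unfold mlog kt
    exact cfcm_comp hκh _ _
  have h3 : cfc (fun x : ℝ => Real.log (1 + x ^ 2 / τ)) κ =
      (2 : ℝ) • mlog (kt κ τ) - (Real.log τ) • (1 : Mat n) := by
    rw [h2, cfcm_smul, ← cfcm_const hκh, cfcm_sub]
    congr 1
    funext x
    have hx : 0 < x ^ 2 + τ := by positivity
    rw [Real.log_sqrt hx.le]
    have : 1 + x ^ 2 / τ = (x ^ 2 + τ) / τ := by field_simp; ring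
    rw [this, Real.log_div hx.ne' hτ.ne']
    ring
  have h4 : cfc (fun x : ℝ => Real.log (1 + x ^ 2 / τ)) κ - ell κ Q τ =
      (2 : ℝ) • (mlog (kt κ τ) - ((1 / 2 : ℝ) • mlog (Pt κ Q τ) + (1 / 2 : ℝ) • mlog (Qt κ Q τ))) := by
    rw [h3]
    unfold ell
    rw [smul_sub, smul_add, smul_smul, smul_smul]
    norm_num
  rw [h4]
  exact h1.smul (by norm_num)

end Vale.P371G
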