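import Vale.Agent.P371G.Defs

/-!
# P371, general `γ`: the scalar integrals
-/

namespace Vale.P371G.SC

open MeasureTheory Set Filter Real
open scoped Topology

/-- domination lemma -/
theorem dom {s C : ℝ} (hs : 0 < s) (hs1 : s < 1) (k : ℝ → ℝ) (hk : ContinuousOn k (Ioi 0))
    (h0 : ∀ τ, 0 < τ → τ ≤ 1 → |k τ| ≤ C * τ ^ (-(s / 2)))
    (h1 : ∀ τ, 1 < τ → |k τ| ≤ C / τ) :
    IntegrableOn (fun τ => τ ^ (s - 1) * k τ) (Ioi 0) := by
  have hmeas : ContinuousOn (fun τ => τ ^ (s - 1) * k τ) (Ioi 0) := by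
    apply ContinuousOn.mul _ hk
    exact ContinuousOn.rpow_const continuousOn_id (fun x hx => Or.inl (ne_of_gt hx))
  rw [← Ioc_union_Ioi_eq_Ioi (zero_le_one), integrableOn_union]
  constructor
  · have hI : IntegrableOn (fun τ : ℝ => C * τ ^ (s / 2 - 1)) (Ioc 0 1) := by
      apply Integrable.const_mul
      have := (intervalIntegral.intervalIntegrable_rpow' (a := 0) (b := 1) (r := s / 2 - 1)
        (by linarith))
      exact (intervalIntegrable_iff_integrableOn_Ioc_of_le zero_le_one).1 this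
    apply Integrable.mono' hI
    · exact (hmeas.mono (Ioc_subset_Ioi_self)).aestronglyMeasurable measurableSet_Ioc
    · refine (ae_restrict_iff' measurableSet_Ioc).2 (Eventually.of_forall ?_)
      intro τ hτ
      have hp : 0 < τ ^ (s - 1) := rpow_pos_of_pos hτ.1 _
      rw [norm_mul, Real.norm_eq_abs, Real.norm_eq_abs, abs_of_pos hp]
      calc τ ^ (s - 1) * |k τ| ≤ τ ^ (s - 1) * (C * τ ^ (-(s / 2))) :=
            mul_le_mul_of_nonneg_left (h0 τ hτ.1 hτ.2) hp.le
        _ = C * (τ ^ (s - 1) * τ ^ (-(s / 2))) := by ring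
        _ = C * τ ^ (s / 2 - 1) := by
            rw [← rpow_add hτ.1]
            congr 2
            ring
  · have hI : IntegrableOn (fun τ : ℝ => C * τ ^ (s - 2)) (Ioi 1) := by
      apply Integrable.const_mul
      exact integrableOn_Ioi_rpow_of_lt (by linarith) zero_lt_one
    apply Integrable.mono' hI
    · exact (hmeas.mono (Ioi_subset_Ioi zero_le_one)).aestronglyMeasurable measurableSet_Ioi
    · refine (ae_restrict_iff' measurableSet_Ioi).2 (Eventually.of_forall ?_)
      intro τ hτ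
      have hτ1 : (1 : ℝ) < τ := hτ
      have hτ0 : 0 < τ := by linarith
      have hp : 0 < τ ^ (s - 1) := rpow_pos_of_pos hτ0 _
      rw [norm_mul, Real.norm_eq_abs, Real.norm_eq_abs, abs_of_pos hp]
      calc τ ^ (s - 1) * |k τ| ≤ τ ^ (s - 1) * (C / τ) :=
            mul_le_mul_of_nonneg_left (h1 τ hτ1) hp.le
        _ = C * (τ ^ (s - 1) * τ ^ (-(1 : ℝ))) := by
            rw [rpow_neg_one]; ring
        _ = C * τ ^ (s - 2) := by
            rw [← rpow_add hτ0]
            congr 2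
            ring

/-- `log(1+1/τ)` is continuous -/
theorem cont_log {x : ℝ} (hx : 0 ≤ x) :
    ContinuousOn (fun τ : ℝ => Real.log (1 + x / τ)) (Ioi 0) := by
  apply ContinuousOn.log
  · apply ContinuousOn.add continuousOn_const
    exact ContinuousOn.div continuousOn_const continuousOn_id (fun y hy => ne_of_gt hy)
  · intro y hy
    have : 0 < y := hy
    positivity

theorem log_nn {τ : ℝ} (hτ : 0 < τ) : 0 < Real.log (1 + 1 / τ) := by
  apply Real.log_pos
  have : 0 < 1 / τ := by positivity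
  linarith

theorem log_le {τ : ℝ} (hτ : 0 < τ) : Real.log (1 + 1 / τ) ≤ 1 / τ := by
  have := Real.log_le_sub_one_of_pos (x := 1 + 1 / τ) (by positivity)
  linarith

/-- bound near zero -/
theorem log_le0 {s τ : ℝ} (hs : 0 < s) (hτ : 0 < τ) (hτ1 : τ ≤ 1) :
    Real.log (1 + 1 / τ) ≤ (2 ^ (s / 2) / (s / 2)) * τ ^ (-(s / 2)) := by
  have h1 : 1 + 1 / τ ≤ 2 / τ := by
    rw [le_div_iff₀ hτ]
    field_simp
    linarith
  have h2 := Real.log_le_rpow_div (x := 2 / τ) (ε := s / 2) (by positivity) (by positivity)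
  have h3 : Real.log (1 + 1 / τ) ≤ Real.log (2 / τ) :=
    Real.log_le_log (by positivity) h1
  refine h3.trans (h2.trans (le_of_eq ?_))
  rw [Real.div_rpow (by norm_num) hτ.le, Real.rpow_neg hτ.le]
  ring

theorem int1 {s : ℝ} (hs : 0 < s) (hs1 : s < 1) :
    IntegrableOn (fun τ : ℝ => τ ^ (s - 1) * Real.log (1 + 1 / τ)) (Ioi 0) := by
  apply dom (C := max (2 ^ (s / 2) / (s / 2)) 1) hs hs1 _ (cont_log zero_le_one)
  · intro τ h0 h1
    rw [abs_of_pos (log_nn h0)]
    refine (log_le0 hs h0 h1).trans ?_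
    exact mul_le_mul_of_nonneg_right (le_max_left _ _) (rpow_pos_of_pos h0 _).le
  · intro τ h1
    have h0 : 0 < τ := by linarith
    rw [abs_of_pos (log_nn h0)]
    refine (log_le h0).trans ?_
    exact div_le_div_of_nonneg_right (le_max_right _ _) h0.le

theorem I0_pos {s : ℝ} (hs : 0 < s) (hs1 : s < 1) : 0 < I0 s := by
  unfold I0
  rw [setIntegral_pos_iff_support_of_nonneg_ae]
  · have : Function.support (fun τ : ℝ => τ ^ (s - 1) * Real.log (1 + 1 / τ)) ∩ Ioi 0 = Ioi 0 := by
      apply inter_eq_right.2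
      intro τ hτ
      have hτ0 : 0 < τ := hτ
      exact (mul_pos (rpow_pos_of_pos hτ0 _) (log_nn hτ0)).ne'
    rw [this]
    simp
  · refine (ae_restrict_iff' measurableSet_Ioi).2 (Eventually.of_forall ?_)
    intro τ hτ
    have hτ0 : 0 < τ := hτ
    exact (mul_pos (rpow_pos_of_pos hτ0 _) (log_nn hτ0)).le
  · exact int1 hs hs1

theorem int_mt {s : ℝ} (hs : 0 < s) (hs1 : s < 1) :
    IntegrableOn (fun τ : ℝ => τ ^ (s - 1) * mt τ) (Ioi 0) := by
  apply dom (C := 1 + 1 / (s / 2)) hs hs1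
  · unfold mt
    apply ContinuousOn.inf
    · apply ContinuousOn.add continuousOn_const
      apply ContinuousOn.abs
      exact ContinuousOn.log continuousOn_id (fun y hy => ne_of_gt hy)
    · exact ContinuousOn.div continuousOn_const continuousOn_id (fun y hy => ne_of_gt hy)
  · intro τ h0 h1
    have hm : 0 ≤ mt τ := by
      unfold mt
      exact le_min (by positivity) (by positivity)
    rw [abs_of_nonneg hm]
    have h2 : mt τ ≤ 1 + |Real.log τ| := min_le_left _ _
    refine h2.trans ?_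
    have h3 : |Real.log τ| = Real.log (1 / τ) := by
      rw [abs_of_nonpos (Real.log_nonpos h0.le h1), one_div, Real.log_inv]
    rw [h3]
    have h4 := Real.log_le_rpow_div (x := 1 / τ) (ε := s / 2) (by positivity) (by positivity)
    have h5 : (1 / τ) ^ (s / 2) = τ ^ (-(s / 2)) := by
      rw [Real.div_rpow (by norm_num) h0.le, Real.rpow_neg h0.le, Real.one_rpow, one_div]
    rw [h5] at h4
    have h6 : 1 ≤ τ ^ (-(s / 2)) := by
      rw [← h5]
      apply Real.one_le_rpow _ (by positivity)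
      rw [le_div_iff₀ h0]
      linarith
    calc 1 + Real.log (1 / τ) ≤ τ ^ (-(s / 2)) + τ ^ (-(s / 2)) / (s / 2) := by linarith
      _ = (1 + 1 / (s / 2)) * τ ^ (-(s / 2)) := by ring
  · intro τ h1
    have h0 : 0 < τ := by linarith
    have hm : 0 ≤ mt τ := by
      unfold mt
      exact le_min (by positivity) (by positivity)
    rw [abs_of_nonneg hm]
    have h2 : mt τ ≤ 1 / τ := min_le_right _ _
    refine h2.trans ?_
    apply div_le_div_of_nonneg_right _ h0.le
    have : 0 < 1 / (s / 2) := by positivity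
    linarith

/-- `(1+τ) log(1+1/τ) - 1 ∈ [0, 1/τ]` -/
theorem v_bd {τ : ℝ} (hτ : 0 < τ) :
    0 ≤ (1 + τ) * Real.log (1 + 1 / τ) - 1 ∧ (1 + τ) * Real.log (1 + 1 / τ) - 1 ≤ 1 / τ := by
  constructor
  · have h := Real.one_sub_inv_le_log_of_pos (x := 1 + 1 / τ) (by positivity)
    have h2 : 1 - (1 + 1 / τ)⁻¹ = 1 / (1 + τ) := by
      field_simp
      ring
    rw [h2] at h
    have h3 : 1 = (1 + τ) * (1 / (1 + τ)) := by field_simp
    have h4 := mul_le_mul_of_nonneg_left h (by positivity : (0 : ℝ) ≤ 1 + τ)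
    linarith
  · have h := log_le hτ
    have h4 := mul_le_mul_of_nonneg_left h (by positivity : (0 : ℝ) ≤ 1 + τ)
    have h5 : (1 + τ) * (1 / τ) = 1 / τ + 1 := by field_simp
    linarith

theorem int2 {s : ℝ} (hs : 0 < s) (hs1 : s < 1) :
    IntegrableOn (fun τ : ℝ => τ ^ (s - 1) * ((1 + τ) * Real.log (1 + 1 / τ) - 1)) (Ioi 0) := by
  apply dom (C := max (2 * (2 ^ (s / 2) / (s / 2))) 1) hs hs1
  · exact ((continuousOn_const.add continuousOn_id).mul (cont_log zero_le_one)).sub
      continuousOn_const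
  · intro τ h0 h1
    rw [abs_of_nonneg (v_bd h0).1]
    have h2 := log_le0 hs h0 h1
    have h3 := log_nn h0
    have h4 : (1 + τ) * Real.log (1 + 1 / τ) - 1 ≤ 2 * Real.log (1 + 1 / τ) := by nlinarith
    refine h4.trans ?_
    calc 2 * Real.log (1 + 1 / τ) ≤ 2 * ((2 ^ (s / 2) / (s / 2)) * τ ^ (-(s / 2))) := by linarith
      _ = (2 * (2 ^ (s / 2) / (s / 2))) * τ ^ (-(s / 2)) := by ring
      _ ≤ _ := mul_le_mul_of_nonneg_right (le_max_left _ _) (rpow_pos_of_pos h0 _).le
  · intro τ h1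
    have h0 : 0 < τ := by linarith
    rw [abs_of_nonneg (v_bd h0).1]
    refine (v_bd h0).2.trans ?_
    exact div_le_div_of_nonneg_right (le_max_right _ _) h0.le

/-- the primitive -/
noncomputable def W (s τ : ℝ) : ℝ := (1 / (1 + s)) * (τ ^ s * ((1 + τ) * Real.log (1 + 1 / τ) - 1))

theorem W_deriv {s τ : ℝ} (hs : 0 < s) (hτ : 0 < τ) :
    HasDerivAt (W s) (τ ^ (s - 1) * ((1 + τ) * Real.log (1 + 1 / τ) - 1)
      - τ ^ (s - 1) * Real.log (1 + 1 / τ) / (1 + s)) τ := by
  unfold W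
  have h1 : HasDerivAt (fun τ : ℝ => τ ^ s) (s * τ ^ (s - 1)) τ :=
    Real.hasDerivAt_rpow_const (Or.inl hτ.ne')
  have h2 : HasDerivAt (fun τ : ℝ => 1 + 1 / τ) (-(1 / τ ^ 2)) τ := by
    have := (hasDerivAt_inv hτ.ne').const_add 1
    simp only [one_div]
    convert this using 1
  have h3 := h2.log (by positivity)
  have h4 : HasDerivAt (fun τ : ℝ => 1 + τ) 1 τ := (hasDerivAt_id τ).const_add 1
  have h5 := ((h1.mul ((h4.mul h3).sub_const 1))).const_mul (1 / (1 + s))
  refine HasDerivAt.congr_deriv h5 ?_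
  have h6 : τ ^ s = τ * τ ^ (s - 1) := by
    rw [← Real.rpow_one_add' hτ.le (by linarith)]
    congr 1
    ring
  rw [h6]
  have hs1 : 1 + s ≠ 0 := by positivity
  have h7 : -(1 / τ ^ 2) / (1 + 1 / τ) = - 1 / (τ * (1 + τ)) := by
    field_simp
    ring
  simp only [Pi.mul_apply]
  rw [h7]
  field_simp
  ring

theorem W_nn {s τ : ℝ} (hs : 0 < s) (hτ : 0 < τ) : 0 ≤ W s τ := by
  unfold W
  have := (v_bd hτ).1
  have h2 := (rpow_pos_of_pos hτ s).le
  positivity

theorem W_zero {s : ℝ} (hs : 0 < s) : W s 0 = 0 := by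
  unfold W
  rw [Real.zero_rpow hs.ne']
  ring

theorem W_lim0 {s : ℝ} (hs : 0 < s) : ContinuousWithinAt (W s) (Ici 0) 0 := by
  rw [ContinuousWithinAt, W_zero hs]
  -- squeeze
  have hlim : Tendsto (fun τ : ℝ => (1 / (1 + s)) * (2 * (2 ^ (s / 2) / (s / 2))) * τ ^ (s / 2))
      (𝓝[≥] 0) (𝓝 0) := by
    have h1 : ContinuousAt (fun τ : ℝ => τ ^ (s / 2)) 0 :=
      Real.continuousAt_rpow_const 0 (s / 2) (Or.inr (by positivity))
    have h2 : Tendsto (fun τ : ℝ => τ ^ (s / 2)) (𝓝[≥] 0) (𝓝 0) := by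
      have := h1.tendsto.mono_left (nhdsWithin_le_nhds (s := Ici 0))
      rwa [Real.zero_rpow (by positivity)] at this
    have h3 := h2.const_mul ((1 / (1 + s)) * (2 * (2 ^ (s / 2) / (s / 2))))
    simpa using h3
  refine tendsto_of_tendsto_of_tendsto_of_le_of_le' tendsto_const_nhds hlim ?_ ?_
  · filter_upwards [self_mem_nhdsWithin] with τ hτ
    rcases eq_or_lt_of_le (show (0 : ℝ) ≤ τ from hτ) with h | h
    · rw [← h, W_zero hs]
    · exact W_nn hs h
  · have hnb : Iic (1 : ℝ) ∈ 𝓝[≥] (0 : ℝ) := mem_nhdsWithin_of_mem_nhds (Iic_mem_nhds one_pos)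
    filter_upwards [self_mem_nhdsWithin, hnb] with τ hτ hτ1
    rcases eq_or_lt_of_le (show (0 : ℝ) ≤ τ from hτ) with h | h
    · rw [← h, W_zero hs, Real.zero_rpow (by positivity)]
      simp
    · have h1 : τ ≤ 1 := hτ1
      have h2 := log_le0 hs h h1
      have h3 := log_nn h
      have h4 : (1 + τ) * Real.log (1 + 1 / τ) - 1 ≤ 2 * Real.log (1 + 1 / τ) := by nlinarith
      have h5 : (1 + τ) * Real.log (1 + 1 / τ) - 1 ≤
          2 * ((2 ^ (s / 2) / (s / 2)) * τ ^ (-(s / 2))) := by linarith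
      have h6 := (rpow_pos_of_pos h s).le
      unfold W
      calc (1 / (1 + s)) * (τ ^ s * ((1 + τ) * Real.log (1 + 1 / τ) - 1))
          ≤ (1 / (1 + s)) * (τ ^ s * (2 * ((2 ^ (s / 2) / (s / 2)) * τ ^ (-(s / 2))))) := by
            apply mul_le_mul_of_nonneg_left _ (by positivity)
            exact mul_le_mul_of_nonneg_left h5 h6
        _ = (1 / (1 + s)) * (2 * (2 ^ (s / 2) / (s / 2))) * (τ ^ s * τ ^ (-(s / 2))) := by ring
        _ = (1 / (1 + s)) * (2 * (2 ^ (s / 2) / (s / 2))) * τ ^ (s / 2) := by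
            rw [← rpow_add h]
            congr 2
            ring

theorem W_limtop {s : ℝ} (hs : 0 < s) (hs1 : s < 1) : Tendsto (W s) atTop (𝓝 0) := by
  have hlim : Tendsto (fun τ : ℝ => (1 / (1 + s)) * τ ^ (-(1 - s))) atTop (𝓝 0) := by
    have := (tendsto_rpow_neg_atTop (y := 1 - s) (by linarith)).const_mul (1 / (1 + s))
    simpa using this
  refine tendsto_of_tendsto_of_tendsto_of_le_of_le' tendsto_const_nhds hlim ?_ ?_
  · filter_upwards [eventually_gt_atTop (0 : ℝ)] with τ hτ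
    exact W_nn hs hτ
  · filter_upwards [eventually_gt_atTop (0 : ℝ)] with τ hτ
    unfold W
    have h2 := (v_bd hτ).2
    calc (1 / (1 + s)) * (τ ^ s * ((1 + τ) * Real.log (1 + 1 / τ) - 1))
        ≤ (1 / (1 + s)) * (τ ^ s * (1 / τ)) := by
          apply mul_le_mul_of_nonneg_left _ (by positivity)
          exact mul_le_mul_of_nonneg_left h2 (rpow_pos_of_pos hτ s).le
      _ = (1 / (1 + s)) * (τ ^ s * τ ^ (-(1 : ℝ))) := by rw [rpow_neg_one, one_div τ]
      _ = (1 / (1 + s)) * τ ^ (-(1 - s)) := by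
          rw [← rpow_add hτ]
          congr 2
          ring

theorem int_v {s : ℝ} (hs : 0 < s) (hs1 : s < 1) :
    ∫ τ in Ioi (0 : ℝ), τ ^ (s - 1) * ((1 + τ) * Real.log (1 + 1 / τ) - 1) = I0 s / (1 + s) := by
  have hi : IntegrableOn (fun τ : ℝ => τ ^ (s - 1) * ((1 + τ) * Real.log (1 + 1 / τ) - 1)
      - τ ^ (s - 1) * Real.log (1 + 1 / τ) / (1 + s)) (Ioi 0) :=
    (int2 hs hs1).sub ((int1 hs hs1).div_const _)
  have h := integral_Ioi_of_hasDerivAt_of_tendsto (W_lim0 hs)
    (fun x hx => W_deriv hs hx) hi (W_limtop hs hs1)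
  rw [integral_sub (int2 hs hs1) ((int1 hs hs1).div_const _), W_zero hs, integral_div] at h
  unfold I0
  linarith

/-- scaling of set integrals -/
theorem scale {x : ℝ} (hx : 0 < x) (g h : ℝ → ℝ) (c : ℝ)
    (hgh : ∀ σ, 0 < σ → g (x * σ) = c * h σ) (hi : IntegrableOn h (Ioi 0)) :
    IntegrableOn g (Ioi 0) ∧ ∫ τ in Ioi (0 : ℝ), g τ = x * c * ∫ σ in Ioi (0 : ℝ), h σ := by
  have h1 : IntegrableOn (fun σ => g (x * σ)) (Ioi 0) := by
    apply IntegrableOn.congr_fun (hi.const_mul c) _ measurableSet_Ioi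
    intro σ hσ
    exact (hgh σ hσ).symm
  constructor
  · have := (integrableOn_Ioi_comp_mul_left_iff g 0 hx).1 h1
    simpa using this
  · have h2 := integral_comp_mul_left_Ioi g 0 hx
    rw [mul_zero, smul_eq_mul] at h2
    have h3 : ∫ σ in Ioi (0 : ℝ), g (x * σ) = c * ∫ σ in Ioi (0 : ℝ), h σ := by
      rw [← integral_const_mul]
      apply setIntegral_congr_fun measurableSet_Ioi
      intro σ hσ
      exact hgh σ hσ
    rw [h3] at h2
    field_simp at h2
    linarith

end Vale.P371G.SC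

namespace Vale.P371G

open MeasureTheory Set Filter Real SC
open scoped Topology

theorem scal : S_SCAL := by
  intro s hs hs1
  have hI := I0_pos hs hs1
  refine ⟨hI, ?_, ?_, ?_⟩
  · have := (int_mt hs hs1).div_const (I0 s)
    refine IntegrableOn.congr_fun this ?_ measurableSet_Ioi
    intro τ _
    simp only [wt]
    ring
  · intro x hx
    rcases eq_or_lt_of_le hx with h | h
    · subst h
      simp [Real.zero_rpow hs.ne']
    · have hs' := scale h (fun τ => wt s τ * Real.log (1 + x / τ))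
        (fun σ => σ ^ (s - 1) * Real.log (1 + 1 / σ)) (x ^ (s - 1) / I0 s) (by
          intro σ hσ
          simp only [wt]
          have h1 : x / (x * σ) = 1 / σ := by field_simp
          rw [h1, Real.mul_rpow h.le hσ.le]
          ring) (int1 hs hs1)
      refine ⟨hs'.1, ?_⟩
      rw [hs'.2]
      have h2 : x * (x ^ (s - 1) / I0 s) * ∫ σ in Ioi (0 : ℝ), σ ^ (s - 1) * Real.log (1 + 1 / σ)
          = x * x ^ (s - 1) := by
        change x * (x ^ (s - 1) / I0 s) * I0 s = _
        field_simp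
      rw [h2, ← Real.rpow_one_add' h.le (by linarith)]
      congr 1
      ring
  · intro x hx
    rcases eq_or_lt_of_le hx with h | h
    · subst h
      simp [Real.zero_rpow (show 1 + s ≠ 0 by positivity)]
    · have hs' := scale h (fun τ => wt s τ * ((x + τ) * Real.log (1 + x / τ) - x))
        (fun σ => σ ^ (s - 1) * ((1 + σ) * Real.log (1 + 1 / σ) - 1)) (x ^ s / I0 s) (by
          intro σ hσ
          simp only [wt]
          have h1 : x / (x * σ) = 1 / σ := by field_simp
          have h3 : x ^ s = x * x ^ (s - 1) := by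
            rw [← Real.rpow_one_add' h.le (by linarith)]
            congr 1
            ring
          rw [h1, Real.mul_rpow h.le hσ.le, h3]
          ring) (int2 hs hs1)
      refine ⟨hs'.1, ?_⟩
      rw [hs'.2, int_v hs hs1, add_comm 1 s, Real.rpow_add h, Real.rpow_one]
      field_simp

end Vale.P371G
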