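import Vale.Agent.P371G.Iface
import Vale.Agent.P371G.Scal
import Vale.Agent.P371G.POS
import Vale.Agent.P371G.CONT
import Vale.Agent.P371G.ELLB
import Vale.Agent.P371G.ASYM
import Vale.Agent.P371G.Drep
import Vale.Agent.P371G.Conc
import Vale.Agent.P371G.Kmid
import Vale.Agent.P371G.DS
import Vale.Agent.P371G.DT
import Vale.Agent.P371G.HJM
import Vale.Agent.P371G.Gder
import Vale.Agent.P371G.Gamb
import Vale.Agent.P371G.Comm

/-! # The functional exists -/

namespace Vale.P371G

theorem the_iface : S_IFACE := by
  have pos := pos_module
  have cont := cont_module pos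
  have ellup := ellup_module pos
  have ellb := ellb_module pos ellup
  have gd := gder klein cont
  exact iface scal cont ellb (gamb gd ellb ellup pos) pos gd kmid_module
    (conc drep kmid_module pos) (comm scal)
    (hjm pos ellb (asym_module pos) scal cont gt (dt pos))

end Vale.P371G
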