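import Vale.Agent.P371G.Defs
import Vale.Agent.P371.GoldenThompson

/-!
# P371G: continuity of the functional calculus (helper17)
-/

namespace Vale.P371G.H17

open Matrix Set Filter MeasureTheory
open scoped Topology ComplexOrder MatrixOrder Matrix.Norms.L2Operator

variable {n : ℕ} {X : Type*} [TopologicalSpace X]

theorem continuousOn_cfc_of_open {f : ℝ → ℝ} {S : Set ℝ} (hS : IsOpen S) (hf : ContinuousOn f S)
    {a : X → Mat n} {t : Set X} (ha : ContinuousOn a t) (hh : ∀ x ∈ t, (a x).IsHermitian)
    (hs : ∀ x ∈ t, spectrum ℝ (a x) ⊆ S) :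
    ContinuousOn (fun x => cfc f (a x)) t := by
  refine ContinuousOn.cfc_of_mem_nhdsSet (s := S) f ?_ ha (fun x hx => (hh x hx)) hf
  rw [hS.mem_nhdsSet]
  exact iUnion₂_subset hs

theorem continuousOn_cfc_univ {f : ℝ → ℝ} (hf : Continuous f)
    {a : X → Mat n} {t : Set X} (ha : ContinuousOn a t) (hh : ∀ x ∈ t, (a x).IsHermitian) :
    ContinuousOn (fun x => cfc f (a x)) t :=
  continuousOn_cfc_of_open isOpen_univ hf.continuousOn ha hh (fun _ _ => subset_univ _)

theorem spectrum_subset_Ioi {A : Mat n} (hA : A.PosDef) : spectrum ℝ A ⊆ Ioi 0 := by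
  rw [hA.1.spectrum_real_eq_range_eigenvalues]
  rintro _ ⟨i, rfl⟩
  exact hA.eigenvalues_pos i

theorem continuousOn_mlog {a : X → Mat n} {t : Set X} (ha : ContinuousOn a t)
    (hp : ∀ x ∈ t, (a x).PosDef) : ContinuousOn (fun x => mlog (a x)) t := by
  refine continuousOn_cfc_of_open isOpen_Ioi
    (Real.continuousOn_log.mono fun x hx => ne_of_gt hx) ha (fun x hx => (hp x hx).1)
    (fun x hx => spectrum_subset_Ioi (hp x hx))

theorem continuous_rt : Continuous (rt : Mat n → ℝ) := by
  unfold rt
  exact Complex.continuous_re.comp (continuous_id.matrix_trace)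

theorem continuousOn_eta {a : X → Mat n} {t : Set X} (ha : ContinuousOn a t)
    (hp : ∀ x ∈ t, (a x).PosDef) : ContinuousOn (fun x => eta (a x)) t := by
  unfold eta
  exact continuous_rt.comp_continuousOn (ha.mul (continuousOn_mlog ha hp))

theorem continuousOn_kt {τ : ℝ} {a : X → Mat n} {t : Set X}
    (ha : ContinuousOn a t) (hh : ∀ x ∈ t, (a x).IsHermitian) :
    ContinuousOn (fun x => kt (a x) τ) t := by
  unfold kt
  exact continuousOn_cfc_univ (by fun_prop) ha hh

theorem continuous_kt_right {κ : Mat n} (hκ : κ.IsHermitian) : Continuous (fun τ : ℝ => kt κ τ) := by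
  unfold kt
  simp only [Vale.P371.cfc_eq_conj hκ]
  refine (continuous_const.mul ?_).mul continuous_const
  refine Continuous.matrix_diagonal ?_
  refine continuous_pi fun i => ?_
  exact Complex.continuous_ofReal.comp (by fun_prop)

end Vale.P371G.H17
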