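import Vale.Agent.P371G.Base

/-! # The interface structure -/

namespace Vale.P371G

open MeasureTheory Set Filter Matrix
open scoped Topology ComplexOrder ComplexConjugate

variable {n : ℕ}

lemma dom_iff (Q k : Mat n) : LTG.Dom Q k ↔ (k, Q) ∈ Dm n := by
  have : (2 : ℂ) • k - Q = k + k - Q := by rw [two_smul]
  simp only [LTG.Dom, Dm, Set.mem_ofPred_eq, this]

lemma am_eq (Q k : Mat n) : LTG.Am Q k = Am k Q := by
  simp only [LTG.Am, Am, Matrix.sub_mul, Matrix.mul_sub]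
  abel

lemma Dm.kpos {κ Q : Mat n} (h : (κ, Q) ∈ Dm n) : κ.PosDef := by
  have h1 : κ = (1 / 2 : ℝ) • ((κ + κ - Q) + Q) := by
    rw [sub_add_cancel, ← two_smul ℝ κ, smul_smul]; norm_num
  rw [h1]
  exact (h.2.add_posSemidef h.1).smul (by norm_num : (0 : ℝ) < 1 / 2)

lemma two_norm_le_of_psd {A : Mat n} (hA : A.PosSemidef) (i j : Fin n) :
    2 * ‖A i j‖ ≤ (A i i).re + (A j j).re := by
  by_cases h0 : A i j = 0
  · rw [h0, norm_zero, mul_zero]
    have h1 := (Complex.le_def.mp (hA.diag_nonneg (i := i))).1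
    have h2 := (Complex.le_def.mp (hA.diag_nonneg (i := j))).1
    simpa using add_nonneg h1 h2
  · have hn : (‖A i j‖ : ℝ) ≠ 0 := norm_ne_zero_iff.mpr h0
    set z : ℂ := -(conj (A i j) / (‖A i j‖ : ℂ)) with hz
    have hzz : conj z * z = 1 := by
      rw [hz]
      simp only [map_neg, map_div₀, Complex.conj_conj, Complex.conj_ofReal]
      rw [neg_mul_neg, div_mul_div_comm, Complex.mul_conj, Complex.normSq_eq_norm_sq]
      push_cast
      rw [pow_two, div_self]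
      exact_mod_cast mul_ne_zero hn hn
    have hza : z * A i j = -(‖A i j‖ : ℂ) := by
      rw [hz, neg_mul, div_mul_eq_mul_div, mul_comm (conj (A i j)), Complex.mul_conj,
        Complex.normSq_eq_norm_sq]
      push_cast
      rw [pow_two, mul_div_assoc, div_self (by exact_mod_cast hn), mul_one]
    have hji : A j i = conj (A i j) := by
      have := congrFun (congrFun hA.isHermitian.eq j) i
      rw [conjTranspose_apply] at this
      exact this.symm
    have h := (Complex.le_def.mp (hA.dotProduct_mulVec_nonneg (Pi.single i 1 + Pi.single j z))).1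
    have e : star (Pi.single i 1 + Pi.single j z) ⬝ᵥ (A *ᵥ (Pi.single i 1 + Pi.single j z))
        = A i i + z * A i j + conj z * A j i + (conj z * z) * A j j := by
      simp only [star_add, Pi.star_single, star_one, Matrix.mulVec_add, Matrix.mulVec_single,
        add_dotProduct, single_dotProduct, one_mul, Pi.add_apply,
        Pi.smul_apply, Matrix.col_apply, MulOpposite.smul_eq_mul_unop, MulOpposite.unop_op, mul_one,
        RCLike.star_def, mul_add]
      ring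
    rw [e, hzz, hza, hji, ← map_mul, hza] at h
    simp at h
    linarith

lemma norm_le_abs_of_psd {H : Mat n} {c : ℝ}
    (h1 : (c • (1 : Mat n) - H).PosSemidef) (h2 : (c • (1 : Mat n) + H).PosSemidef) (i j : Fin n) :
    ‖H i j‖ ≤ 2 * c := by
  have d1 := fun i => (Complex.le_def.mp (h1.diag_nonneg (i := i))).1
  have d2 := fun i => (Complex.le_def.mp (h2.diag_nonneg (i := i))).1
  have hre : ∀ i, -c ≤ (H i i).re ∧ (H i i).re ≤ c := by
    intro i
    have a1 := d1 i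
    have a2 := d2 i
    simp at a1 a2
    constructor <;> linarith
  by_cases hij : i = j
  · subst hij
    have him : (H i i).im = 0 := by
      have := (Complex.le_def.mp (h2.diag_nonneg (i := i))).2
      simpa using this.symm
    have : H i i = ((H i i).re : ℂ) := Complex.ext rfl (by simpa using him)
    rw [this, Complex.norm_real, Real.norm_eq_abs, abs_le]
    have := hre i
    constructor <;> linarith [this.1, this.2]
  · have := two_norm_le_of_psd h2 i j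
    have e : (c • (1 : Mat n) + H) i j = H i j := by simp [hij]
    rw [e] at this
    have a1 := (hre i).2
    have a2 := (hre j).2
    simp at this
    linarith [norm_nonneg (H i j)]

lemma isHermitian_smul_one (c : ℝ) : (c • (1 : Mat n)).IsHermitian := by
  rw [Matrix.IsHermitian, conjTranspose_smul, conjTranspose_one]
  simp

lemma psd_congr {A B : Mat n} (h : A.PosSemidef) (e : A = B) : B.PosSemidef := e ▸ h

/-- locally uniform constants on the domain -/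
lemma local_unif {z0 : Mat n × Mat n} (h0 : z0 ∈ Dm n) : ∃ δ R : ℝ, 0 < δ ∧ 0 < R ∧
    ∀ᶠ z in 𝓝[Dm n] z0, (R • (1 : Mat n) - z.1).PosSemidef ∧
      (z.1 + z.1 - z.2 - δ • (1 : Mat n)).PosSemidef := by
  obtain ⟨δ, hδ, hd⟩ := exists_pos_le h0.2
  have hc1 : Continuous fun z : Mat n × Mat n => ∑ i, ∑ j, ‖z.1 i j‖ := by
    refine continuous_finsetSum _ fun i _ => continuous_finsetSum _ fun j _ => ?_
    exact ((continuous_apply_apply i j).comp continuous_fst).norm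
  have hc2 : Continuous fun z : Mat n × Mat n =>
      ∑ i, ∑ j, ‖((z0.1 + z0.1 - z0.2) - (z.1 + z.1 - z.2)) i j‖ := by
    refine continuous_finsetSum _ fun i _ => continuous_finsetSum _ fun j _ => ?_
    have : Continuous fun z : Mat n × Mat n => (z0.1 + z0.1 - z0.2) - (z.1 + z.1 - z.2) := by
      fun_prop
    exact ((continuous_apply_apply i j).comp this).norm
  refine ⟨δ / 2, ∑ i, ∑ j, ‖z0.1 i j‖ + 1, by positivity, by positivity, ?_⟩
  have e1 : ∀ᶠ z in 𝓝[Dm n] z0, ∑ i, ∑ j, ‖z.1 i j‖ < ∑ i, ∑ j, ‖z0.1 i j‖ + 1 :=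
    (hc1.continuousAt.eventually (gt_mem_nhds (by linarith))).filter_mono nhdsWithin_le_nhds
  have e2 : ∀ᶠ z in 𝓝[Dm n] z0,
      ∑ i, ∑ j, ‖((z0.1 + z0.1 - z0.2) - (z.1 + z.1 - z.2)) i j‖ < δ / 2 := by
    refine (hc2.continuousAt.eventually (gt_mem_nhds ?_)).filter_mono nhdsWithin_le_nhds
    simp only [sub_self, Matrix.zero_apply, norm_zero, Finset.sum_const_zero]
    positivity
  filter_upwards [e1, e2, self_mem_nhdsWithin] with z h1 h2 hz
  have hκ : z.1.IsHermitian := by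
    have : z.1 = (1 / 2 : ℝ) • ((z.1 + z.1 - z.2) + z.2) := by
      rw [sub_add_cancel, ← two_smul ℝ z.1, smul_smul]; norm_num
    rw [this, Matrix.IsHermitian, conjTranspose_smul, conjTranspose_add, hz.2.isHermitian.eq,
      hz.1.isHermitian.eq]
    simp
  refine ⟨psd_of_entries hκ h1.le, ?_⟩
  have h3 := psd_of_entries (h0.2.isHermitian.sub hz.2.isHermitian) h2.le
  have h4 := hd.add h3
  refine psd_congr h4 ?_
  have : δ • (1 : Mat n) = (δ / 2) • (1 : Mat n) + (δ / 2) • (1 : Mat n) := by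
    rw [← add_smul]; ring_nf
  rw [this]
  abel

lemma wt_nonneg (hS : S_SCAL) {s τ : ℝ} (h0 : 0 < s) (h1 : s < 1) (hτ : 0 < τ) :
    0 ≤ wt s τ := by
  have := (hS s h0 h1).1
  unfold wt
  positivity

lemma wt_continuousOn (s : ℝ) : ContinuousOn (fun τ => wt s τ) (Ioi 0) := by
  unfold wt
  exact (continuousOn_id.rpow_const (fun x hx => Or.inl (ne_of_gt hx))).div_const _

section
variable (hS : S_SCAL) (hC : S_CONT) (hE : S_ELLB)
include hS hC hE

omit hS hE in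
lemma aesm_ell {s : ℝ} {z : Mat n × Mat n} (hz : z ∈ Dm n) (i j : Fin n) :
    AEStronglyMeasurable (fun τ => (wt s τ : ℂ) * ell z.1 z.2 τ i j)
      (volume.restrict (Ioi (0 : ℝ))) := by
  refine ContinuousOn.aestronglyMeasurable ?_ measurableSet_Ioi
  refine ContinuousOn.mul (Complex.continuous_ofReal.comp_continuousOn (wt_continuousOn s)) ?_
  exact (continuous_apply_apply i j).comp_continuousOn ((hC n).2.2.1 z hz)

omit hS hC hE in
lemma fct : FirstCountableTopology (Mat n) :=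
  inferInstanceAs (FirstCountableTopology (Fin n → Fin n → ℂ))

lemma B_contOn {s : ℝ} (h0 : 0 < s) (h1 : s < 1) :
    ContinuousOn (fun z : Mat n × Mat n => Bm s z.1 z.2) (Dm n) := by
  have : FirstCountableTopology (Mat n) := fct
  intro z0 hz0
  refine tendsto_pi_nhds.mpr fun i => tendsto_pi_nhds.mpr fun j => ?_
  obtain ⟨δ, R, hδ, hR, hev⟩ := local_unif hz0
  obtain ⟨C, hCpos, hb⟩ := hE n δ R hδ hR
  have := (hS s h0 h1).2.1
  refine continuousWithinAt_of_dominated (μ := volume.restrict (Ioi (0 : ℝ)))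
    (F := fun (z : Mat n × Mat n) τ => (wt s τ : ℂ) * ell z.1 z.2 τ i j)
    (bound := fun τ => 2 * C * (wt s τ * mt τ)) ?_ ?_ (this.const_mul _) ?_
  · filter_upwards [self_mem_nhdsWithin] with z hz
    exact aesm_ell hC hz i j
  · filter_upwards [hev, self_mem_nhdsWithin] with z hz hz'
    refine (ae_restrict_iff' measurableSet_Ioi).mpr (Eventually.of_forall fun τ hτ => ?_)
    have hτ' : 0 < τ := hτ
    obtain ⟨b1, b2⟩ := hb z.1 z.2 τ hz' hz.1 hz.2 hτ'
    have := norm_le_abs_of_psd b1 b2 i j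
    rw [norm_mul, Complex.norm_real, Real.norm_of_nonneg (wt_nonneg hS h0 h1 hτ')]
    calc wt s τ * ‖ell z.1 z.2 τ i j‖ ≤ wt s τ * (2 * (C * mt τ)) :=
          mul_le_mul_of_nonneg_left this (wt_nonneg hS h0 h1 hτ')
      _ = _ := by ring
  · refine (ae_restrict_iff' measurableSet_Ioi).mpr (Eventually.of_forall fun τ hτ => ?_)
    refine continuousWithinAt_const.mul ?_
    exact (continuous_apply_apply i j).continuousAt.comp_continuousWithinAt
      ((hC n).1 τ hτ z0 hz0)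


omit hE in
lemma G_contOn (hG : S_GAMB) {s : ℝ} (h0 : 0 < s) (h1 : s < 1) :
    ContinuousOn (fun z : Mat n × Mat n => Gam s z.1 z.2) (Dm n) := by
  have : FirstCountableTopology (Mat n) := fct
  intro z0 hz0
  obtain ⟨δ, R, hδ, hR, hev⟩ := local_unif hz0
  obtain ⟨C, hCpos, hb⟩ := hG n δ R hδ hR
  have := (hS s h0 h1).2.1
  refine continuousWithinAt_of_dominated (μ := volume.restrict (Ioi (0 : ℝ)))
    (F := fun (z : Mat n × Mat n) τ => wt s τ * gam z.1 z.2 τ)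
    (bound := fun τ => C * (wt s τ * mt τ)) ?_ ?_ (this.const_mul _) ?_
  · filter_upwards [self_mem_nhdsWithin] with z hz
    exact ((wt_continuousOn s).mul ((hC n).2.2.2.1 z hz)).aestronglyMeasurable
      measurableSet_Ioi
  · filter_upwards [hev, self_mem_nhdsWithin] with z hz hz'
    refine (ae_restrict_iff' measurableSet_Ioi).mpr (Eventually.of_forall fun τ hτ => ?_)
    have hτ' : 0 < τ := hτ
    have := (hb z.1 z.2 τ hz' hz.1 hz.2 hτ').1
    rw [norm_mul, Real.norm_of_nonneg (wt_nonneg hS h0 h1 hτ'), Real.norm_eq_abs]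
    calc wt s τ * |gam z.1 z.2 τ| ≤ wt s τ * (C * mt τ) :=
          mul_le_mul_of_nonneg_left this (wt_nonneg hS h0 h1 hτ')
      _ = _ := by ring
  · refine (ae_restrict_iff' measurableSet_Ioi).mpr (Eventually.of_forall fun τ hτ => ?_)
    exact continuousWithinAt_const.mul ((hC n).2.1 τ hτ z0 hz0)

omit hE in
lemma G_int (hG : S_GAMB) {s : ℝ} (h0 : 0 < s) (h1 : s < 1) {z : Mat n × Mat n}
    (hz : z ∈ Dm n) : IntegrableOn (fun τ => wt s τ * gam z.1 z.2 τ) (Ioi 0) := by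
  obtain ⟨δ, R, hδ, hR, hev⟩ := local_unif hz
  obtain ⟨C, hCpos, hb⟩ := hG n δ R hδ hR
  have h2 := (hS s h0 h1).2.1
  have hz2 := hev.self_of_nhdsWithin hz
  refine (h2.const_mul C).mono' (((wt_continuousOn s).mul
    ((hC n).2.2.2.1 z hz)).aestronglyMeasurable measurableSet_Ioi) ?_
  refine (ae_restrict_iff' measurableSet_Ioi).mpr (Eventually.of_forall fun τ hτ => ?_)
  have hτ' : 0 < τ := hτ
  have := (hb z.1 z.2 τ hz hz2.1 hz2.2 hτ').1
  rw [norm_mul, Real.norm_of_nonneg (wt_nonneg hS h0 h1 hτ'), Real.norm_eq_abs]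
  calc wt s τ * |gam z.1 z.2 τ| ≤ wt s τ * (C * mt τ) :=
        mul_le_mul_of_nonneg_left this (wt_nonneg hS h0 h1 hτ')
    _ = _ := by ring

lemma B_int {s : ℝ} (h0 : 0 < s) (h1 : s < 1) {z : Mat n × Mat n}
    (hz : z ∈ Dm n) (i j : Fin n) :
    IntegrableOn (fun τ => (wt s τ : ℂ) * ell z.1 z.2 τ i j) (Ioi 0) := by
  obtain ⟨δ, R, hδ, hR, hev⟩ := local_unif hz
  obtain ⟨C, hCpos, hb⟩ := hE n δ R hδ hR
  have h2 := (hS s h0 h1).2.1
  have hz2 := hev.self_of_nhdsWithin hz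
  refine (h2.const_mul (2 * C)).mono' (aesm_ell hC hz i j) ?_
  refine (ae_restrict_iff' measurableSet_Ioi).mpr (Eventually.of_forall fun τ hτ => ?_)
  have hτ' : 0 < τ := hτ
  obtain ⟨b1, b2⟩ := hb z.1 z.2 τ hz hz2.1 hz2.2 hτ'
  have := norm_le_abs_of_psd b1 b2 i j
  rw [norm_mul, Complex.norm_real, Real.norm_of_nonneg (wt_nonneg hS h0 h1 hτ')]
  calc wt s τ * ‖ell z.1 z.2 τ i j‖ ≤ wt s τ * (2 * (C * mt τ)) :=
        mul_le_mul_of_nonneg_left this (wt_nonneg hS h0 h1 hτ')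
    _ = _ := by ring

/-- `Tr H B = ∫ wt Tr H ℓ` -/
lemma rt_mul_Bm {s : ℝ} (h0 : 0 < s) (h1 : s < 1) {z : Mat n × Mat n}
    (hz : z ∈ Dm n) (H : Mat n) :
    IntegrableOn (fun τ => wt s τ * rt (H * ell z.1 z.2 τ)) (Ioi 0) ∧
    rt (H * Bm s z.1 z.2) = ∫ τ in Ioi (0 : ℝ), wt s τ * rt (H * ell z.1 z.2 τ) := by
  have hi := fun i j => B_int hS hC hE h0 h1 hz i j
  have e : ∀ τ, wt s τ * rt (H * ell z.1 z.2 τ)
      = (∑ i, ∑ j, H i j * ((wt s τ : ℂ) * ell z.1 z.2 τ j i)).re := by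
    intro τ
    have : ∑ i, ∑ j, H i j * ((wt s τ : ℂ) * ell z.1 z.2 τ j i)
        = (wt s τ : ℂ) * (H * ell z.1 z.2 τ).trace := by
      simp only [Matrix.trace, Matrix.diag, Matrix.mul_apply, Finset.mul_sum]
      refine Finset.sum_congr rfl fun i _ => Finset.sum_congr rfl fun j _ => ?_
      ring
    rw [this, Complex.re_ofReal_mul, rt]
  have hI : IntegrableOn (fun τ => ∑ i, ∑ j, H i j * ((wt s τ : ℂ) * ell z.1 z.2 τ j i))
      (Ioi 0) := integrable_finsetSum _ fun i _ => integrable_finsetSum _ fun j _ =>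
        (hi j i).const_mul _
  constructor
  · simp only [e]
    exact hI.re
  · simp only [e]
    have h2 : ∫ τ in Ioi (0 : ℝ), (∑ i, ∑ j, H i j * ((wt s τ : ℂ) * ell z.1 z.2 τ j i)).re
        = (∫ τ in Ioi (0 : ℝ), ∑ i, ∑ j, H i j * ((wt s τ : ℂ) * ell z.1 z.2 τ j i)).re :=
      (integral_re hI)
    have hj : ∀ i j, Integrable (fun τ => H i j * ((wt s τ : ℂ) * ell z.1 z.2 τ j i))
        (volume.restrict (Ioi (0 : ℝ))) := fun i j => (hi j i).const_mul _
    have h3 : ∫ τ in Ioi (0 : ℝ), (∑ i, ∑ j, H i j * ((wt s τ : ℂ) * ell z.1 z.2 τ j i))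
        = ∑ i, ∑ j, H i j * ∫ τ in Ioi (0 : ℝ), (wt s τ : ℂ) * ell z.1 z.2 τ j i := by
      refine (integral_finsetSum Finset.univ
        (fun i _ => integrable_finsetSum _ fun j _ => hj i j)).trans ?_
      refine Finset.sum_congr rfl fun i _ => ?_
      refine (integral_finsetSum Finset.univ (fun j _ => hj i j)).trans ?_
      refine Finset.sum_congr rfl fun j _ => ?_
      exact integral_const_mul _ _
    rw [h2, h3]
    simp only [rt, Matrix.trace, Matrix.diag, Matrix.mul_apply, Bm, Matrix.of_apply]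

omit hS hC hE in
lemma ell_herm (κ Q : Mat n) (τ : ℝ) : (ell κ Q τ).IsHermitian := by
  unfold ell mlog
  refine Matrix.IsHermitian.sub (Matrix.IsHermitian.add ?_ ?_) (isHermitian_smul_one _)
  · exact cfc_predicate Real.log (Pt κ Q τ)
  · exact cfc_predicate Real.log (Qt κ Q τ)

omit hS hC hE in
lemma B_herm (s : ℝ) (κ Q : Mat n) : (Bm s κ Q).IsHermitian := by
  ext i j
  rw [conjTranspose_apply]
  simp only [Bm, Matrix.of_apply, RCLike.star_def]
  rw [← integral_conj]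
  congr 1
  funext τ
  rw [map_mul, Complex.conj_ofReal]
  congr 1
  have := congrFun (congrFun (ell_herm κ Q τ).eq i) j
  rw [conjTranspose_apply] at this
  exact this

omit hS hC hE in
lemma gam_zero (κ : Mat n) (τ : ℝ) : gam κ 0 τ = 0 := by
  simp [gam, Pt, Qt, rt_zero]

omit hS hC hE in
lemma G_zero (s : ℝ) (κ : Mat n) : Gam s κ 0 = 0 := by
  simp [Gam, gam_zero]

omit hE in
lemma G_int' (hG : S_GAMB) {s : ℝ} (h0 : 0 < s) (h1 : s < 1) {κ Q : Mat n}
    (hz : (κ, Q) ∈ Dm n) : IntegrableOn (fun τ => wt s τ * gam κ Q τ) (Ioi 0) :=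
  G_int (z := (κ, Q)) hS hC hG h0 h1 hz

lemma rt_mul_Bm' {s : ℝ} (h0 : 0 < s) (h1 : s < 1) {κ Q : Mat n}
    (hz : (κ, Q) ∈ Dm n) (H : Mat n) :
    IntegrableOn (fun τ => wt s τ * rt (H * ell κ Q τ)) (Ioi 0) ∧
    rt (H * Bm s κ Q) = ∫ τ in Ioi (0 : ℝ), wt s τ * rt (H * ell κ Q τ) :=
  rt_mul_Bm (z := (κ, Q)) hS hC hE h0 h1 hz H

omit hS hE in
lemma aesm_gam' {s : ℝ} {κ Q : Mat n} (hz : (κ, Q) ∈ Dm n) :
    AEStronglyMeasurable (fun τ => wt s τ * gam κ Q τ) (volume.restrict (Ioi (0 : ℝ))) :=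
  ((wt_continuousOn s).mul ((hC n).2.2.2.1 (κ, Q) hz)).aestronglyMeasurable measurableSet_Ioi

omit hS hC hE in
lemma seg_mem {κ Q Q' : Mat n} (h : (κ, Q) ∈ Dm n) (h' : (κ, Q') ∈ Dm n) : ∃ δ : ℝ, 0 < δ ∧
    ∀ t : ℝ, 0 ≤ t → t ≤ 1 → (κ, Q + t • (Q' - Q)) ∈ Dm n ∧
      (κ + κ - (Q + t • (Q' - Q)) - δ • (1 : Mat n)).PosSemidef := by
  obtain ⟨d1, hd1, p1⟩ := exists_pos_le h.2
  obtain ⟨d2, hd2, p2⟩ := exists_pos_le h'.2
  have hδ : 0 < min d1 d2 := lt_min hd1 hd2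
  have hle : ∀ d : ℝ, min d1 d2 ≤ d → ((d - min d1 d2) • (1 : Mat n)).PosSemidef := by
    intro d hd
    exact Matrix.PosSemidef.one.smul (by linarith : (0 : ℝ) ≤ d - min d1 d2)
  have q1 : ((κ + κ - Q) - min d1 d2 • (1 : Mat n)).PosSemidef :=
    psd_congr (p1.add (hle d1 (min_le_left _ _))) (by rw [sub_smul]; abel)
  have q2 : ((κ + κ - Q') - min d1 d2 • (1 : Mat n)).PosSemidef :=
    psd_congr (p2.add (hle d2 (min_le_right _ _))) (by rw [sub_smul]; abel)
  refine ⟨min d1 d2, hδ, fun t ht0 ht1 => ?_⟩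
  have r1 : (κ + κ - (Q + t • (Q' - Q)) - min d1 d2 • (1 : Mat n)).PosSemidef := by
    refine psd_congr ((q1.smul (by linarith : (0 : ℝ) ≤ 1 - t)).add (q2.smul ht0)) ?_
    module
  refine ⟨⟨?_, ?_⟩, r1⟩
  · refine psd_congr ((h.1.smul (by linarith : (0 : ℝ) ≤ 1 - t)).add (h'.1.smul ht0)) ?_
    simp only
    module
  · have : κ + κ - (Q + t • (Q' - Q)) = (κ + κ - (Q + t • (Q' - Q)) - min d1 d2 • (1 : Mat n))
      + min d1 d2 • (1 : Mat n) := by abel
    simp only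
    rw [this]
    exact Matrix.PosDef.posSemidef_add r1 (Matrix.PosDef.one.smul hδ)

omit hS hC hE in
lemma abs_rt_mul_le {H E : Mat n} {c : ℝ} (h : ∀ i j, ‖E i j‖ ≤ c) :
    |rt (H * E)| ≤ (∑ i, ∑ j, ‖H i j‖) * c := by
  refine (Complex.abs_re_le_norm _).trans ?_
  simp only [Matrix.trace, Matrix.diag, Matrix.mul_apply, Finset.sum_mul]
  refine (norm_sum_le _ _).trans (Finset.sum_le_sum fun i _ => ?_)
  refine (norm_sum_le _ _).trans (Finset.sum_le_sum fun j _ => ?_)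
  rw [norm_mul]
  exact mul_le_mul_of_nonneg_left (h j i) (norm_nonneg _)

omit hS hC hE in
lemma gam_shift (hD : S_GDER) {κ Q H : Mat n} {τ x : ℝ} (hτ : 0 < τ) (hH : H.IsHermitian)
    (p1 : (Pt κ (Q + x • H) τ).PosDef) (p2 : (Qt κ (Q + x • H) τ).PosDef) :
    HasDerivAt (fun y : ℝ => gam κ (Q + y • H) τ) (rt (H * ell κ (Q + x • H) τ)) x := by
  have g1 := hD n κ _ H τ hτ hH p1 p2
  have g2 : HasDerivAt (fun y : ℝ => gam κ (Q + x • H + (y - x) • H) τ)
      (rt (H * ell κ (Q + x • H) τ)) x :=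
    HasDerivAt.comp_sub_const (x := x) (a := x) (f := fun t : ℝ =>
      gam κ (Q + x • H + t • H) τ) (by rw [sub_self]; exact g1)
  refine g2.congr_of_eventuallyEq (Eventually.of_forall fun y => ?_)
  have : Q + x • H + (y - x) • H = Q + y • H := by module
  simp only [this]

lemma Gam_deriv (hG : S_GAMB) (hP : S_POS) (hD : S_GDER) {s : ℝ} (h0 : 0 < s) (h1 : s < 1)
    {κ Q H : Mat n} (hH : H.IsHermitian) {δ R t : ℝ} (hδ : 0 < δ) (hRpos : 0 < R)
    (hR : (R • (1 : Mat n) - κ).PosSemidef)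
    (hseg : ∀ t : ℝ, 0 ≤ t → t ≤ 1 → (κ, Q + t • H) ∈ Dm n ∧
      (κ + κ - (Q + t • H) - δ • (1 : Mat n)).PosSemidef) (ht : t ∈ Ioo (0 : ℝ) 1) :
    HasDerivAt (fun t : ℝ => Gam s κ (Q + t • H)) (rt (H * Bm s κ (Q + t • H))) t := by
  obtain ⟨C, hCpos, hb⟩ := hE n δ R hδ hRpos
  have hz := (hseg t ht.1.le ht.2.le).1
  have hBm := rt_mul_Bm' hS hC hE h0 h1 hz H
  have hGi := G_int' hS hC hG h0 h1 hz
  have key := (hasDerivAt_integral_of_dominated_loc_of_deriv_le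
      (μ := volume.restrict (Ioi (0 : ℝ)))
      (F := fun t τ => wt s τ * gam κ (Q + t • H) τ)
      (F' := fun t τ => wt s τ * rt (H * ell κ (Q + t • H) τ)) (x₀ := t)
      (s := Ioo 0 1)
      (bound := fun τ => (∑ i, ∑ j, ‖H i j‖) * (2 * C) * (wt s τ * mt τ))
      (Ioo_mem_nhds ht.1 ht.2) ?_ ?_ ?_ ?_ ?_ ?_).2
  · rw [hBm.2]
    exact key
  · filter_upwards [Ioo_mem_nhds ht.1 ht.2] with x hx
    exact aesm_gam' hC (hseg x hx.1.le hx.2.le).1
  · exact hGi
  · exact hBm.1.aestronglyMeasurable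
  · refine (ae_restrict_iff' measurableSet_Ioi).mpr (Eventually.of_forall fun τ hτ x hx => ?_)
    have hτ' : 0 < τ := hτ
    obtain ⟨m1, m2⟩ := hseg x hx.1.le hx.2.le
    obtain ⟨b1, b2⟩ := hb κ _ τ m1 hR m2 hτ'
    have h5 := abs_rt_mul_le (H := H) (norm_le_abs_of_psd b1 b2)
    rw [norm_mul, Real.norm_of_nonneg (wt_nonneg hS h0 h1 hτ'), Real.norm_eq_abs]
    calc wt s τ * |rt (H * ell κ (Q + x • H) τ)|
        ≤ wt s τ * ((∑ i, ∑ j, ‖H i j‖) * (2 * (C * mt τ))) :=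
          mul_le_mul_of_nonneg_left h5 (wt_nonneg hS h0 h1 hτ')
      _ = _ := by ring
  · exact ((hS s h0 h1).2.1).const_mul _
  · refine (ae_restrict_iff' measurableSet_Ioi).mpr (Eventually.of_forall fun τ hτ x hx => ?_)
    have hτ' : 0 < τ := hτ
    have m1 := (hseg x hx.1.le hx.2.le).1
    obtain ⟨_, _, _, p1, p2, _⟩ := hP n κ _ τ m1 hτ'
    exact (gam_shift hD hτ' hH p1 p2).const_mul _

lemma G_mvt (hG : S_GAMB) (hP : S_POS) (hD : S_GDER) {s : ℝ} (h0 : 0 < s) (h1 : s < 1)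
    {κ Q Q' : Mat n} (h : (κ, Q) ∈ Dm n) (h' : (κ, Q') ∈ Dm n) :
    ∃ θ ∈ Set.Icc (0 : ℝ) 1, Gam s κ Q' - Gam s κ Q
      ≤ rt ((Q' - Q) * Bm s κ (Q + θ • (Q' - Q))) := by
  obtain ⟨δ, hδ, hseg⟩ := seg_mem h h'
  have hκ := Dm.kpos h
  have hR : (((∑ i, ∑ j, ‖κ i j‖) + 1) • (1 : Mat n) - κ).PosSemidef :=
    psd_of_entries hκ.isHermitian (by linarith)
  have hH : (Q' - Q).IsHermitian := h'.1.isHermitian.sub h.1.isHermitian
  have e1 : Q + (1 : ℝ) • (Q' - Q) = Q' := by module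
  have e0 : Q + (0 : ℝ) • (Q' - Q) = Q := by module
  generalize Q' - Q = H at *
  have hcont : ContinuousOn (fun t : ℝ => Gam s κ (Q + t • H)) (Icc 0 1) := by
    have := (G_contOn (n := n) hS hC hG h0 h1)
    refine this.comp (f := fun t : ℝ => (κ, Q + t • H)) ?_ ?_
    · fun_prop
    · intro t ht
      exact (hseg t ht.1 ht.2).1
  have hder : ∀ t ∈ Ioo (0 : ℝ) 1, HasDerivAt (fun t : ℝ => Gam s κ (Q + t • H))
      (rt (H * Bm s κ (Q + t • H))) t := fun t ht =>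
    Gam_deriv hS hC hE hG hP hD h0 h1 hH hδ (by positivity) hR hseg ht
  obtain ⟨c, hc, hcc⟩ := exists_hasDerivAt_eq_slope (fun t : ℝ => Gam s κ (Q + t • H))
    (fun t => rt (H * Bm s κ (Q + t • H))) one_pos hcont hder
  refine ⟨c, ⟨hc.1.le, hc.2.le⟩, ?_⟩
  rw [hcc]
  simp only [e1, e0, sub_zero, div_one]
  exact le_refl _

omit hS hC hE in
lemma psd_spec_nonneg {k : Mat n} (hk : k.PosSemidef) : ∀ x ∈ spectrum ℝ k, 0 ≤ x := by
  intro x hx
  rw [hk.isHermitian.spectrum_real_eq_range_eigenvalues] at hx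
  obtain ⟨i, rfl⟩ := hx
  exact hk.eigenvalues_nonneg i

omit hS hC hE in
lemma msqrt_mul_self {k : Mat n} (hk : k.PosSemidef) : msqrt (k * k) = k := by
  have hH : IsSelfAdjoint k := hk.isHermitian
  have e1 : k * k = cfc (fun x : ℝ => x * x) k := by
    rw [cfc_mul (fun x : ℝ => x) (fun x : ℝ => x) k (Vale.P371.contOn_matrix _ _)
      (Vale.P371.contOn_matrix _ _), cfc_id' ℝ k hH]
  rw [msqrt, e1, ← cfc_comp' Real.sqrt (fun x : ℝ => x * x) k
    (Real.continuous_sqrt.continuousOn) (Vale.P371.contOn_matrix _ _) hH]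
  conv_rhs => rw [← cfc_id' ℝ k hH]
  refine cfc_congr fun x hx => ?_
  exact Real.sqrt_mul_self (psd_spec_nonneg hk x hx)

omit hE in
lemma G_conc (hG : S_GAMB) (hK : S_KMID) (hCc : S_CONC) {s : ℝ} (h0 : 0 < s) (h1 : s < 1)
    {Q k₁ k₂ k : Mat n} (m1 : (k₁, Q) ∈ Dm n) (m2 : (k₂, Q) ∈ Dm n) (hk : k.PosDef)
    (e : (2 : ℂ) • (k * k) = k₁ * k₁ + k₂ * k₂) :
    Gam s k₁ Q + Gam s k₂ Q ≤ 2 * Gam s k Q := by
  have p1 := Dm.kpos m1
  have p2 := Dm.kpos m2
  have e1 : kmid k₁ k₂ = k := by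
    rw [kmid, ← e]
    have : (1 / 2 : ℝ) • (2 : ℂ) • (k * k) = k * k := by
      have h2 : (2 : ℂ) • (k * k) = (2 : ℝ) • (k * k) := by
        rw [two_smul, two_smul]
      rw [h2, smul_smul]; norm_num
    rw [this]
    exact msqrt_mul_self hk.posSemidef
  obtain ⟨q1, q2, q3, q4⟩ := hK n k₁ k₂ p1 p2
  rw [e1] at q3
  have mk : (k, Q) ∈ Dm n := by
    refine ⟨m1.1, ?_⟩
    have : k + k - Q = ((k - (1 / 2 : ℝ) • (k₁ + k₂)) + (k - (1 / 2 : ℝ) • (k₁ + k₂)))
        + (1 / 2 : ℝ) • ((k₁ + k₁ - Q) + (k₂ + k₂ - Q)) := by module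
    simp only
    rw [this]
    exact Matrix.PosDef.posSemidef_add (q3.add q3)
      ((m1.2.add m2.2).smul (by norm_num : (0 : ℝ) < 1 / 2))
  have i1 := G_int' hS hC hG h0 h1 m1
  have i2 := G_int' hS hC hG h0 h1 m2
  have i3 := G_int' hS hC hG h0 h1 mk
  unfold Gam
  rw [← integral_add i1 i2, ← integral_const_mul]
  refine setIntegral_mono_on (i1.add i2) (i3.const_mul 2) measurableSet_Ioi fun τ hτ => ?_
  have hτ' : 0 < τ := hτ
  have h2 := hCc n k₁ k₂ Q τ m1 m2 hτ'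
  rw [e1] at h2
  have h3 := mul_le_mul_of_nonneg_left h2 (wt_nonneg hS h0 h1 hτ')
  linarith

omit hS hC hE in
lemma eig_le_rt {k : Mat n} (hk : k.PosDef) (i : Fin n) :
    hk.isHermitian.eigenvalues i ≤ rt k := by
  have h2 := rt_cfc hk.isHermitian (fun x => x)
  rw [cfc_id_eq hk.isHermitian] at h2
  rw [h2]
  exact Finset.single_le_sum (f := fun i => hk.isHermitian.eigenvalues i)
    (fun j _ => (hk.eigenvalues_pos j).le) (Finset.mem_univ i)

omit hS hC hE in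
lemma rt_log_le {k Q : Mat n} (hk : k.PosDef) (hQ : Q.PosSemidef) {τ : ℝ} (hτ : 0 < τ) :
    rt (Q * cfc (fun x : ℝ => Real.log (1 + x ^ 2 / τ)) k)
      ≤ Real.log (1 + (rt k) ^ 2 / τ) * rt Q := by
  have hH := hk.isHermitian
  have c1 := cfc_le_cfc hH (f := fun x : ℝ => Real.log (1 + x ^ 2 / τ))
    (g := fun _ : ℝ => Real.log (1 + (rt k) ^ 2 / τ)) (by
      intro i
      refine Real.log_le_log (by positivity) ?_
      have h3 := eig_le_rt hk i
      have h4 := (hk.eigenvalues_pos i).le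
      gcongr)
  rw [← smul_one_eq_cfc hH] at c1
  have c2 := rt_mul_nonneg hQ c1
  rw [Matrix.mul_sub, rt_sub, Matrix.mul_smul, Matrix.mul_one, rt_smul] at c2
  linarith

omit hE in
lemma G_le (hG : S_GAMB) {s : ℝ} (h0 : 0 < s) (h1 : s < 1)
    {Q k : Mat n} (m : (k, Q) ∈ Dm n) : Gam s k Q ≤ rt Q * (rt k) ^ (2 * s) := by
  have hk := Dm.kpos m
  have hrk : 0 ≤ rt k := rt_nonneg hk.posSemidef
  obtain ⟨δ, R, hδ, hR, hev⟩ := local_unif m
  have hz2 := hev.self_of_nhdsWithin m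
  obtain ⟨C, hCpos, hb⟩ := hG n δ R hδ hR
  have hpt : ∀ τ ∈ Ioi (0 : ℝ), wt s τ * gam k Q τ
      ≤ rt Q * (wt s τ * Real.log (1 + (rt k) ^ 2 / τ)) := by
    intro τ hτ
    have hτ' : 0 < τ := hτ
    have b := (hb k Q τ m hz2.1 hz2.2 hτ').2
    have c3 : gam k Q τ ≤ Real.log (1 + (rt k) ^ 2 / τ) * rt Q :=
      b.trans (rt_log_le hk m.1 hτ')
    calc wt s τ * gam k Q τ ≤ wt s τ * (Real.log (1 + (rt k) ^ 2 / τ) * rt Q) :=
          mul_le_mul_of_nonneg_left c3 (wt_nonneg hS h0 h1 hτ')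
      _ = _ := by ring
  have hx := (hS s h0 h1).2.2.1 ((rt k) ^ 2) (sq_nonneg _)
  have h5 : Gam s k Q ≤ ∫ τ in Ioi (0 : ℝ), rt Q * (wt s τ * Real.log (1 + (rt k) ^ 2 / τ)) :=
    setIntegral_mono_on (G_int' hS hC hG h0 h1 m) (hx.1.const_mul _) measurableSet_Ioi hpt
  rw [integral_const_mul, hx.2] at h5
  have h6 : (rt k ^ 2) ^ s = rt k ^ (2 * s) := by
    rw [← Real.rpow_natCast, ← Real.rpow_mul hrk, Nat.cast_ofNat]
  rw [h6] at h5
  exact h5

omit hS hC hE in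
lemma csmul_eq (c : ℝ) (A : Mat n) : (c : ℂ) • A = c • A := by
  ext i j
  simp

/-- The interface. -/
noncomputable def theFun (hG : S_GAMB) (hP : S_POS) (hD : S_GDER) (hK : S_KMID) (hCc : S_CONC)
    (hCo : S_COMM) (hHJ : S_HJM) {s : ℝ} (h0 : 0 < s) (h1 : s < 1) : LTG.Fun s (Fin n) where
  G Q k := Gam s k Q
  B Q k := Bm s k Q
  G_cont := by
    have := G_contOn (n := n) hS hC hG h0 h1
    refine this.comp (f := fun p : Mat n × Mat n => (p.2, p.1)) ?_ ?_
    · fun_prop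
    · intro p hp
      exact (dom_iff _ _).mp hp
  B_cont := by
    have := B_contOn (n := n) hS hC hE h0 h1
    refine this.comp (f := fun p : Mat n × Mat n => (p.2, p.1)) ?_ ?_
    · fun_prop
    · intro p hp
      exact (dom_iff _ _).mp hp
  B_herm Q k _ := B_herm s k Q
  G_zero k _ := G_zero s k
  G_mvt Q Q' k h h' := by
    obtain ⟨θ, hθ, h2⟩ := G_mvt hS hC hE hG hP hD h0 h1 ((dom_iff _ _).mp h)
      ((dom_iff _ _).mp h')
    refine ⟨θ, hθ, ?_⟩
    rw [csmul_eq]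
    exact h2
  G_conc Q k₁ k₂ k h₁ h₂ hk e := G_conc hS hC hG hK hCc h0 h1 ((dom_iff _ _).mp h₁)
    ((dom_iff _ _).mp h₂) hk e
  G_le Q k h := G_le hS hC hG h0 h1 ((dom_iff _ _).mp h)
  HJ Q k Y h hY := by
    have := hHJ n s k Q Y h0 h1 ((dom_iff _ _).mp h) hY
    rw [tp_eq hY.isHermitian, am_eq]
    simp only [rt] at this ⊢
    linarith
  G_end Q η hQ hη := by
    have h2 := hCo n s Q η h0 h1 hQ hη
    have e : (1 / 2 : ℂ) • (Q + (η : ℂ) • (1 : Mat n)) = (1 / 2 : ℝ) • (Q + η • (1 : Mat n)) := by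
      have : (1 / 2 : ℂ) = ((1 / 2 : ℝ) : ℂ) := by push_cast; rfl
      rw [this, csmul_eq, csmul_eq]
    have hH : ((1 / 2 : ℝ) • (Q + η • (1 : Mat n))).IsHermitian := by
      rw [Matrix.IsHermitian, conjTranspose_smul, conjTranspose_add, hQ.isHermitian.eq,
        (isHermitian_smul_one η).eq]
      simp
    rw [e, tp_eq hH, tp_eq hH]
    exact h2

end

theorem iface (hS : S_SCAL) (hC : S_CONT) (hE : S_ELLB) (hG : S_GAMB) (hP : S_POS)
    (hD : S_GDER) (hK : S_KMID) (hCc : S_CONC) (hCo : S_COMM) (hHJ : S_HJM) : S_IFACE :=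
  fun _ _ h0 h1 => ⟨theFun hS hC hE hG hP hD hK hCc hCo hHJ (by linarith) h1⟩

end Vale.P371G
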